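import Vale.Agent.P065.H344.ThinSys
import Vale.Agent.P065.H279.NearSys
import Vale.Agent.P065.H987.ACont

/-!
# P065, assembly, case (II): the parameter choice of `HThin` (helper344)

From the final inequality for the short part (562), with the information bound of 154, to `HThin`.
-/

set_option autoImplicit false

open Finset Real

noncomputable section

namespace Vale.Agent.P065.H806

open Vale.Agent.P065.UB Vale.Agent.P065.Ent Vale.Agent.P065.H268 Vale.Agent.P065.H154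
  Vale.Agent.P065.H700 Vale.Agent.P065.H344 Vale.Agent.P065.H279

namespace Sys

variable {B₀ K₁ PP Γ s₀ Λ kN : ℕ} {c₂ ρ ε₂ e : ℝ} {n g : ℕ}
  (S : Sys B₀ K₁ PP Γ s₀ Λ kN c₂ ρ ε₂ e n g)

/-- the rows of the law `Q` are at most the content of the columns -/
theorem rows_Q_le (hB : 1 ≤ B₀) (hg : 1 ≤ g) (u : ℝ) (a N : ℕ) :
    ∑ t ∈ range N, Hc S.Q (Rt S.F S.ln S.p u a (t + 1))
      (fun z => (S.F.D u (t + 1) z.2, Rt S.F S.ln S.p u a t z)) ≤ (2 * e + 2 * log B₀) * g := by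
  have hQ := S.probQ hg
  have h1 : ∀ t ∈ range N, Hc S.Q (Rt S.F S.ln S.p u a (t + 1))
      (fun z => (S.F.D u (t + 1) z.2, Rt S.F S.ln S.p u a t z)) ≤
      Hc S.Q (Rt S.F S.ln S.p u a (t + 1)) (Rt S.F S.ln S.p u a t) := fun t _ =>
    Hc_anti hQ _ (det_snd (fun z : S.p.Col × S.Ω => S.F.D u (t + 1) z.2)
      (Rt S.F S.ln S.p u a t))
  refine (sum_le_sum h1).trans ?_
  have h2 : ∀ t, Hc S.Q (Rt S.F S.ln S.p u a (t + 1)) (Rt S.F S.ln S.p u a t) =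
      H S.Q (Rt S.F S.ln S.p u a (t + 1)) - H S.Q (Rt S.F S.ln S.p u a t) := fun t =>
    Hc_eq (Det.refl _) (Rt_det u a t) (det_fst _ _)
  rw [sum_congr rfl fun t _ => h2 t,
    sum_range_sub (fun t => H S.Q (Rt S.F S.ln S.p u a t)) N]
  have h3 : Hc S.Q (Rt S.F S.ln S.p u a N) (Rt S.F S.ln S.p u a 0) =
      H S.Q (Rt S.F S.ln S.p u a N) - H S.Q (Rt S.F S.ln S.p u a 0) :=
    Hc_eq (Det.refl _) (Rt_det_le u a (Nat.zero_le N)) (det_fst _ _)
  rw [← h3]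
  have h4 := Hc_anti hQ (Rt S.F S.ln S.p u a N)
    (Rt_col (F := S.F) (ln := S.ln) (p := S.p) u a 0)
  have h5 := Hc_mono_left (Y := fun z : S.p.Col × S.Ω => z.1) hQ
    (rb_Rt (F := S.F) (ln := S.ln) (p := S.p) (lam := S.lam) u a N)
  exact h4.trans (h5.trans (Hc_rb_le S hB hg))

/-- the information bound of 154 (`sum_TIT_le`) for the final system -/
def infB (m m' : ℕ) : ℝ := (12 * m * H987.XA S.p (Λ * g) +
  4 * (2 * 4 ^ S.p.PP * S.p.nT * m' * (m * H S.μ S.F.P.x))) / S.C.J S.μ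

theorem H_x_le (hB : 1 ≤ B₀) : H S.μ S.F.P.x ≤ 2 * g * B₀ := by
  classical
  have h1 : H S.μ S.F.P.x ≤ H S.μ (S.F.P.W S.F.n) := H_mono S.hμ S.F.xW
  have h2 := H_le_log S.hμ (S.F.P.W S.F.n) (univ.image (S.F.P.W S.F.n))
    (fun a => mem_image_of_mem _ (mem_univ _)) (card_pos.2 (univ_nonempty.image _))
  exact h1.trans (h2.trans (S.log_leaves hB))

theorem infB_le (hB : 1 ≤ B₀) (hg : 1 ≤ g) (m m' : ℕ) : S.infB m m' ≤
    ((24 * m * 2 ^ PP * PP * Λ + 16 * 4 ^ PP * m' * m * B₀) * Λ) * (1 + log g) := by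
  have hg0 : (0 : ℝ) < g := by exact_mod_cast hg
  have hg1 : (1 : ℝ) ≤ g := by exact_mod_cast hg
  have hlg : 0 ≤ log (g : ℝ) := log_nonneg hg1
  have hnT : (0 : ℝ) < S.p.nT := by exact_mod_cast S.p.nT_pos
  have hΛ : (0 : ℝ) < Λ := by exact_mod_cast S.Λ_pos
  have hJ1 := S.J1_pos hg
  have hJ : S.p.nT * S.J1 ≤ S.C.J S.μ := S.J
  have hPP := S.PP_eq
  have hH := S.H_x_le hB
  have h0 : 0 ≤ H S.μ S.F.P.x := H_nonneg S.hμ _
  have hnum : 12 * m * H987.XA S.p (Λ * g) +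
      4 * (2 * 4 ^ S.p.PP * S.p.nT * m' * (m * H S.μ S.F.P.x)) ≤
      (24 * m * 2 ^ PP * PP * Λ + 16 * 4 ^ PP * m' * m * B₀) * (S.p.nT * g) := by
    unfold H987.XA
    rw [hPP]
    have h1 : 4 * (2 * 4 ^ PP * S.p.nT * m' * (m * H S.μ S.F.P.x)) ≤
        4 * (2 * 4 ^ PP * S.p.nT * m' * (m * (2 * g * B₀))) := by
      refine mul_le_mul_of_nonneg_left ?_ (by norm_num)
      refine mul_le_mul_of_nonneg_left ?_ (by positivity)
      exact mul_le_mul_of_nonneg_left hH (Nat.cast_nonneg _)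
    refine (add_le_add le_rfl h1).trans (le_of_eq ?_)
    ring
  have hX0 : 0 ≤ 24 * m * 2 ^ PP * PP * (Λ : ℝ) + 16 * 4 ^ PP * m' * m * B₀ := by positivity
  have hn0 : 0 ≤ 12 * m * H987.XA S.p (Λ * g) +
      4 * (2 * 4 ^ S.p.PP * S.p.nT * m' * (m * H S.μ S.F.P.x)) := by
    unfold H987.XA
    positivity
  have hp : 0 < S.p.nT * S.J1 := mul_pos hnT hJ1
  unfold infB
  refine (div_le_div_of_nonneg_left hn0 hp hJ).trans ?_
  refine (div_le_div_of_nonneg_right hnum hp.le).trans (le_of_eq ?_)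
  unfold J1
  have h7 : (1 + log (g : ℝ)) ≠ 0 := by positivity
  field_simp

end Sys

open Sys

open Classical in
/-- **the final inequality for the short part** (562, with the information bound of 154); `CI` is
the constant of the information -/
def ShortLe : Prop := ∃ CI : ℕ → ℕ → ℕ → ℕ → ℕ → ℕ → ℕ → ℕ → ℕ → ℝ,
  ∀ {B₀ K₁ PP Γ s₀ Λ kN : ℕ} {c₂ ρ ε₂ e : ℝ} {n g : ℕ}
  (S : Sys B₀ K₁ PP Γ s₀ Λ kN c₂ ρ ε₂ e n g), 1 ≤ B₀ → 1 ≤ g →
  ∀ (u : ℝ) (a gC dX PB0 PB PC a2 : ℕ)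
  (M0 ps : ℝ), 1 < a → a ≤ S.p.Γ → dX = PB0 + a → 1 ≤ gC → gC ≤ dX → gC + 14 ≤ PC → PC ≤ PB0 →
  PC ≤ S.p.PP → PB0 ≤ PB → 3 * (2 ^ a + 1) ≤ 2 ^ a2 → 1 ≤ M0 → 0 < ps → ps ≤ 1 / 4 →
  ps ≤ exp (-(2000 * M0 * ((2 * 2 ^ dX : ℕ) : ℝ) * ((2 * 2 ^ dX * 2 ^ (PB0 + a) : ℕ) : ℝ) * 9)) →
  S.short u a PB ps ≤
    2 * (ncut S.F S.ln S.p S.Q a gC (S.F.P.T + s₀) s₀ u +
      4 * (2 ^ (a - 1) : ℝ)⁻¹ * Hc S.Q (rb S.F S.ln S.p S.lam) (fun z => z.1)) +
    20 * (2 * ((a - 1 : ℕ) : ℝ) * (2 ^ (a - 1) : ℝ)⁻¹ *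
      Hc S.Q (rb S.F S.ln S.p S.lam) (fun z => z.1)) +
    32 * ((2 * 2 ^ dX * 2 ^ (PB0 + a) : ℕ) : ℝ) * 9 *
      (CI B₀ PP Λ a gC PB0 PB PC a2 * (1 + log g)) +
    4 / M0 * (dX * ∑ t ∈ range (S.F.P.T + s₀ + dX), Hc S.Q (Rt S.F S.ln S.p u a (t + 1))
      (fun z => (S.F.D u (t + 1) z.2, Rt S.F S.ln S.p u a t z))) +
    3 * PB

/-- **the parameter choice** -/
theorem thin_par (h : ShortLe) : HThin := by
  obtain ⟨CIf, h⟩ := h
  intro B₀ K₁ c₂ ρ ε₂ e δ hB hK he hδ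
  have hB1 : 1 ≤ B₀ := by omega
  have hlB : 0 ≤ log (B₀ : ℝ) := log_nonneg (by exact_mod_cast hB1)
  set cst : ℝ := 2 * e + 2 * log B₀ with hcst
  have hcst0 : 0 < cst := by rw [hcst]; linarith
  obtain ⟨sa, hsa⟩ := exists_pow_small (80 * cst) (d := δ / 8) (by positivity)
  obtain ⟨gc₀, hgc₀⟩ := exists_pow_small (8 * cst) (d := δ / 2) (by positivity)
  refine ⟨sa + 2, fun a ha => ?_⟩
  have ha1 : 1 < a := by omega
  -- the constants
  set gC : ℕ := max gc₀ 2 with hgC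
  set PC : ℕ := gC + 14 with hPC
  set dX : ℕ := PC + a with hdX
  set a2 : ℕ := a + 3 with ha2
  set M0 : ℝ := 1 + 64 * dX * cst / δ with hM0
  have hM1 : 1 ≤ M0 := by rw [hM0]; have : 0 ≤ 64 * dX * cst / δ := by positivity
                          linarith
  have hM00 : 0 < M0 := by linarith
  set KK : ℝ := 2000 * M0 * ((2 * 2 ^ dX : ℕ) : ℝ) * ((2 * 2 ^ dX * 2 ^ (PC + a) : ℕ) : ℝ) * 9
    with hKK
  refine ⟨min (1 / 4) (exp (-KK)), by positivity, min_le_left _ _, PC, fun PB hPB =>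
    ⟨PC, 0, 0, ?_⟩⟩
  intro PP hPP Γ _ s₀ _ haΓ _ Λ
  refine ⟨Λ + 2, fun kN hkN => ?_⟩
  obtain ⟨g₁, hg₁⟩ := thin_short B₀ a PB Λ hB1 (show (0 : ℝ) < δ / 4 by positivity) hkN
  set CI : ℝ := |CIf B₀ PP Λ a gC PC PB PC a2| with hCI
  have hCI0 : 0 ≤ CI := abs_nonneg _
  set NN : ℝ := ((2 * 2 ^ dX * 2 ^ (PC + a) : ℕ) : ℝ) with hNN
  have hNN0 : 0 ≤ NN := Nat.cast_nonneg _
  obtain ⟨g₂, hg₂⟩ := exists_log_le (2 * (32 * NN * 9 * CI)) (2 * (32 * NN * 9 * CI) + 6 * PB)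
    (show (0 : ℝ) < δ / 8 by positivity)
  refine ⟨max g₁ (max g₂ 1), fun n g hg S => ?_⟩
  have hgg1 : g₁ ≤ g := (le_max_left _ _).trans hg
  have hgg2 : g₂ ≤ g := (le_max_left _ _).trans ((le_max_right _ _).trans hg)
  have hg1 : 1 ≤ g := (le_max_right _ _).trans ((le_max_right _ _).trans hg)
  have hgr : (1 : ℝ) ≤ g := by exact_mod_cast hg1
  have hg0 : (0 : ℝ) < g := by linarith
  have hQ := S.probQ hg1
  have hHq := Hc_rb_le S hB1 hg1
  rw [← hcst] at hHq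
  have hHq0 : 0 ≤ Hc S.Q (rb S.F S.ln S.p S.lam) (fun z => z.1) := Hc_nonneg hQ _ _
  have hgC2 : 2 ≤ gC := le_max_right _ _
  refine ⟨fun u => 4 * ncut S.F S.ln S.p S.Q a gC (S.F.P.T + s₀) s₀ u, fun u =>
    mul_nonneg (by norm_num) (ncut_nonneg hQ _ _ _ _ _), ?_, fun u => ?_⟩
  · -- the average
    have h1 := (avLe_ncut (F := S.F) (ln := S.ln) hQ S.lam a hgC2 (S.F.P.T + s₀) s₀
      (show 0 < δ * g / 8 by positivity)).const_mul (c := 4) (by norm_num)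
    refine h1.mono (fun u => le_rfl) ?_
    have h3 := hgc₀ gC (le_max_left _ _)
    have h5 : 4 * (2 / 2 ^ gC * (gC + 2) *
        Hc S.Q (rb S.F S.ln S.p S.lam) (fun z : S.p.Col × S.Ω => z.1)) ≤ δ / 2 * g := by
      calc 4 * (2 / 2 ^ gC * (gC + 2) *
            Hc S.Q (rb S.F S.ln S.p S.lam) (fun z : S.p.Col × S.Ω => z.1))
          ≤ 4 * (2 / 2 ^ gC * (gC + 2) * (cst * g)) := by
            refine mul_le_mul_of_nonneg_left ?_ (by norm_num)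
            exact mul_le_mul_of_nonneg_left hHq (by positivity)
        _ = (8 * cst * (gC + 2) / 2 ^ gC) * g := by ring
        _ ≤ δ / 2 * g := mul_le_mul_of_nonneg_right h3 hg0.le
    rw [mul_add]
    nlinarith [mul_pos hδ hg0]
  · -- the inequality
    have hps0 : 0 < min (1 / 4) (exp (-KK)) := by positivity
    have h1 := hg₁ K₁ PP Γ s₀ c₂ ρ ε₂ e n g hgg1 S u (min (1 / 4) (exp (-KK))) hps0
      (min_le_left _ _)
    have h2 := h S hB1 hg1 u a gC dX PC PB PC a2 M0 (min (1 / 4) (exp (-KK))) ha1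
      (haΓ.trans S.Γ_le) hdX (by omega) (by omega) le_rfl le_rfl (by rw [S.PP_eq]; exact hPP)
      hPB (by rw [ha2, pow_add]; have := Nat.one_le_two_pow (n := a); omega) hM1 hps0
      (min_le_left _ _) (min_le_right _ _)
    rw [← hNN] at h2
    -- middle and near rows
    have k1 : 2 * (2 * (4 * (2 ^ (a - 1) : ℝ)⁻¹ *
        Hc S.Q (rb S.F S.ln S.p S.lam) (fun z => z.1)) +
        20 * (2 * ((a - 1 : ℕ) : ℝ) * (2 ^ (a - 1) : ℝ)⁻¹ *
          Hc S.Q (rb S.F S.ln S.p S.lam) (fun z => z.1))) ≤ δ / 8 * g := by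
      have h3 := hsa (a - 1) (by omega)
      have h4 : (0 : ℝ) ≤ ((a - 1 : ℕ) : ℝ) := Nat.cast_nonneg _
      have h5 : (0 : ℝ) < (2 ^ (a - 1) : ℝ)⁻¹ := by positivity
      have h6 : 2 * (2 * (4 * (2 ^ (a - 1) : ℝ)⁻¹ *
          Hc S.Q (rb S.F S.ln S.p S.lam) (fun z => z.1)) +
          20 * (2 * ((a - 1 : ℕ) : ℝ) * (2 ^ (a - 1) : ℝ)⁻¹ *
            Hc S.Q (rb S.F S.ln S.p S.lam) (fun z => z.1))) =
          (16 + 80 * ((a - 1 : ℕ) : ℝ)) * (2 ^ (a - 1) : ℝ)⁻¹ *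
            Hc S.Q (rb S.F S.ln S.p S.lam) (fun z => z.1) := by ring
      rw [h6]
      calc (16 + 80 * ((a - 1 : ℕ) : ℝ)) * (2 ^ (a - 1) : ℝ)⁻¹ *
            Hc S.Q (rb S.F S.ln S.p S.lam) (fun z => z.1)
          ≤ (16 + 80 * ((a - 1 : ℕ) : ℝ)) * (2 ^ (a - 1) : ℝ)⁻¹ * (cst * g) :=
            mul_le_mul_of_nonneg_left hHq (by positivity)
        _ ≤ (80 * (((a - 1 : ℕ) : ℝ) + 2)) * (2 ^ (a - 1) : ℝ)⁻¹ * (cst * g) := by
            refine mul_le_mul_of_nonneg_right ?_ (by positivity)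
            exact mul_le_mul_of_nonneg_right (by linarith) h5.le
        _ = (80 * cst * (((a - 1 : ℕ) : ℝ) + 2) / 2 ^ (a - 1)) * g := by
            rw [div_eq_mul_inv]; ring
        _ ≤ δ / 8 * g := mul_le_mul_of_nonneg_right h3 hg0.le
    -- information
    have k2 : 2 * (32 * NN * 9 * (CIf B₀ PP Λ a gC PC PB PC a2 * (1 + log g))) +
        2 * (3 * PB) ≤ δ / 8 * g := by
      have hl : 0 ≤ 1 + log (g : ℝ) := by
        have := log_nonneg hgr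
        linarith
      have h3 : CIf B₀ PP Λ a gC PC PB PC a2 * (1 + log g) ≤ CI * (1 + log g) :=
        mul_le_mul_of_nonneg_right (le_abs_self _) hl
      have h4 := hg₂ g hgg2
      have h5 : 32 * NN * 9 * (CIf B₀ PP Λ a gC PC PB PC a2 * (1 + log g)) ≤
          32 * NN * 9 * (CI * (1 + log g)) := mul_le_mul_of_nonneg_left h3 (by positivity)
      have h6 : 32 * NN * 9 * (CI * (1 + log (g : ℝ))) =
          32 * NN * 9 * CI * log g + 32 * NN * 9 * CI := by ring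
      have h7 : 2 * (32 * NN * 9 * CI) * log (g : ℝ) =
          2 * (32 * NN * 9 * CI * log g) := by ring
      linarith
    -- rows
    have k3 : 2 * (4 / M0 * (dX * ∑ t ∈ range (S.F.P.T + s₀ + dX),
        Hc S.Q (Rt S.F S.ln S.p u a (t + 1))
          (fun z => (S.F.D u (t + 1) z.2, Rt S.F S.ln S.p u a t z)))) ≤ δ / 8 * g := by
      have h3 := S.rows_Q_le hB1 hg1 u a (S.F.P.T + s₀ + dX)
      rw [← hcst] at h3
      have h4 : 2 * (4 / M0 * (dX * ∑ t ∈ range (S.F.P.T + s₀ + dX),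
          Hc S.Q (Rt S.F S.ln S.p u a (t + 1))
            (fun z => (S.F.D u (t + 1) z.2, Rt S.F S.ln S.p u a t z)))) ≤
          2 * (4 / M0 * (dX * (cst * g))) := by
        refine mul_le_mul_of_nonneg_left ?_ (by norm_num)
        refine mul_le_mul_of_nonneg_left ?_ (by positivity)
        exact mul_le_mul_of_nonneg_left h3 (Nat.cast_nonneg _)
      refine h4.trans ?_
      have h5 : 2 * (4 / M0 * (dX * (cst * g))) = 8 * dX * cst / M0 * g := by ring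
      rw [h5]
      refine mul_le_mul_of_nonneg_right ?_ hg0.le
      rw [div_le_iff₀ hM00, hM0]
      have h6 : δ / 8 * (1 + 64 * dX * cst / δ) = δ / 8 + 8 * dX * cst := by
        have h7 : δ ≠ 0 := hδ.ne'
        have h8 : δ / 8 * (64 * dX * cst / δ) = 8 * dX * cst := by
          field_simp
          norm_num
        rw [mul_add, h8, mul_one]
      rw [h6]
      linarith
    nlinarith [mul_pos hδ hg0]

end Vale.Agent.P065.H806
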