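import Vale.Agent.P065.H344.ThinLine
import Vale.Agent.P065.H268.TimePull

/-!
# P065: transfer of the lemma on giant time exits from the law `ν` to the law `q` (helper344)

If under `q` (supported on flags of bounded `ν`-surprise) no `ν`-giant exit occurs, up to a small
probability, then the surprise of the kernel of the line under `q` is small on every set of few
levels per flag (argument of helper654).
-/

set_option autoImplicit false

open Finset Real

noncomputable section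

namespace Vale.Agent.P065.H344

open Vale.Agent.P065.Ent Vale.Agent.P065.H268 Vale.Agent.P065.H353

section bad

variable {Ω : Type*} [Fintype Ω] {ζ φ : Type*} {q : Ω → ℝ} {Z : Ω → ζ} {F : Ω → φ} {c : Ω → ℝ}

lemma exists_cz [DecidableEq ζ] (hc0 : ∀ ω, 0 < q ω → 0 ≤ c ω)
    (hcc : ∀ ω ω', 0 < q ω → 0 < q ω' → F ω = F ω' → Z ω = Z ω' → c ω = c ω')
    (hsum : ∀ S : Finset Ω, (∀ ω ∈ S, 0 < q ω) → (∀ ω ∈ S, ∀ ω' ∈ S, F ω = F ω') →
      (∀ ω ∈ S, ∀ ω' ∈ S, Z ω = Z ω' → ω = ω') → ∑ ω ∈ S, c ω ≤ 1) :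
    ∃ cz : φ → ζ → ℝ, (∀ f z, 0 ≤ cz f z) ∧ (∀ ω, 0 < q ω → cz (F ω) (Z ω) = c ω) ∧
      ∀ f, ∑ z ∈ univ.image Z, cz f z ≤ 1 := by
  classical
  let cz : φ → ζ → ℝ := fun f z => if h : ∃ ω, 0 < q ω ∧ F ω = f ∧ Z ω = z then c h.choose else 0
  have h1 : ∀ f z ω, 0 < q ω → F ω = f → Z ω = z → cz f z = c ω := by
    intro f z ω h0 e1 e2
    have h : ∃ ω, 0 < q ω ∧ F ω = f ∧ Z ω = z := ⟨ω, h0, e1, e2⟩
    have h2 : cz f z = c h.choose := dif_pos h
    rw [h2]
    exact hcc _ _ h.choose_spec.1 h0 (h.choose_spec.2.1.trans e1.symm)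
      (h.choose_spec.2.2.trans e2.symm)
  have h2 : ∀ f z, (¬ ∃ ω, 0 < q ω ∧ F ω = f ∧ Z ω = z) → cz f z = 0 := fun f z h => dif_neg h
  refine ⟨cz, ?_, ?_, ?_⟩
  · intro f z
    by_cases h : ∃ ω, 0 < q ω ∧ F ω = f ∧ Z ω = z
    · obtain ⟨ω, h0, e1, e2⟩ := h
      rw [h1 f z ω h0 e1 e2]
      exact hc0 ω h0
    · rw [h2 f z h]
  · intro ω h0
    exact h1 _ _ ω h0 rfl rfl
  · intro f
    rcases isEmpty_or_nonempty Ω with hΩ | hne
    · have : univ.image Z = ∅ := by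
        rw [univ_eq_empty, image_empty]
      rw [this]
      simp
    set T : Finset ζ := (univ.image Z).filter (fun z => ∃ ω, 0 < q ω ∧ F ω = f ∧ Z ω = z) with hT
    have e1 : ∑ z ∈ univ.image Z, cz f z = ∑ z ∈ T, cz f z := by
      rw [hT, sum_filter]
      refine sum_congr rfl fun z _ => ?_
      split_ifs with h
      · rfl
      · exact h2 f z h
    rw [e1]
    have h3 : ∀ z ∈ T, ∃ ω, 0 < q ω ∧ F ω = f ∧ Z ω = z := fun z hz => (mem_filter.1 hz).2
    choose! r hr using h3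
    have hinj : ∀ z ∈ T, ∀ z' ∈ T, r z = r z' → z = z' := by
      intro z hz z' hz' h
      rw [← (hr z hz).2.2, h, (hr z' hz').2.2]
    have e2 : ∑ z ∈ T, cz f z = ∑ ω ∈ T.image r, c ω := by
      rw [sum_image hinj]
      exact sum_congr rfl fun z hz => h1 f z _ (hr z hz).1 (hr z hz).2.1 (hr z hz).2.2
    rw [e2]
    refine hsum _ ?_ ?_ ?_
    · intro ω hω
      obtain ⟨z, hz, rfl⟩ := mem_image.1 hω
      exact (hr z hz).1
    · intro ω hω ω' hω'
      obtain ⟨z, hz, rfl⟩ := mem_image.1 hω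
      obtain ⟨z', hz', rfl⟩ := mem_image.1 hω'
      rw [(hr z hz).2.1, (hr z' hz').2.1]
    · intro ω hω ω' hω' h
      obtain ⟨z, hz, rfl⟩ := mem_image.1 hω
      obtain ⟨z', hz', rfl⟩ := mem_image.1 hω'
      rw [(hr z hz).2.2, (hr z' hz').2.2] at h
      rw [h]

/-- children which are much lighter under `q` than under the kernel `c` are rare -/
theorem bad_le (hq : IsProb q) (hc0 : ∀ ω, 0 < q ω → 0 < c ω)
    (hcc : ∀ ω ω', 0 < q ω → 0 < q ω' → F ω = F ω' → Z ω = Z ω' → c ω = c ω')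
    (hsum : ∀ S : Finset Ω, (∀ ω ∈ S, 0 < q ω) → (∀ ω ∈ S, ∀ ω' ∈ S, F ω = F ω') →
      (∀ ω ∈ S, ∀ ω' ∈ S, Z ω = Z ω' → ω = ω') → ∑ ω ∈ S, c ω ≤ 1)
    {ε : ℝ} (hε0 : 0 ≤ ε) (hε1 : ε < 1) :
    PE q (fun ω => Pr q (fun ω => (Z ω, F ω)) (Z ω, F ω) < ε * c ω * Pr q F (F ω)) ≤
      ε / (1 - ε) * ∑ ω, q ω * -log (c ω) := by
  classical
  obtain ⟨cz, hz0, hz1, hz2⟩ := exists_cz (fun ω h => (hc0 ω h).le) hcc hsum
  set P2 : ζ × φ → ℝ := Pr q (fun ω => (Z ω, F ω)) with hP2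
  set Pf : φ → ℝ := Pr q F with hPf
  set bd : φ → ζ → Prop := fun f z => P2 (z, f) < ε * cz f z * Pf f with hbd
  set a : φ → ℝ := fun f => ∑ z ∈ univ.image Z, if bd f z then cz f z else 0 with ha
  have ha0 : ∀ f, 0 ≤ a f := fun f => sum_nonneg fun z _ => by
    split_ifs
    · exact hz0 f z
    · exact le_rfl
  have ha1 : ∀ f, a f ≤ 1 := fun f => (sum_le_sum fun z _ => by
    split_ifs
    · exact le_rfl
    · exact hz0 f z).trans (hz2 f)
  -- weighted bound
  have hW : ∀ g : φ → ℝ, (∀ f, 0 ≤ g f) →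
      ∑ ω, q ω * (if bd (F ω) (Z ω) then g (F ω) else 0) ≤
        ε * ∑ ω, q ω * (a (F ω) * g (F ω)) := by
    intro g hg
    have e1 := sum_fiber q (fun ω => (Z ω, F ω))
      (fun v : ζ × φ => if bd v.2 v.1 then g v.2 else 0)
    have e2 := sum_fiber q F (fun f => a f * g f)
    have hterm : ∀ v : ζ × φ, 0 ≤ P2 v * (if bd v.2 v.1 then g v.2 else 0) := by
      intro v
      refine mul_nonneg (Pr_nonneg hq _ _) ?_
      split_ifs
      · exact hg _
      · exact le_rfl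
    have hsub : univ.image (fun ω => (Z ω, F ω)) ⊆ (univ.image Z) ×ˢ (univ.image F) := by
      intro v hv
      obtain ⟨ω, -, rfl⟩ := mem_image.1 hv
      exact mem_product.2 ⟨mem_image_of_mem _ (mem_univ ω), mem_image_of_mem _ (mem_univ ω)⟩
    have e3 : ∑ ω, q ω * (if bd (F ω) (Z ω) then g (F ω) else 0) ≤
        ∑ v ∈ (univ.image Z) ×ˢ (univ.image F), P2 v * (if bd v.2 v.1 then g v.2 else 0) :=
      (le_of_eq e1).trans (sum_le_sum_of_subset_of_nonneg hsub fun v _ _ => hterm v)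
    refine e3.trans ?_
    rw [e2, mul_sum, sum_product_right]
    refine sum_le_sum fun f _ => ?_
    have e4 : ε * (Pr q F f * (a f * g f)) =
        ∑ z ∈ univ.image Z, (if bd f z then ε * cz f z * Pf f * g f else 0) := by
      show ε * (Pf f * ((∑ z ∈ univ.image Z, if bd f z then cz f z else 0) * g f)) = _
      rw [sum_mul, mul_sum, mul_sum]
      refine sum_congr rfl fun z _ => ?_
      split_ifs <;> ring
    rw [e4]
    refine sum_le_sum fun z _ => ?_
    show P2 (z, f) * (if bd f z then g f else 0) ≤ if bd f z then ε * cz f z * Pf f * g f else 0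
    split_ifs with h
    · exact mul_le_mul_of_nonneg_right (le_of_lt h) (hg f)
    · rw [mul_zero]
  -- the event
  have hev : PE q (fun ω => P2 (Z ω, F ω) < ε * c ω * Pf (F ω)) =
      ∑ ω, q ω * (if bd (F ω) (Z ω) then 1 else 0) := by
    rw [PE_def]
    refine sum_congr rfl fun ω _ => ?_
    rcases (hq.nonneg ω).eq_or_lt with h0 | h0
    · rw [← h0]
      simp
    · have e : bd (F ω) (Z ω) ↔ P2 (Z ω, F ω) < ε * c ω * Pf (F ω) := by
        show P2 (Z ω, F ω) < ε * cz (F ω) (Z ω) * Pf (F ω) ↔ _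
        rw [hz1 ω h0]
      by_cases h : bd (F ω) (Z ω)
      · rw [if_pos (e.1 h), if_pos h, mul_one]
      · rw [if_neg fun h' => h (e.2 h'), if_neg h, mul_zero]
  have h1 := hW (fun _ => 1) fun _ => zero_le_one
  have h2 := hW a ha0
  -- the surprise of `c`
  have h3 : ∑ ω, q ω * (if bd (F ω) (Z ω) then 0 else a (F ω)) ≤ ∑ ω, q ω * -log (c ω) := by
    refine sum_le_sum fun ω _ => ?_
    rcases (hq.nonneg ω).eq_or_lt with h0 | h0
    · rw [← h0]
      simp
    refine mul_le_mul_of_nonneg_left ?_ h0.le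
    have hc := hc0 ω h0
    have hlog := log_le_sub_one_of_pos hc
    have hz := hz1 ω h0
    have hmem : Z ω ∈ univ.image Z := mem_image_of_mem _ (mem_univ ω)
    split_ifs with h
    · have h4 : cz (F ω) (Z ω) ≤ 1 :=
        (single_le_sum (f := fun z => cz (F ω) z) (fun z _ => hz0 _ z) hmem).trans (hz2 _)
      rw [hz] at h4
      linarith
    · have h4 : c ω + a (F ω) ≤ 1 := by
        refine le_trans ?_ (hz2 (F ω))
        show c ω + ∑ z ∈ univ.image Z, (if bd (F ω) z then cz (F ω) z else 0) ≤ _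
        rw [← sum_erase_add _ _ hmem, ← sum_erase_add (univ.image Z) (fun z => cz (F ω) z) hmem,
          if_neg h, hz, add_zero]
        have h5 : ∑ z ∈ (univ.image Z).erase (Z ω), (if bd (F ω) z then cz (F ω) z else 0) ≤
            ∑ z ∈ (univ.image Z).erase (Z ω), cz (F ω) z := sum_le_sum fun z _ => by
          split_ifs
          · exact le_rfl
          · exact hz0 _ z
        linarith
      linarith
  -- sum up
  have h4 : ∑ ω, q ω * a (F ω) = ∑ ω, q ω * (if bd (F ω) (Z ω) then a (F ω) else 0) +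
      ∑ ω, q ω * (if bd (F ω) (Z ω) then 0 else a (F ω)) := by
    rw [← sum_add_distrib]
    refine sum_congr rfl fun ω _ => ?_
    split_ifs <;> ring
  have h5 : ∑ ω, q ω * (a (F ω) * a (F ω)) ≤ ∑ ω, q ω * a (F ω) := by
    refine sum_le_sum fun ω _ => mul_le_mul_of_nonneg_left ?_ (hq.nonneg ω)
    exact mul_le_of_le_one_right (ha0 _) (ha1 _)
  have h6 := mul_le_mul_of_nonneg_left h5 hε0
  simp only [mul_one] at h1
  rw [hev]
  have h7 : 0 < 1 - ε := by linarith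
  rw [div_mul_eq_mul_div, le_div_iff₀ h7]
  have h8 : (1 - ε) * ∑ ω, q ω * a (F ω) ≤ ∑ ω, q ω * -log (c ω) := by linarith
  have h9 := mul_le_mul_of_nonneg_left h8 hε0
  have h10 : (∑ ω, q ω * (if bd (F ω) (Z ω) then 1 else 0)) * (1 - ε) ≤
      (ε * ∑ ω, q ω * a (F ω)) * (1 - ε) := mul_le_mul_of_nonneg_right h1 h7.le
  linarith

end bad

section rare

variable {Ω : Type*} [Fintype Ω] {β η : Type*} {q : Ω → ℝ}

/-- the inverse conditional probability of a variable with at most `K` values, given `Y` -/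
lemma inv_card_le (hq : IsProb q) (W : Ω → β) (Y : Ω → η) (K : ℕ)
    (hK : ∀ ω, ∃ s : Finset β, #s ≤ K ∧ ∀ ω', 0 < q ω' → Y ω' = Y ω → W ω' ∈ s) :
    ∑ ω, q ω * (Pr q Y (Y ω) / Pr q (fun ω => (W ω, Y ω)) (W ω, Y ω)) ≤ K := by
  classical
  set V : Ω → β × η := fun ω => (W ω, Y ω) with hV
  have h1 : ∀ ω, q ω * (Pr q Y (Y ω) / Pr q V (V ω)) =
      ∑ ω', if Y ω' = Y ω then q ω' * (q ω / Pr q V (V ω)) else 0 := by
    intro ω
    have e1 : q ω * (Pr q Y (Y ω) / Pr q V (V ω)) = Pr q Y (Y ω) * (q ω / Pr q V (V ω)) := by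
      ring
    rw [e1]
    unfold Pr
    rw [sum_mul]
    refine sum_congr rfl fun ω' _ => ?_
    split_ifs <;> ring
  rw [sum_congr rfl fun ω _ => h1 ω, sum_comm]
  have h2 : ∀ ω', ∑ ω, (if Y ω' = Y ω then q ω' * (q ω / Pr q V (V ω)) else 0) ≤ q ω' * K := by
    intro ω'
    obtain ⟨s, hs, hs'⟩ := hK ω'
    have h3 : ∑ ω, (if Y ω' = Y ω then q ω' * (q ω / Pr q V (V ω)) else 0) ≤
        ∑ ω, ∑ b ∈ s, q ω' * ((if V ω = (b, Y ω') then q ω else 0) / Pr q V (b, Y ω')) := by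
      refine sum_le_sum fun ω _ => ?_
      have hnn : ∀ b ∈ s, 0 ≤ q ω' * ((if V ω = (b, Y ω') then q ω else 0) /
          Pr q V (b, Y ω')) := fun b _ => by
        refine mul_nonneg (hq.nonneg _) (div_nonneg ?_ (Pr_nonneg hq _ _))
        split_ifs
        · exact hq.nonneg ω
        · exact le_rfl
      split_ifs with h
      · rcases (hq.nonneg ω).eq_or_lt with h0 | h0
        · rw [← h0, zero_div, mul_zero]
          rw [← h0] at hnn
          exact sum_nonneg hnn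
        · have hm := hs' ω h0 h.symm
          refine le_trans (le_of_eq ?_) (single_le_sum hnn hm)
          have e : V ω = (W ω, Y ω') := by
            show (W ω, Y ω) = (W ω, Y ω')
            rw [h]
          rw [if_pos e, e]
      · exact sum_nonneg hnn
    refine h3.trans ?_
    rw [sum_comm]
    have h4 : ∀ b ∈ s, ∑ ω, q ω' * ((if V ω = (b, Y ω') then q ω else 0) / Pr q V (b, Y ω')) ≤
        q ω' := by
      intro b _
      rw [← mul_sum, ← sum_div]
      refine mul_le_of_le_one_right (hq.nonneg ω') ?_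
      have h5 : (∑ ω, if V ω = (b, Y ω') then q ω else 0) = Pr q V (b, Y ω') := by
        unfold Pr
        refine sum_congr rfl fun ω _ => ?_
        by_cases h : V ω = (b, Y ω')
        · rw [if_pos h, if_pos h]
        · rw [if_neg h, if_neg h]
      rw [h5]
      exact div_self_le_one _
    refine (sum_le_sum h4).trans ?_
    rw [sum_const, nsmul_eq_mul, mul_comm]
    exact mul_le_mul_of_nonneg_left (by exact_mod_cast hs) (hq.nonneg ω')
  refine (sum_le_sum fun ω' _ => h2 ω').trans ?_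
  rw [← sum_mul, hq.sum, one_mul]

/-- a rare event carries little surprise -/
theorem rare_le (hq : IsProb q) (W : Ω → β) (Y : Ω → η) {K : ℕ} (hK0 : 0 < K)
    (hK : ∀ ω, ∃ s : Finset β, #s ≤ K ∧ ∀ ω', 0 < q ω' → Y ω' = Y ω → W ω' ∈ s)
    (E : Ω → Prop) [DecidablePred E] {δ : ℝ} (hδ : 0 < δ) (hδ1 : δ ≤ 1) (hE : PE q E ≤ δ) :
    ∑ ω, (if E ω then q ω * -log (Pr q (fun ω => (W ω, Y ω)) (W ω, Y ω) / Pr q Y (Y ω)) else 0) ≤
      δ * (log K + log (1 / δ) + 1) := by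
  classical
  have hKr : (1 : ℝ) ≤ K := by exact_mod_cast hK0
  have hK0' : (0 : ℝ) < K := by linarith
  set V : Ω → β × η := fun ω => (W ω, Y ω) with hV
  have hv : 0 < δ / K := div_pos hδ hK0'
  have e1 : -log (δ / K) = log K + log (1 / δ) := by
    rw [log_div hδ.ne' hK0'.ne', one_div, log_inv]
    ring
  have hL : 0 ≤ log K + log (1 / δ) := by
    have h1 := log_nonneg hKr
    have h2 : 0 ≤ log (1 / δ) := log_nonneg (by rw [le_div_iff₀ hδ]; linarith)
    linarith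
  have h1 : ∀ ω, (if E ω then q ω * -log (Pr q V (V ω) / Pr q Y (Y ω)) else 0) ≤
      (if E ω then q ω else 0) * (log K + log (1 / δ)) +
        δ / K * (q ω * (Pr q Y (Y ω) / Pr q V (V ω))) := by
    intro ω
    rcases (hq.nonneg ω).eq_or_lt with h0 | h0
    · rw [← h0]
      simp
    have hp1 : 0 < Pr q V (V ω) := Pr_pos hq V h0
    have hp2 : 0 < Pr q Y (Y ω) := Pr_pos hq Y h0
    have hnn : 0 ≤ δ / K * (q ω * (Pr q Y (Y ω) / Pr q V (V ω))) := by positivity
    split_ifs with h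
    · have h3 := neg_log_le (div_pos hp1 hp2) hv
      rw [e1] at h3
      have h4 : δ / K / (Pr q V (V ω) / Pr q Y (Y ω)) =
          δ / K * (Pr q Y (Y ω) / Pr q V (V ω)) := by
        rw [div_div_eq_mul_div, mul_div_assoc]
      rw [h4] at h3
      have h5 := mul_le_mul_of_nonneg_left h3 h0.le
      nlinarith
    · rw [zero_mul, zero_add]
      exact hnn
  refine (sum_le_sum fun ω _ => h1 ω).trans ?_
  rw [sum_add_distrib, ← sum_mul, ← mul_sum, ← PE_eq]
  have h2 := inv_card_le hq W Y K hK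
  have h3 : δ / K * ∑ ω, q ω * (Pr q Y (Y ω) / Pr q V (V ω)) ≤ δ / K * K :=
    mul_le_mul_of_nonneg_left h2 hv.le
  rw [div_mul_cancel₀ _ hK0'.ne'] at h3
  have h4 := mul_le_mul_of_nonneg_right hE hL
  linarith

end rare

section main

variable {Ω : Type*} [Fintype Ω] {β η : Type*} {q : Ω → ℝ} {R : ℕ → Ω → β} {Y : Ω → η}

lemma kt_le_one (P : Pcs Ω) (hq : IsProb q) (t : ℕ) (ω : Ω) : kt P q Y R t ω ≤ 1 :=
  kk_le_one (X := R t) (Z := P.D (t + 1)) (Y := Y) hq ω

/-- the surprises of the levels sum up to at most the surprise of the last box -/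
lemma sum_kt_le (P : Pcs Ω) (hq : IsProb q) (hR : ∀ t, Det (R (t + 1)) (R t))
    (hRD : ∀ t, Det (R t) (P.D t)) (T : ℕ) {ω : Ω} (h0 : 0 < q ω) :
    ∑ t ∈ range T, -log (kt P q Y R t ω) ≤
      -log (Pr q (fun ω => (R T ω, Y ω)) (R T ω, Y ω) / Pr q Y (Y ω)) := by
  have hp : ∀ t, 0 < Pr q (fun ω => (R t ω, Y ω)) (R t ω, Y ω) := fun t =>
    Pr_pos hq (fun ω => (R t ω, Y ω)) h0
  have hY : 0 < Pr q Y (Y ω) := Pr_pos hq Y h0
  have h1 : ∀ t, -log (kt P q Y R t ω) ≤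
      log (Pr q (fun ω => (R t ω, Y ω)) (R t ω, Y ω)) -
        log (Pr q (fun ω => (R (t + 1) ω, Y ω)) (R (t + 1) ω, Y ω)) := by
    intro t
    have hm := Pr_mono (μ := q) hq (X := fun ω => (R (t + 1) ω, Y ω))
      (Y := fun ω => ((P.D (t + 1) ω, R t ω), Y ω))
      ((((det_fst _ _).trans (hRD (t + 1))).pair ((det_fst _ _).trans (hR t))).pair
        (det_snd _ _)) ω
    have hk : 0 < Pr q (fun ω => ((P.D (t + 1) ω, R t ω), Y ω)) ((P.D (t + 1) ω, R t ω), Y ω) :=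
      Pr_pos hq (fun ω => ((P.D (t + 1) ω, R t ω), Y ω)) h0
    have hl := log_le_log (hp (t + 1)) hm
    have e : log (kt P q Y R t ω) =
        log (Pr q (fun ω => ((P.D (t + 1) ω, R t ω), Y ω)) ((P.D (t + 1) ω, R t ω), Y ω)) -
          log (Pr q (fun ω => (R t ω, Y ω)) (R t ω, Y ω)) := by
      unfold kt
      exact log_div hk.ne' (hp t).ne'
    rw [e]
    linarith
  have h2 := sum_le_sum (s := range T) fun t _ => h1 t
  rw [sum_range_sub'] at h2
  refine h2.trans ?_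
  rw [log_div (hp T).ne' hY.ne']
  have h3 := log_le_log (hp 0) (Pr_mono hq (det_snd (R 0) Y) ω)
  have h4 : log (Pr q (fun ω => (R 0 ω, Y ω)) (R 0 ω, Y ω)) ≤ log (Pr q Y (Y ω)) := h3
  linarith

open Classical in
/-- **transfer of NG**: `c` is any kernel of the time along the lines (e.g. of the law `ν`); if the
average surprise of `c` is at most `L₀`, every flag has at most `N₀` levels `lg`, and outside of
`Gt` the surprise of `c` at these levels is at most `Λ`, then the surprise of the kernel of the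
line under `q` on these levels is small -/
theorem ngq (P : Pcs Ω) (hq : IsProb q) (hR : ∀ t, Det (R (t + 1)) (R t))
    (hRD : ∀ t, Det (R t) (P.D t)) (T : ℕ) {c : ℕ → Ω → ℝ} (hc0 : ∀ t ω, 0 < q ω → 0 < c t ω)
    (hcc : ∀ t ω ω', 0 < q ω → 0 < q ω' → Y ω = Y ω' → P.D (t + 1) ω = P.D (t + 1) ω' →
      c t ω = c t ω')
    (hcs : ∀ t (S : Finset Ω), (∀ ω ∈ S, 0 < q ω) →
      (∀ ω ∈ S, ∀ ω' ∈ S, Y ω = Y ω' ∧ P.D t ω = P.D t ω') →
      (∀ ω ∈ S, ∀ ω' ∈ S, P.D (t + 1) ω = P.D (t + 1) ω' → ω = ω') → ∑ ω ∈ S, c t ω ≤ 1)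
    {L₀ : ℝ} (hL₀ : ∑ ω, q ω * ∑ t ∈ range T, -log (c t ω) ≤ L₀)
    (lg : ℕ → Ω → Prop) {N₀ Λ ε δ : ℝ}
    (hN₀ : ∀ ω, 0 < q ω → (#{t ∈ range T | lg t ω} : ℝ) ≤ N₀) (hΛ : 0 ≤ Λ)
    (hε0 : 0 < ε) (hε1 : ε ≤ 1 / 2)
    (Gt : Ω → Prop) (hGt : ∀ ω, 0 < q ω → ¬ Gt ω → ∀ t < T, lg t ω → -log (c t ω) ≤ Λ)
    {K : ℕ} (hK0 : 0 < K)
    (hK : ∀ ω, ∃ s : Finset β, #s ≤ K ∧ ∀ ω', 0 < q ω' → Y ω' = Y ω → R T ω' ∈ s)
    (hδ : 0 < δ) (hδ1 : δ ≤ 1) (hE : PE q Gt + 2 * ε * L₀ ≤ δ) :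
    ∑ ω, q ω * ∑ t ∈ range T with lg t ω, -log (kt P q Y R t ω) ≤
      N₀ * (Λ + log (1 / ε)) + δ * (log K + log (1 / δ) + 1) := by
  have hlε : 0 ≤ log (1 / ε) := log_nonneg (by rw [le_div_iff₀ hε0]; linarith)
  -- the bad events
  set Bd : ℕ → Ω → Prop := fun t ω => Pr q (fun ω => (P.D (t + 1) ω, (R t ω, Y ω)))
    (P.D (t + 1) ω, (R t ω, Y ω)) < ε * c t ω * Pr q (fun ω => (R t ω, Y ω)) (R t ω, Y ω) with hBd
  have hPBd : ∀ t, PE q (Bd t) ≤ 2 * ε * ∑ ω, q ω * -log (c t ω) := by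
    intro t
    have hcl : ∀ ω, 0 < q ω → c t ω ≤ 1 := by
      intro ω h
      have := hcs t {ω} (fun ω' h' => by rw [mem_singleton.1 h']; exact h)
        (fun ω' h' ω'' h'' => by rw [mem_singleton.1 h', mem_singleton.1 h'']; exact ⟨rfl, rfl⟩)
        (fun ω' h' ω'' h'' _ => by rw [mem_singleton.1 h', mem_singleton.1 h''])
      rwa [sum_singleton] at this
    have h1 := bad_le (q := q) (Z := P.D (t + 1)) (F := fun ω => (R t ω, Y ω)) (c := c t) hq
      (hc0 t) (fun ω ω' a b e1 e2 => hcc t ω ω' a b (Prod.mk.inj e1).2 e2)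
      (fun S h1 h2 h3 => hcs t S h1 (fun ω hω ω' hω' => ⟨(Prod.mk.inj (h2 ω hω ω' hω')).2,
        hRD t ω ω' (Prod.mk.inj (h2 ω hω ω' hω')).1⟩) h3) hε0.le (by linarith)
    refine h1.trans ?_
    have h2 : 0 ≤ ∑ ω, q ω * -log (c t ω) := sum_nonneg fun ω _ => by
      rcases (hq.nonneg ω).eq_or_lt with h0 | h0
      · rw [← h0, zero_mul]
      · refine mul_nonneg h0.le ?_
        have := log_nonpos (hc0 t ω h0).le (hcl ω h0)
        linarith
    refine mul_le_mul_of_nonneg_right ?_ h2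
    rw [div_le_iff₀ (by linarith)]
    nlinarith
  set E : Ω → Prop := fun ω => Gt ω ∨ ∃ t ∈ range T, Bd t ω with hEd
  have hPE : PE q E ≤ δ := by
    have h1 : PE q E ≤ PE q Gt + PE q (fun ω => ∃ t ∈ range T, Bd t ω) := by
      rw [PE_def, PE_def, PE_def, ← sum_add_distrib]
      refine sum_le_sum fun ω _ => ?_
      have h0 := hq.nonneg ω
      by_cases ha : Gt ω
      · rw [if_pos (show E ω from Or.inl ha), if_pos ha]
        split_ifs <;> linarith
      · by_cases hb : ∃ t ∈ range T, Bd t ω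
        · rw [if_pos (show E ω from Or.inr hb), if_neg ha, if_pos hb]
          linarith
        · rw [if_neg (show ¬ E ω from fun h => h.elim ha hb), if_neg ha, if_neg hb]
          linarith
    have h2 := PE_le_sum hq (range T) Bd (fun ω => ∃ t ∈ range T, Bd t ω) fun ω h => h
    have h3 : ∑ t ∈ range T, PE q (Bd t) ≤ 2 * ε * L₀ := by
      refine (sum_le_sum fun t _ => hPBd t).trans ?_
      rw [← mul_sum]
      refine mul_le_mul_of_nonneg_left (le_trans (le_of_eq ?_) hL₀) (by linarith)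
      rw [sum_comm]
      exact sum_congr rfl fun ω _ => (mul_sum _ _ _).symm
    linarith
  -- pointwise
  have hpt : ∀ ω, q ω * ∑ t ∈ range T with lg t ω, -log (kt P q Y R t ω) ≤
      q ω * (N₀ * (Λ + log (1 / ε))) + (if E ω then
        q ω * -log (Pr q (fun ω => (R T ω, Y ω)) (R T ω, Y ω) / Pr q Y (Y ω)) else 0) := by
    intro ω
    rcases (hq.nonneg ω).eq_or_lt with h0 | h0
    · rw [← h0]
      simp
    have hk0 : ∀ t, 0 < kt P q Y R t ω := fun t => kt_pos hq t h0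
    have hkn : ∀ t, 0 ≤ -log (kt P q Y R t ω) := fun t => by
      have := log_nonpos (hk0 t).le (kt_le_one P hq t ω)
      linarith
    have hN0' : 0 ≤ N₀ := le_trans (Nat.cast_nonneg _) (hN₀ ω h0)
    by_cases hω : E ω
    · rw [if_pos hω]
      have h1 : ∑ t ∈ range T with lg t ω, -log (kt P q Y R t ω) ≤
          ∑ t ∈ range T, -log (kt P q Y R t ω) :=
        sum_le_sum_of_subset_of_nonneg (filter_subset _ _) fun t _ _ => hkn t
      have h2 := h1.trans (sum_kt_le P hq hR hRD T h0)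
      have h3 := mul_le_mul_of_nonneg_left h2 h0.le
      have h4 : 0 ≤ q ω * (N₀ * (Λ + log (1 / ε))) := by positivity
      linarith
    · rw [if_neg hω, add_zero]
      refine mul_le_mul_of_nonneg_left ?_ h0.le
      have h1 : ∀ t ∈ (range T).filter (fun t => lg t ω), -log (kt P q Y R t ω) ≤
          Λ + log (1 / ε) := by
        intro t ht
        obtain ⟨ht1, ht2⟩ := mem_filter.1 ht
        have hnb : ¬ Bd t ω := fun h => hω (Or.inr ⟨t, ht1, h⟩)
        have hng : ¬ Gt ω := fun h => hω (Or.inl h)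
        have h2 := hGt ω h0 hng t (mem_range.1 ht1) ht2
        have h3 : ε * c t ω * Pr q (fun ω => (R t ω, Y ω)) (R t ω, Y ω) ≤
            Pr q (fun ω => (P.D (t + 1) ω, (R t ω, Y ω))) (P.D (t + 1) ω, (R t ω, Y ω)) :=
          not_lt.1 hnb
        have h4 : Pr q (fun ω => (P.D (t + 1) ω, (R t ω, Y ω))) (P.D (t + 1) ω, (R t ω, Y ω)) =
            Pr q (fun ω => ((P.D (t + 1) ω, R t ω), Y ω)) ((P.D (t + 1) ω, R t ω), Y ω) :=
          Pr_congr (X := fun ω => (P.D (t + 1) ω, (R t ω, Y ω)))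
            (Y := fun ω => ((P.D (t + 1) ω, R t ω), Y ω))
            (((det_fst _ _).pair ((det_snd _ _).trans (det_fst _ _))).pair
              ((det_snd _ _).trans (det_snd _ _)))
            (((det_fst _ _).trans (det_fst _ _)).pair
              (((det_fst _ _).trans (det_snd _ _)).pair (det_snd _ _))) ω
        have hp : 0 < Pr q (fun ω => (R t ω, Y ω)) (R t ω, Y ω) :=
          Pr_pos hq (fun ω => (R t ω, Y ω)) h0
        have h5 : ε * c t ω ≤ kt P q Y R t ω := by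
          show ε * c t ω ≤ Pr q (fun ω => ((P.D (t + 1) ω, R t ω), Y ω))
            ((P.D (t + 1) ω, R t ω), Y ω) / Pr q (fun ω => (R t ω, Y ω)) (R t ω, Y ω)
          rw [le_div_iff₀ hp, ← h4]
          exact h3
        have hc := hc0 t ω h0
        have h6 := log_le_log (mul_pos hε0 hc) h5
        rw [log_mul hε0.ne' hc.ne'] at h6
        have h7 : log (1 / ε) = -log ε := by rw [one_div, log_inv]
        rw [h7]
        linarith
      refine (sum_le_sum h1).trans ?_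
      rw [sum_const, nsmul_eq_mul]
      exact mul_le_mul_of_nonneg_right (hN₀ ω h0) (by linarith)
  refine (sum_le_sum fun ω _ => hpt ω).trans ?_
  rw [sum_add_distrib, ← sum_mul, hq.sum, one_mul]
  exact add_le_add le_rfl (rare_le hq (R T) Y hK0 hK E hδ hδ1 hPE)

end main

section nu

variable {Ω Ω' : Type*} [Fintype Ω] [Fintype Ω'] {α L : Type*} {ν : Ω → ℝ} {q : Ω' → ℝ}
  {pr : Ω' → Ω}

lemma Pr_comp_le {d : ℝ} (hd : ∀ v, Pr q pr v ≤ d * ν v) (g : Ω → α) (x : α) :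
    Pr q (fun a => g (pr a)) x ≤ d * Pr ν g x := by
  classical
  have e : Pr q (fun a => g (pr a)) x = ∑ v, if g v = x then Pr q pr v else 0 := by
    have h1 : ∀ v, (if g v = x then Pr q pr v else 0) =
        ∑ a, if pr a = v ∧ g (pr a) = x then q a else 0 := by
      intro v
      split_ifs with h
      · unfold Pr
        refine sum_congr rfl fun a _ => ?_
        by_cases h2 : pr a = v
        · rw [if_pos h2, if_pos ⟨h2, by rw [h2]; exact h⟩]
        · rw [if_neg h2, if_neg fun h' => h2 h'.1]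
      · symm
        refine sum_eq_zero fun a _ => if_neg fun h' => h ?_
        rw [← h'.1]
        exact h'.2
    rw [sum_congr rfl fun v _ => h1 v, sum_comm]
    unfold Pr
    refine sum_congr rfl fun a _ => ?_
    by_cases h2 : g (pr a) = x
    · rw [if_pos h2, sum_eq_single (pr a)]
      · rw [if_pos ⟨rfl, h2⟩]
      · intro v _ hv
        rw [if_neg fun h' => hv h'.1.symm]
      · intro h3
        exact absurd (mem_univ _) h3
    · rw [if_neg h2]
      symm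
      exact sum_eq_zero fun v _ => if_neg fun h' => h2 h'.2
  rw [e]
  unfold Pr
  rw [mul_sum]
  refine sum_le_sum fun v _ => ?_
  split_ifs with h
  · exact hd v
  · rw [mul_zero]

omit [Fintype Ω] in
lemma nu_pos (hq : IsProb q) {d : ℝ} (hd0 : 0 < d) (hd : ∀ v, Pr q pr v ≤ d * ν v) {a : Ω'}
    (ha : 0 < q a) : 0 < ν (pr a) := by
  have h1 := (Pr_pos hq pr ha).trans_le (hd (pr a))
  exact pos_of_mul_pos_right h1 hd0.le

/-- the `ν`-surprise of `W` along the line, averaged over a law of density at most `d` -/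
theorem sur_avg (hν : IsProb ν) (hq : IsProb q) (ln : Ω → L) (W : Ω → α) {d : ℝ} (hd0 : 0 < d)
    (hd : ∀ v, Pr q pr v ≤ d * ν v) {K₀ : ℕ} (hK₀ : 0 < K₀) (s : Finset α) (hs : ∀ v, W v ∈ s)
    (hsK : #s ≤ K₀) :
    ∑ a, q a * -log (Pr ν (fun v => (W v, ln v)) (W (pr a), ln (pr a)) / Pr ν ln (ln (pr a))) ≤
      log K₀ + log d := by
  classical
  set W' : Ω' → α := fun a => W (pr a) with hW'
  set l' : Ω' → L := fun a => ln (pr a) with hl'
  -- Gibbs for the law of the line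
  have h1 : H q l' ≤ ∑ a, q a * -log (Pr ν ln (l' a)) := by
    have h := gibbs hq l' (fun _ => ()) (fun _ x => Pr ν ln x) ?_ ?_ ?_
    · rwa [Hc_const hq l' ()] at h
    · intro a ha
      exact Pr_pos hν ln (nu_pos hq hd0 hd ha)
    · intro a x _
      exact Pr_nonneg hν ln x
    · intro a
      rw [← sum_Pr hν ln]
      refine sum_le_sum_of_subset_of_nonneg ?_ fun x _ _ => Pr_nonneg hν ln x
      intro x hx
      obtain ⟨a, -, rfl⟩ := mem_image.1 hx
      exact mem_image_of_mem ln (mem_univ _)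
  have h2 : ∀ a, q a * -log (Pr ν (fun v => (W v, ln v)) (W (pr a), ln (pr a)) /
      Pr ν ln (ln (pr a))) ≤ q a * -log (Pr q (fun a => (W' a, l' a)) (W' a, l' a)) +
        q a * log d - q a * -log (Pr ν ln (l' a)) := by
    intro a
    rcases (hq.nonneg a).eq_or_lt with h0 | h0
    · rw [← h0]
      simp
    have hp1 : 0 < Pr ν (fun v => (W v, ln v)) (W (pr a), ln (pr a)) :=
      Pr_pos hν (fun v => (W v, ln v)) (nu_pos hq hd0 hd h0)
    have hp2 : 0 < Pr ν ln (ln (pr a)) := Pr_pos hν ln (nu_pos hq hd0 hd h0)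
    have hp3 : 0 < Pr q (fun a => (W' a, l' a)) (W' a, l' a) := Pr_pos hq (fun a => (W' a, l' a)) h0
    have h3 : Pr q (fun a => (W' a, l' a)) (W' a, l' a) ≤
        d * Pr ν (fun v => (W v, ln v)) (W (pr a), ln (pr a)) :=
      Pr_comp_le (q := q) (pr := pr) hd (fun v => (W v, ln v)) (W (pr a), ln (pr a))
    have h4 := log_le_log hp3 h3
    rw [log_mul hd0.ne' hp1.ne'] at h4
    rw [log_div hp1.ne' hp2.ne', ← mul_add, ← mul_sub]
    refine mul_le_mul_of_nonneg_left ?_ h0.le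
    show -(log (Pr ν (fun v => (W v, ln v)) (W (pr a), ln (pr a))) - log (Pr ν ln (ln (pr a)))) ≤
      -log (Pr q (fun a => (W' a, l' a)) (W' a, l' a)) + log d - -log (Pr ν ln (ln (pr a)))
    linarith
  refine (sum_le_sum fun a _ => h2 a).trans ?_
  rw [sum_sub_distrib, sum_add_distrib, ← sum_mul, hq.sum, one_mul]
  have h3 : Hc q W' l' ≤ log K₀ := Hc_le_log hq W' l' K₀ hK₀ fun a => ⟨s, hsK, fun a' _ => hs _⟩
  have h4 : Hc q W' l' = H q (fun a => (W' a, l' a)) - H q l' := rfl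
  have h5 : ∑ a, q a * -log (Pr q (fun a => (W' a, l' a)) (W' a, l' a)) =
      H q (fun a => (W' a, l' a)) := rfl
  linarith

/-- the kernel of the law `ν` along the lines -/
def kn (P : Pcs Ω) (ν : Ω → ℝ) (ln : Ω → L) (t : ℕ) (ω : Ω) : ℝ :=
  Pr ν (fun v => (P.D (t + 1) v, ln v)) (P.D (t + 1) ω, ln ω) /
    Pr ν (fun v => (P.D t v, ln v)) (P.D t ω, ln ω)

lemma kn_pos (P : Pcs Ω) (hν : IsProb ν) (ln : Ω → L) (t : ℕ) {ω : Ω} (h : 0 < ν ω) :
    0 < kn P ν ln t ω :=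
  div_pos (Pr_pos hν (fun v => (P.D (t + 1) v, ln v)) h) (Pr_pos hν (fun v => (P.D t v, ln v)) h)

lemma sum_kn_le (P : Pcs Ω) (hν : IsProb ν) (ln : Ω → L) (T : ℕ) {ω : Ω} (h0 : 0 < ν ω) :
    ∑ t ∈ range T, -log (kn P ν ln t ω) ≤
      -log (Pr ν (fun v => (P.D T v, ln v)) (P.D T ω, ln ω) / Pr ν ln (ln ω)) := by
  have hp : ∀ t, 0 < Pr ν (fun v => (P.D t v, ln v)) (P.D t ω, ln ω) := fun t =>
    Pr_pos hν (fun v => (P.D t v, ln v)) h0
  have hY : 0 < Pr ν ln (ln ω) := Pr_pos hν ln h0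
  have h1 : ∀ t, -log (kn P ν ln t ω) = log (Pr ν (fun v => (P.D t v, ln v)) (P.D t ω, ln ω)) -
      log (Pr ν (fun v => (P.D (t + 1) v, ln v)) (P.D (t + 1) ω, ln ω)) := by
    intro t
    unfold kn
    rw [log_div (hp (t + 1)).ne' (hp t).ne']
    ring
  rw [sum_congr rfl fun t _ => h1 t, sum_range_sub', log_div (hp T).ne' hY.ne']
  have h3 := log_le_log (hp 0) (Pr_mono hν (det_snd (P.D 0) ln) ω)
  have h4 : log (Pr ν (fun v => (P.D 0 v, ln v)) (P.D 0 ω, ln ω)) ≤ log (Pr ν ln (ln ω)) := h3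
  linarith

open Classical in
/-- **transfer of NG to a law of bounded density** -/
theorem ngq_nu {β η : Type*} (P : Pcs Ω) (hν : IsProb ν) (ln : Ω → L) (hq : IsProb q)
    {Y : Ω' → η} (hY : Det Y (fun a => ln (pr a))) {R : ℕ → Ω' → β}
    (hR : ∀ t, Det (R (t + 1)) (R t)) (hRD : ∀ t, Det (R t) (fun a => P.D t (pr a))) (T : ℕ)
    {d : ℝ} (hd0 : 0 < d) (hd : ∀ v, Pr q pr v ≤ d * ν v)
    {K₀ : ℕ} (hK₀ : 0 < K₀) (hDK : #(univ.image (P.D T)) ≤ K₀)
    (lg : ℕ → Ω' → Prop) {N₀ κ ε δ d₀ : ℝ}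
    (hN₀ : ∀ a, 0 < q a → (#{t ∈ range T | lg t a} : ℝ) ≤ N₀) (hκ0 : 0 < κ) (hκ1 : κ ≤ 1)
    (hε0 : 0 < ε) (hε1 : ε ≤ 1 / 2)
    (hNG : PE q (fun a => ∃ t < T, Pr ν (fun v => (P.D (t + 1) v, ln v))
      (P.D (t + 1) (pr a), ln (pr a)) ≤
        κ * Pr ν (fun v => (P.D t v, ln v)) (P.D t (pr a), ln (pr a))) ≤ d₀)
    {K : ℕ} (hK0 : 0 < K)
    (hK : ∀ a, ∃ s : Finset β, #s ≤ K ∧ ∀ a', 0 < q a' → Y a' = Y a → R T a' ∈ s)
    (hδ : 0 < δ) (hδ1 : δ ≤ 1) (hE : d₀ + 2 * ε * (log K₀ + log d) ≤ δ) :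
    ∑ a, q a * ∑ t ∈ range T with lg t a, -log (kt (P.pull pr) q Y R t a) ≤
      N₀ * (log (1 / κ) + log (1 / ε)) + δ * (log K + log (1 / δ) + 1) := by
  have hac : ∀ {a : Ω'}, 0 < q a → 0 < ν (pr a) := fun {a} ha => nu_pos hq hd0 hd ha
  have hDn : ∀ t (v v' : Ω), P.D (t + 1) v = P.D (t + 1) v' → P.D t v = P.D t v' :=
    fun t v v' h => P.D_nest (Nat.le_succ t) h
  refine ngq (P.pull pr) hq hR hRD T (c := fun t a => kn P ν ln t (pr a))
    (fun t a ha => kn_pos P hν ln t (hac ha)) ?_ ?_ (L₀ := log K₀ + log d) ?_ lg hN₀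
    (log_nonneg (by rw [le_div_iff₀ hκ0]; linarith)) hε0 hε1
    (fun a => ∃ t < T, Pr ν (fun v => (P.D (t + 1) v, ln v)) (P.D (t + 1) (pr a), ln (pr a)) ≤
      κ * Pr ν (fun v => (P.D t v, ln v)) (P.D t (pr a), ln (pr a))) ?_ hK0 hK hδ hδ1
    ((add_le_add hNG le_rfl).trans hE)
  · intro t a a' _ _ e1 e2
    have e3 : ln (pr a) = ln (pr a') := hY a a' e1
    have e4 : P.D (t + 1) (pr a) = P.D (t + 1) (pr a') := e2
    have e5 := hDn t _ _ e4
    show kn P ν ln t (pr a) = kn P ν ln t (pr a')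
    unfold kn
    rw [e3, e4, e5]
  · intro t S h1 h2 h3
    rcases S.eq_empty_or_nonempty with rfl | ⟨a₁, ha₁⟩
    · simp
    have hp : 0 < Pr ν (fun v => (P.D t v, ln v)) (P.D t (pr a₁), ln (pr a₁)) :=
      Pr_pos hν (fun v => (P.D t v, ln v)) (hac (h1 a₁ ha₁))
    have hsame : ∀ a ∈ S, (P.D t (pr a), ln (pr a)) = (P.D t (pr a₁), ln (pr a₁)) := by
      intro a ha
      obtain ⟨e1, e2⟩ := h2 a ha a₁ ha₁
      exact Prod.ext e2 (hY a a₁ e1)
    have e : ∑ a ∈ S, kn P ν ln t (pr a) = (∑ a ∈ S, Pr ν (fun v => (P.D (t + 1) v, ln v))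
        (P.D (t + 1) (pr a), ln (pr a))) /
          Pr ν (fun v => (P.D t v, ln v)) (P.D t (pr a₁), ln (pr a₁)) := by
      rw [sum_div]
      refine sum_congr rfl fun a ha => ?_
      unfold kn
      rw [hsame a ha]
    show ∑ a ∈ S, kn P ν ln t (pr a) ≤ 1
    rw [e, div_le_one hp]
    have hinj : ∀ a ∈ S, ∀ a' ∈ S, pr a = pr a' → a = a' := fun a ha a' ha' h4 =>
      h3 a ha a' ha' (by show P.D (t + 1) (pr a) = P.D (t + 1) (pr a'); rw [h4])
    have e2 : ∑ a ∈ S, Pr ν (fun v => (P.D (t + 1) v, ln v)) (P.D (t + 1) (pr a), ln (pr a)) =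
        ∑ v ∈ S.image pr, Pr ν (fun v => (P.D (t + 1) v, ln v)) (P.D (t + 1) v, ln v) := by
      rw [sum_image hinj]
    rw [e2]
    refine sum_Pr_le hν (fun v => (P.D (t + 1) v, ln v)) (fun v => (P.D t v, ln v)) ?_ _ _ ?_ ?_
    · intro v v' h4
      obtain ⟨e3, e4⟩ := Prod.mk.inj h4
      exact Prod.ext (hDn t v v' e3) e4
    · intro v hv
      obtain ⟨a, ha, rfl⟩ := mem_image.1 hv
      exact hsame a ha
    · intro v hv v' hv' h4
      obtain ⟨a, ha, rfl⟩ := mem_image.1 hv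
      obtain ⟨a', ha', rfl⟩ := mem_image.1 hv'
      rw [h3 a ha a' ha' (Prod.mk.inj h4).1]
  · refine le_trans (sum_le_sum fun a _ => ?_) (sur_avg hν hq ln (P.D T) hd0 hd hK₀
      (univ.image (P.D T)) (fun v => mem_image_of_mem _ (mem_univ v)) hDK)
    rcases (hq.nonneg a).eq_or_lt with h0 | h0
    · rw [← h0]
      simp
    · exact mul_le_mul_of_nonneg_left (sum_kn_le P hν ln T (hac h0)) h0.le
  · intro a ha hG t ht _
    have h1 : κ * Pr ν (fun v => (P.D t v, ln v)) (P.D t (pr a), ln (pr a)) <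
        Pr ν (fun v => (P.D (t + 1) v, ln v)) (P.D (t + 1) (pr a), ln (pr a)) := by
      by_contra hcon
      exact hG ⟨t, ht, not_lt.1 hcon⟩
    have hp : 0 < Pr ν (fun v => (P.D t v, ln v)) (P.D t (pr a), ln (pr a)) :=
      Pr_pos hν (fun v => (P.D t v, ln v)) (hac ha)
    have h2 : κ ≤ kn P ν ln t (pr a) := by
      unfold kn
      rw [le_div_iff₀ hp]
      exact h1.le
    have h3 := log_le_log hκ0 h2
    have h4 : log (1 / κ) = -log κ := by rw [one_div, log_inv]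
    show -log (kn P ν ln t (pr a)) ≤ log (1 / κ)
    rw [h4]
    linarith

end nu

end Vale.Agent.P065.H344
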