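import Vale.Agent.P065.H344.NGQ
import Vale.Agent.P065.H654.SGSys
import Vale.Agent.P065.H649.CoarseFr2
import Vale.Agent.P065.H700.Giant1

/-!
# P065, assembly, case (I): the late flags (helper344)

For the law `L.Q` of the slope giants: the surprises at the late levels `t < T' < t + P₁` add up to
at most a constant times `1 + log g`.
-/

set_option autoImplicit false

open Finset Real

noncomputable section

namespace Vale.Agent.P065.H344

open Vale.Agent.P065.UB Vale.Agent.P065.Ent Vale.Agent.P065.H268 Vale.Agent.P065.H353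
  Vale.Agent.P065.H154 Vale.Agent.P065.H725 Vale.Agent.P065.H654

/-- late and not isolated (700's `LateC`) -/
def LateI {Ω : Type*} (F : Fr Ω) (p : Prm) (P₁ t : ℕ) (a : p.Col × Ω) : Prop :=
  t < F.T' a.2 ∧ F.T' a.2 < t + P₁

open Classical in
lemma card_LateI {Ω : Type*} {F : Fr Ω} {p : Prm} (P₁ T : ℕ) (a : p.Col × Ω) :
    #{t ∈ range T | LateI F p P₁ t a} ≤ P₁ := by
  have h : (range T).filter (fun t => LateI F p P₁ t a) ⊆ Ico (F.T' a.2 - P₁) (F.T' a.2) := by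
    intro t ht
    obtain ⟨-, h1, h2⟩ := mem_filter.1 ht
    rw [mem_Ico]
    omega
  refine (card_le_card h).trans ?_
  rw [Nat.card_Ico]
  omega

variable {B₀ Γ s₀ q Λ kt kN : ℕ} {c₂ : ℝ} {n g : ℕ} {S : SysI B₀ Γ s₀ q Λ kt kN c₂ n g} {r₀ : ℝ}

/-- the flag marginal of the law of the slope giants has density at most `256` -/
theorem SGL_dens (L : SGL S r₀) (ω : S.Ω) : ∑ c, L.Q (c, ω) ≤ 256 * S.μ ω := by
  classical
  have hnT : (0 : ℝ) < S.p.nT := by exact_mod_cast S.p.nT_pos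
  have hμ0 := S.hμ.nonneg ω
  have h1 : ∀ i : Fin S.p.nT, ∑ κ : S.p.Kap, L.Q ((κ, i), ω) ≤ 256 / S.p.nT * S.μ ω := by
    intro i
    have h0 : 0 ≤ 256 / (S.p.nT : ℝ) * S.μ ω := by positivity
    by_cases hex : ∃ κ : S.p.Kap, 0 < L.Q ((κ, i), ω)
    · obtain ⟨κ, hκ⟩ := hex
      rw [sum_eq_single κ]
      · exact L.le _
      · intro κ' _ hne
        by_contra h2
        have h3 : 0 < L.Q ((κ', i), ω) := lt_of_le_of_ne (L.hQ.nonneg _) (Ne.symm h2)
        exact hne (L.one h3 hκ)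
      · intro h2
        exact absurd (mem_univ _) h2
    · push Not at hex
      exact (sum_nonpos fun κ _ => hex κ).trans h0
  rw [Fintype.sum_prod_type, sum_comm]
  refine (sum_le_sum fun i _ => h1 i).trans (le_of_eq ?_)
  rw [sum_const, card_univ, Fintype.card_fin, nsmul_eq_mul]
  field_simp

/-- giant exits of time are rare under the law of the slope giants -/
theorem SGL_ng (L : SGL S r₀) (u : ℝ) (T : ℕ) : PE L.Q (fun a => ∃ t < T,
    Pr S.ν (fun ω => (S.F.D u (t + 1) ω, S.ln ω)) (S.F.D u (t + 1) a.2, S.ln a.2) ≤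
      (1 / (g : ℝ)) ^ (3 * kN + 9) *
        Pr S.ν (fun ω => (S.F.D u t ω, S.ln ω)) (S.F.D u t a.2, S.ln a.2)) ≤
    256 * (1 / (g : ℝ)) ^ kN := by
  have h1 := Pr_comp_le (q := L.Q) (pr := (Prod.snd : S.p.Col × S.Ω → S.Ω)) (ν := S.μ)
    (d := 256) (fun ω => by rw [H649.Pr_snd]; exact SGL_dens L ω)
    (fun ω => ∃ t < T,
      Pr S.ν (fun ω => (S.F.D u (t + 1) ω, S.ln ω)) (S.F.D u (t + 1) ω, S.ln ω) ≤
      (1 / (g : ℝ)) ^ (3 * kN + 9) *
        Pr S.ν (fun ω => (S.F.D u t ω, S.ln ω)) (S.F.D u t ω, S.ln ω)) True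
  refine h1.trans ?_
  exact mul_le_mul_of_nonneg_left (S.ng u T) (by norm_num)

/-- the surprise of the time step is the kernel of the line -/
lemma sur_eq {Ω : Type*} [Fintype Ω] {F : Fr Ω} {p : Prm} {ln : Ω → Pt} (Q : p.Col × Ω → ℝ)
    (u : ℝ) (t : ℕ) (a : p.Col × Ω) :
    H700.sur Q (fun a => F.D u (t + 1) a.2) (fun a => (F.D u t a.2, (a.1, ln a.2))) a =
      -log (H353.kt ((F.Q u 0).pull (Prod.snd : p.Col × Ω → Ω)) Q (fun a => (a.1, ln a.2))
        (fun t a => F.D u t a.2) t a) := by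
  unfold H700.sur H353.kt
  congr 3
  exact Pr_congr (X := fun a : p.Col × Ω => (F.D u (t + 1) a.2, (F.D u t a.2, (a.1, ln a.2))))
    (Y := fun a : p.Col × Ω => ((F.D u (t + 1) a.2, F.D u t a.2), (a.1, ln a.2)))
    (((det_fst _ _).pair ((det_snd _ _).trans (det_fst _ _))).pair
      ((det_snd _ _).trans (det_snd _ _)))
    (((det_fst _ _).trans (det_fst _ _)).pair
      (((det_fst _ _).trans (det_snd _ _)).pair (det_snd _ _))) a

open Classical in
/-- **the late flags of case (I)** -/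
theorem late_sum (B₀ Λ P₁ kN : ℕ) (hB : 1 ≤ B₀) (hkN : 2 ≤ kN) : ∃ g₁ : ℕ,
    ∀ (Γ s₀ q kt : ℕ) (c₂ : ℝ) (n g : ℕ), g₁ ≤ g →
    ∀ (S : SysI B₀ Γ s₀ q Λ kt kN c₂ n g) (r₀ : ℝ) (L : SGL S r₀) (u : ℝ) (T : ℕ),
      ∑ t ∈ range T, ∑ a, L.Q a * (if LateI S.F S.p P₁ t a then
        H700.sur L.Q (fun a => S.F.D u (t + 1) a.2)
          (fun a => (S.F.D u t a.2, (a.1, S.ln a.2))) a else 0) ≤
        (P₁ * (3 * kN + 13) + 2 * B₀ + 1) * (1 + log g) := by
  obtain ⟨g₂, hg₂⟩ := exists_nat_ge (4 * (2 * (B₀ : ℝ) + log (256 * (Λ + 1))) + 514)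
  refine ⟨max g₂ 514, ?_⟩
  intro Γ s₀ q kt c₂ n g hg S r₀ L u T
  have hgr1 : 4 * (2 * (B₀ : ℝ) + log (256 * (Λ + 1))) + 514 ≤ g :=
    hg₂.trans (by exact_mod_cast (le_max_left _ _).trans hg)
  have hgr2 : (514 : ℝ) ≤ g := by exact_mod_cast (le_max_right _ _).trans hg
  have hB1 : (1 : ℝ) ≤ B₀ := by exact_mod_cast hB
  have hg0 : (0 : ℝ) < g := by linarith
  have hlg := log_le_sub_one_of_pos hg0
  have hlg0 : 0 ≤ log (g : ℝ) := log_nonneg (by linarith)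
  have hi0 : (0 : ℝ) < 1 / g := by positivity
  have hi1 : (1 : ℝ) / g ≤ 1 := by rw [div_le_one hg0]; linarith
  have hi2 : (1 : ℝ) / g ≤ 1 / 2 := one_div_le_one_div_of_le (by norm_num) (by linarith)
  have hΛ0 : (0 : ℝ) ≤ Λ := Nat.cast_nonneg _
  set d : ℝ := 256 * (Λ + 1) with hd
  have hd0 : 0 < d := by positivity
  have hlogd0 : 0 ≤ log d := log_nonneg (by rw [hd]; linarith)
  set K : ℕ := #(univ.image (S.F.P.W S.F.n)) with hKd
  have hK0 : 0 < K := card_pos.2 ⟨_, mem_image_of_mem _ (mem_univ (Classical.arbitrary S.Ω))⟩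
  have hlK : log (K : ℝ) ≤ 2 * g * B₀ := by
    have h1 : (K : ℝ) ≤ (B₀ : ℝ) ^ (2 * g) := by exact_mod_cast S.leaves
    have h2 := log_le_log (by exact_mod_cast hK0) h1
    rw [log_pow] at h2
    have h3 : (0 : ℝ) < B₀ := by linarith
    have h4 := log_le_sub_one_of_pos h3
    have h5 : (0 : ℝ) ≤ ((2 * g : ℕ) : ℝ) := Nat.cast_nonneg _
    have h6 : ((2 * g : ℕ) : ℝ) * log (B₀ : ℝ) ≤ ((2 * g : ℕ) : ℝ) * B₀ :=
      mul_le_mul_of_nonneg_left (by linarith) h5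
    refine (h2.trans h6).trans (le_of_eq ?_)
    push_cast
    ring
  -- the error
  have hE : 256 * (1 / (g : ℝ)) ^ kN + 2 * (1 / (g : ℝ)) ^ 4 * (log (K : ℝ) + log d) ≤ 1 / g := by
    have h1 : (1 / (g : ℝ)) ^ kN ≤ (1 / (g : ℝ)) ^ 2 := pow_le_pow_of_le_one hi0.le hi1 hkN
    have h2 : 256 * (1 / (g : ℝ)) ^ 2 ≤ 1 / 2 * (1 / g) := by
      have e1 : 256 * (1 / (g : ℝ)) ^ 2 = 256 * (1 / (g : ℝ)) * (1 / g) := by ring
      rw [e1]
      refine mul_le_mul_of_nonneg_right ?_ hi0.le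
      rw [mul_one_div, div_le_iff₀ hg0]
      linarith
    have h5 : log (K : ℝ) + log d ≤ (2 * B₀ + log d) * g := by
      have : log d ≤ log d * g := le_mul_of_one_le_right hlogd0 (by linarith)
      linarith
    have h6 : 2 * (1 / (g : ℝ)) ^ 4 * (log (K : ℝ) + log d) ≤
        2 * (1 / (g : ℝ)) ^ 4 * ((2 * B₀ + log d) * g) :=
      mul_le_mul_of_nonneg_left h5 (by positivity)
    have e1 : 2 * (1 / (g : ℝ)) ^ 4 * ((2 * B₀ + log d) * g) =
        2 * (2 * B₀ + log d) * (1 / g) * (1 / g) * (1 / g) := by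
      field_simp
    have h7 : 2 * (2 * (B₀ : ℝ) + log d) * (1 / g) ≤ 1 / 2 := by
      rw [mul_one_div, div_le_iff₀ hg0]
      linarith
    have h8 : 2 * (2 * (B₀ : ℝ) + log d) * (1 / g) * (1 / g) ≤ 1 / 2 * 1 :=
      mul_le_mul h7 hi1 hi0.le (by norm_num)
    have h9 := mul_le_mul_of_nonneg_right h8 hi0.le
    rw [e1] at h6
    linarith
  have hcK : #(univ.image ((S.F.Q u 0).D T)) ≤ K := card_D_le (F := S.F) u T
  have hdens : ∀ ω, Pr L.Q Prod.snd ω ≤ d * S.ν ω := by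
    intro ω
    rw [H649.Pr_snd]
    refine (SGL_dens L ω).trans ?_
    have h1 := S.μ_le ω
    have h2 := S.hν.nonneg ω
    rw [hd]
    nlinarith
  have hRD : ∀ t, Det (fun a : S.p.Col × S.Ω => S.F.D u (t + 1) a.2) (fun a => S.F.D u t a.2) :=
    fun t a a' h => S.F.D_det u t a.2 a'.2 h
  have key := ngq_nu (S.F.Q u 0) S.hν S.ln L.hQ (Y := fun a : S.p.Col × S.Ω => (a.1, S.ln a.2))
    (pr := (Prod.snd : S.p.Col × S.Ω → S.Ω)) (det_snd _ _)
    (R := fun t (a : S.p.Col × S.Ω) => S.F.D u t a.2) hRD (fun t => Det.refl _) T hd0 hdens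
    hK0 hcK (LateI S.F S.p P₁) (N₀ := P₁) (κ := (1 / (g : ℝ)) ^ (3 * kN + 9))
    (ε := (1 / (g : ℝ)) ^ 4) (δ := 1 / g) (d₀ := 256 * (1 / (g : ℝ)) ^ kN)
    (fun a _ => by exact_mod_cast card_LateI P₁ T a)
    (by positivity) (pow_le_one₀ hi0.le hi1) (by positivity)
    ((pow_le_of_le_one hi0.le hi1 (by norm_num)).trans hi2) (SGL_ng L u T) hK0
    (fun a => ⟨univ.image ((S.F.Q u 0).D T), hcK, fun a' _ _ => mem_image_of_mem _ (mem_univ a'.2)⟩)
    hi0 hi1 hE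
  have e1 : ∑ t ∈ range T, ∑ a, L.Q a * (if LateI S.F S.p P₁ t a then
        H700.sur L.Q (fun a => S.F.D u (t + 1) a.2)
          (fun a => (S.F.D u t a.2, (a.1, S.ln a.2))) a else 0) =
      ∑ a, L.Q a * ∑ t ∈ range T with LateI S.F S.p P₁ t a,
        -log (H353.kt ((S.F.Q u 0).pull (Prod.snd : S.p.Col × S.Ω → S.Ω)) L.Q
          (fun a => (a.1, S.ln a.2)) (fun t a => S.F.D u t a.2) t a) := by
    rw [sum_comm]
    refine sum_congr rfl fun a _ => ?_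
    rw [← mul_sum, sum_filter]
    congr 1
    refine sum_congr rfl fun t _ => ?_
    split_ifs
    · exact sur_eq L.Q u t a
    · rfl
  rw [e1]
  refine key.trans ?_
  have h1 : log (1 / (1 / (g : ℝ)) ^ (3 * kN + 9)) = (3 * kN + 9) * log g := by
    rw [one_div, ← inv_pow, one_div, inv_inv, log_pow]
    push_cast
    ring
  have h2 : log (1 / (1 / (g : ℝ)) ^ 4) = 4 * log g := by
    rw [one_div, ← inv_pow, one_div, inv_inv, log_pow]
    push_cast
    ring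
  have h3 : log (1 / (1 / (g : ℝ))) = log g := by rw [one_div, one_div, inv_inv]
  rw [h1, h2, h3]
  have h4 : 1 / (g : ℝ) * (log (K : ℝ) + log g + 1) ≤ 2 * B₀ + 1 := by
    have h5 : log (K : ℝ) + log g + 1 ≤ (2 * B₀ + 1) * g := by linarith
    have h6 := mul_le_mul_of_nonneg_left h5 hi0.le
    have e3 : 1 / (g : ℝ) * ((2 * B₀ + 1) * g) = 2 * B₀ + 1 := by field_simp
    linarith
  have h5 : (0 : ℝ) ≤ P₁ * (3 * kN + 13) := by positivity
  have h6 : (0 : ℝ) ≤ (2 * B₀ + 1) * log g := by positivity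
  have e4 : (P₁ : ℝ) * ((3 * kN + 9) * log g + 4 * log g) = P₁ * (3 * kN + 13) * log g := by ring
  rw [e4]
  nlinarith

end Vale.Agent.P065.H344
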