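import Vale.Agent.P065.H344.ThinPar
import Vale.Agent.P065.H562.ThinShort

/-!
# P065, assembly, case (II): `HThin` is proved (helper344; 562, 154, 649, 859)
-/

set_option autoImplicit false

open Finset Real

noncomputable section

namespace Vale.Agent.P065.H806

/-- the final inequality for the short part, all constants -/
theorem shortLe : ShortLe := by
  refine ⟨fun B₀ PP Λ a _ PB0 PB PC a2 => (24 * ((PB0 + a + PB : ℕ) : ℝ) * 2 ^ PP * PP * Λ +
    16 * 4 ^ PP * ((PP + PC + a2 : ℕ) : ℝ) * ((PB0 + a + PB : ℕ) : ℝ) * B₀) * Λ, ?_⟩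
  intro B₀ K₁ PP Γ s₀ Λ kN c₂ ρ ε₂ e n g S hB hg u a gC dX PB0 PB PC a2 M0 ps ha haG hdX hgC hgX
    hPC hPB hPP hPR ha2 hM0 _ hps4 hps
  have h1 := S.short_le hg u (m := PB0 + a + PB) (m' := PP + PC + a2) ha haG hdX hgC hgX hPC hPB
    hPP hPR ha2 (by omega) (by omega) (by rw [S.PP_eq]; omega) (by omega) hM0 hps4
    (by push_cast at hps ⊢; exact hps)
  have h2 : S.infB (PB0 + a + PB) (PP + PC + a2) ≤ _ := S.infB_le hB hg _ _
  unfold Sys.infB at h2
  refine h1.trans ?_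
  have e9 : ((9 : ℕ) : ℝ) = 9 := by norm_num
  rw [e9]
  have h3 := mul_le_mul_of_nonneg_left h2
    (show 0 ≤ 32 * ((2 * 2 ^ dX * 2 ^ (PB0 + a) : ℕ) : ℝ) * 9 by positivity)
  linarith

/-- **statement of `hthin`, proved** -/
theorem hthinP : HThin := thin_par shortLe

end Vale.Agent.P065.H806
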