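import Vale.Agent.P065.H860.NGDef

/-!
# P065: pairs of lines in irrelevant nodes (helper344), step (5) of lemma NG (helper860)

`S k` and `C κ` are two nested families of labels. The pairs which share a node `(k, κ)` of mass
`< d ^ 2` and are separated by `S (k + 3)` have mass at most `13 d`.
-/

set_option autoImplicit false

namespace Vale.Agent.P065.H344

open Finset Vale.Agent.P065.H725 Vale.Agent.P065.Ent

variable {Ω : Type*} [Fintype Ω] {ν : Ω → ℝ}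

/-- a sum of a decreasing function over the places where it is halved within three steps -/
theorem sum_halved_le {a : ℤ → ℝ} (h0 : ∀ k, 0 ≤ a k) (h1 : ∀ k, a k ≤ 1)
    (hanti : ∀ k, a (k + 1) ≤ a k) (K : Finset ℤ) (hK : ∀ k ∈ K, a (k + 3) ≤ a k / 2) :
    ∑ k ∈ K, a k ≤ 6 := by
  classical
  have hanti3 : ∀ k, a (k + 3) ≤ a k := by
    intro k
    have e1 := hanti k
    have e2 := hanti (k + 1)
    have e3 := hanti (k + 2)
    have f2 : k + 1 + 1 = k + 2 := by ring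
    have f3 : k + 2 + 1 = k + 3 := by ring
    rw [f2] at e2
    rw [f3] at e3
    linarith
  -- telescoping over an interval
  have htel : ∀ (m : ℤ) (n : ℕ), ∑ i ∈ range n, (a (m + i) - a (m + i + 3)) =
      (a m + a (m + 1) + a (m + 2)) - (a (m + n) + a (m + n + 1) + a (m + n + 2)) := by
    intro m n
    induction n with
    | zero => simp
    | succ n ih =>
      rw [sum_range_succ, ih]
      have f1 : m + ((n + 1 : ℕ) : ℤ) = m + n + 1 := by push_cast; ring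
      have f2 : m + (n : ℤ) + 1 + 1 = m + n + 2 := by ring
      have f3 : m + (n : ℤ) + 1 + 2 = m + n + 3 := by ring
      rw [f1, f2, f3]
      ring
  rcases K.eq_empty_or_nonempty with rfl | hne
  · simp
  set m := K.min' hne with hm
  set M := K.max' hne with hM
  have hmM : m ≤ M := min'_le_max' K hne
  have hsub : K ⊆ (range ((M - m + 1).toNat)).image (fun i : ℕ => m + (i : ℤ)) := by
    intro k hk
    have h2 := min'_le K k hk
    have h3 := le_max' K k hk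
    rw [mem_image]
    refine ⟨(k - m).toNat, ?_, ?_⟩
    · rw [mem_range]
      omega
    · omega
  have hinj : Set.InjOn (fun i : ℕ => m + (i : ℤ)) (range ((M - m + 1).toNat)) := by
    intro i _ j _ h
    have : m + (i : ℤ) = m + (j : ℤ) := h
    omega
  have hstep : ∀ k ∈ K, a k ≤ 2 * (a k - a (k + 3)) := by
    intro k hk
    have := hK k hk
    linarith
  calc ∑ k ∈ K, a k ≤ ∑ k ∈ K, 2 * (a k - a (k + 3)) := sum_le_sum hstep
    _ ≤ ∑ k ∈ (range ((M - m + 1).toNat)).image (fun i : ℕ => m + (i : ℤ)),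
          2 * (a k - a (k + 3)) := by
        refine sum_le_sum_of_subset_of_nonneg hsub fun k _ _ => ?_
        have := hanti3 k
        linarith
    _ = ∑ i ∈ range ((M - m + 1).toNat), 2 * (a (m + i) - a (m + i + 3)) := by
        rw [sum_image hinj]
    _ = 2 * ((a m + a (m + 1) + a (m + 2)) - (a (m + ((M - m + 1).toNat : ℤ)) +
          a (m + ((M - m + 1).toNat : ℤ) + 1) + a (m + ((M - m + 1).toNat : ℤ) + 2))) := by
        rw [← mul_sum, htel]
    _ ≤ 6 := by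
        have e1 := h1 m
        have e2 := h1 (m + 1)
        have e3 := h1 (m + 2)
        have e4 := h0 (m + ((M - m + 1).toNat : ℤ))
        have e5 := h0 (m + ((M - m + 1).toNat : ℤ) + 1)
        have e6 := h0 (m + ((M - m + 1).toNat : ℤ) + 2)
        linarith

/-- the union of the small cells of a nested family around one point -/
theorem ms_small_cells {ι : Type*} (hν : IsProb ν) (L : ℤ → Ω → ι)
    (hL : ∀ k k', k ≤ k' → ∀ ω ω', L k' ω = L k' ω' → L k ω = L k ω') (Q : Ω → Prop)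
    (K : Finset ℤ) {d : ℝ} (hd : 0 ≤ d) (ω : Ω) :
    ms ν (fun ω' => ∃ k ∈ K, Q ω' ∧ L k ω' = L k ω ∧
      ms ν (fun ω'' => Q ω'' ∧ L k ω'' = L k ω) < d) ≤ d := by
  classical
  set K₁ : Finset ℤ := K.filter (fun k => ms ν (fun ω'' => Q ω'' ∧ L k ω'' = L k ω) < d) with hK₁
  rcases K₁.eq_empty_or_nonempty with h | h
  · have : ms ν (fun ω' => ∃ k ∈ K, Q ω' ∧ L k ω' = L k ω ∧
        ms ν (fun ω'' => Q ω'' ∧ L k ω'' = L k ω) < d) ≤ 0 := by
      by_contra hc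
      obtain ⟨ω', -, k, hk, -, -, h3⟩ := ms_pos_iff (not_le.1 hc)
      have : k ∈ K₁ := mem_filter.2 ⟨hk, h3⟩
      rw [h] at this
      exact notMem_empty _ this
    linarith
  · set k₀ := K₁.min' h with hk₀
    have hmem : k₀ ∈ K₁ := min'_mem K₁ h
    have h1 := (mem_filter.1 hmem).2
    refine le_trans (ms_mono hν ?_) h1.le
    rintro ω' - ⟨k, hk, h2, h3, h4⟩
    have : k ∈ K₁ := mem_filter.2 ⟨hk, h4⟩
    exact ⟨h2, hL _ _ (min'_le K₁ k this) _ _ h3⟩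

theorem ms_exists_le (hν : IsProb ν) (K : Finset ℤ) (Q : ℤ → Ω → Prop) :
    ms ν (fun ω => ∃ k ∈ K, Q k ω) ≤ ∑ k ∈ K, ms ν (Q k) := by
  classical
  induction K using Finset.induction_on with
  | empty =>
    rw [sum_empty]
    by_contra hc
    obtain ⟨ω, -, k, hk, -⟩ := ms_pos_iff (not_le.1 hc)
    exact notMem_empty _ hk
  | insert a s ha ih =>
    rw [sum_insert ha]
    have h1 : ms ν (fun ω => ∃ k ∈ insert a s, Q k ω) ≤
        ms ν (fun ω => Q a ω ∨ ∃ k ∈ s, Q k ω) := by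
      refine ms_mono hν ?_
      rintro ω - ⟨k, hk, h2⟩
      rcases mem_insert.1 hk with rfl | hk
      · exact Or.inl h2
      · exact Or.inr ⟨k, hk, h2⟩
    have h2 := ms_or_le hν (Q a) (fun ω => ∃ k ∈ s, Q k ω)
    linarith

/-- the double sum over pairs is symmetric -/
theorem sum_ms_swap (ν : Ω → ℝ) (R : Ω → Ω → Prop) :
    ∑ ω, ν ω * ms ν (fun ω' => R ω' ω) = ∑ ω, ν ω * ms ν (fun ω' => R ω ω') := by
  classical
  unfold ms
  simp_rw [mul_sum]
  rw [sum_comm]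
  refine sum_congr rfl fun ω _ => sum_congr rfl fun ω' _ => ?_
  split_ifs
  · ring
  · simp

section

variable {σ ζ : Type*} (S : ℤ → Ω → σ) (C : ℤ → Ω → ζ)

/-- the node of `ω` at `(k, κ)` has mass `< d ^ 2` -/
def IrrNode (ν : Ω → ℝ) (d : ℝ) (k κ : ℤ) (ω : Ω) : Prop :=
  ms ν (fun ω'' => S k ω'' = S k ω ∧ C κ ω'' = C κ ω) < d ^ 2

/-- the lines whose next slope cell is at most half of the present one -/
def Halved (ν : Ω → ℝ) (k : ℤ) (ω : Ω) : Prop :=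
  ms ν (fun ω'' => S (k + 3) ω'' = S (k + 3) ω) ≤ ms ν (fun ω'' => S k ω'' = S k ω) / 2

variable {S C}

theorem halved_part (hν : IsProb ν)
    (hS : ∀ k k', k ≤ k' → ∀ ω ω', S k' ω = S k' ω' → S k ω = S k ω')
    (hC : ∀ k k', k ≤ k' → ∀ ω ω', C k' ω = C k' ω' → C k ω = C k ω')
    (K K' : Finset ℤ) {d : ℝ} (hd : 0 ≤ d) (ω : Ω) :
    ms ν (fun ω' => ∃ k ∈ K, (d ≤ ms ν (fun ω'' => S k ω'' = S k ω) ∧ Halved S ν k ω) ∧
      ∃ κ ∈ K', S k ω' = S k ω ∧ C κ ω' = C κ ω ∧ IrrNode S C ν d k κ ω) ≤ 6 * d := by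
  classical
  set K₁ : Finset ℤ := K.filter (fun k => d ≤ ms ν (fun ω'' => S k ω'' = S k ω) ∧
    Halved S ν k ω) with hK₁
  have h1 : ms ν (fun ω' => ∃ k ∈ K, (d ≤ ms ν (fun ω'' => S k ω'' = S k ω) ∧ Halved S ν k ω) ∧
      ∃ κ ∈ K', S k ω' = S k ω ∧ C κ ω' = C κ ω ∧ IrrNode S C ν d k κ ω) ≤
      ms ν (fun ω' => ∃ k ∈ K₁, ∃ κ ∈ K', S k ω' = S k ω ∧ C κ ω' = C κ ω ∧
        IrrNode S C ν d k κ ω) := by
    refine ms_mono hν ?_
    rintro ω' - ⟨k, hk, h2, h3⟩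
    exact ⟨k, mem_filter.2 ⟨hk, h2⟩, h3⟩
  refine h1.trans ((ms_exists_le hν K₁ _).trans ?_)
  have h2 : ∀ k ∈ K₁, ms ν (fun ω' => ∃ κ ∈ K', S k ω' = S k ω ∧ C κ ω' = C κ ω ∧
      IrrNode S C ν d k κ ω) ≤ d * ms ν (fun ω'' => S k ω'' = S k ω) := by
    intro k hk
    have h3 := ((mem_filter.1 hk).2).1
    set D := d * ms ν (fun ω'' => S k ω'' = S k ω) with hD
    have hD0 : 0 ≤ D := mul_nonneg hd (ms_nonneg hν _)
    have hD1 : d ^ 2 ≤ D := by
      rw [hD, pow_two]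
      exact mul_le_mul_of_nonneg_left h3 hd
    refine le_trans (ms_mono hν ?_) (ms_small_cells hν C hC (fun ω' => S k ω' = S k ω) K' hD0 ω)
    rintro ω' - ⟨κ, hκ, h4, h5, h6⟩
    exact ⟨κ, hκ, h4, h5, lt_of_lt_of_le h6 hD1⟩
  refine (sum_le_sum h2).trans ?_
  rw [← mul_sum]
  have h3 : ∑ k ∈ K₁, ms ν (fun ω'' => S k ω'' = S k ω) ≤ 6 := by
    refine sum_halved_le (a := fun k => ms ν (fun ω'' => S k ω'' = S k ω))
      (fun k => ms_nonneg hν _) (fun k => ms_le_one hν _) ?_ K₁ ?_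
    · intro k
      refine ms_mono hν fun ω' _ h => hS k (k + 1) (by omega) _ _ h
    · intro k hk
      exact ((mem_filter.1 hk).2).2
  nlinarith

/-- **pairs in irrelevant nodes** -/
theorem irr_bound (hν : IsProb ν)
    (hS : ∀ k k', k ≤ k' → ∀ ω ω', S k' ω = S k' ω' → S k ω = S k ω')
    (hC : ∀ k k', k ≤ k' → ∀ ω ω', C k' ω = C k' ω' → C k ω = C k ω')
    (K K' : Finset ℤ) {d : ℝ} (hd : 0 ≤ d) :
    ∑ ω, ν ω * ms ν (fun ω' => ∃ k ∈ K, ∃ κ ∈ K', S k ω' = S k ω ∧ C κ ω' = C κ ω ∧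
      S (k + 3) ω' ≠ S (k + 3) ω ∧
      ms ν (fun ω'' => S k ω'' = S k ω ∧ C κ ω'' = C κ ω) < d ^ 2) ≤ 13 * d := by
  classical
  -- the three parts
  let R : Ω → Ω → Prop := fun ω ω' => ∃ k ∈ K,
    (d ≤ ms ν (fun ω'' => S k ω'' = S k ω) ∧ Halved S ν k ω) ∧
      ∃ κ ∈ K', S k ω' = S k ω ∧ C κ ω' = C κ ω ∧ IrrNode S C ν d k κ ω
  let T : Ω → Ω → Prop := fun ω ω' => ∃ k ∈ K, True ∧ S k ω' = S k ω ∧
      ms ν (fun ω'' => True ∧ S k ω'' = S k ω) < d
  have hcov : ∀ ω, ms ν (fun ω' => ∃ k ∈ K, ∃ κ ∈ K', S k ω' = S k ω ∧ C κ ω' = C κ ω ∧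
      S (k + 3) ω' ≠ S (k + 3) ω ∧
      ms ν (fun ω'' => S k ω'' = S k ω ∧ C κ ω'' = C κ ω) < d ^ 2) ≤
      ms ν (fun ω' => T ω ω') + (ms ν (fun ω' => R ω ω') + ms ν (fun ω' => R ω' ω)) := by
    intro ω
    have h1 : ms ν (fun ω' => ∃ k ∈ K, ∃ κ ∈ K', S k ω' = S k ω ∧ C κ ω' = C κ ω ∧
        S (k + 3) ω' ≠ S (k + 3) ω ∧
        ms ν (fun ω'' => S k ω'' = S k ω ∧ C κ ω'' = C κ ω) < d ^ 2) ≤
        ms ν (fun ω' => T ω ω' ∨ (R ω ω' ∨ R ω' ω)) := by
      refine ms_mono hν ?_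
      rintro ω' - ⟨k, hk, κ, hκ, h2, h3, h4, h5⟩
      by_cases h6 : ms ν (fun ω'' => S k ω'' = S k ω) < d
      · left
        refine ⟨k, hk, trivial, h2, ?_⟩
        simpa using h6
      · right
        push Not at h6
        -- one of the two cells is at most half
        have h7 : ms ν (fun ω'' => S (k + 3) ω'' = S (k + 3) ω) +
            ms ν (fun ω'' => S (k + 3) ω'' = S (k + 3) ω') ≤ ms ν (fun ω'' => S k ω'' = S k ω) := by
          rw [ms_split ν (fun ω'' => S k ω'' = S k ω) (fun ω'' => S (k + 3) ω'' = S (k + 3) ω)]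
          apply add_le_add
          · refine ms_mono hν fun ω'' _ h => ⟨hS k (k + 3) (by omega) _ _ h, h⟩
          · refine ms_mono hν fun ω'' _ h => ⟨(hS k (k + 3) (by omega) _ _ h).trans h2, ?_⟩
            intro h8
            exact h4 (h.symm.trans h8)
        have h8 : (fun ω'' => S k ω'' = S k ω') = (fun ω'' => S k ω'' = S k ω) := by
          funext ω''
          rw [h2]
        by_cases h9 : Halved S ν k ω
        · left
          exact ⟨k, hk, ⟨h6, h9⟩, κ, hκ, h2, h3, h5⟩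
        · right
          refine ⟨k, hk, ⟨by rw [h8]; exact h6, ?_⟩, κ, hκ, h2.symm, h3.symm, ?_⟩
          · unfold Halved at h9 ⊢
            push Not at h9
            rw [h8]
            linarith
          · unfold IrrNode
            have h10 : (fun ω'' => S k ω'' = S k ω' ∧ C κ ω'' = C κ ω') =
                (fun ω'' => S k ω'' = S k ω ∧ C κ ω'' = C κ ω) := by
              funext ω''
              rw [h2, h3]
            rw [h10]
            exact h5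
    have h2 := ms_or_le hν (fun ω' => T ω ω') (fun ω' => R ω ω' ∨ R ω' ω)
    have h3 := ms_or_le hν (fun ω' => R ω ω') (fun ω' => R ω' ω)
    linarith
  have hT : ∀ ω, ms ν (fun ω' => T ω ω') ≤ d := fun ω =>
    ms_small_cells hν S hS (fun _ => True) K hd ω
  have hR : ∀ ω, ms ν (fun ω' => R ω ω') ≤ 6 * d := fun ω => halved_part hν hS hC K K' hd ω
  calc _ ≤ ∑ ω, ν ω * (ms ν (fun ω' => T ω ω') + (ms ν (fun ω' => R ω ω') +
        ms ν (fun ω' => R ω' ω))) :=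
        sum_le_sum fun ω _ => mul_le_mul_of_nonneg_left (hcov ω) (hν.nonneg ω)
    _ = ∑ ω, ν ω * ms ν (fun ω' => T ω ω') + (∑ ω, ν ω * ms ν (fun ω' => R ω ω') +
        ∑ ω, ν ω * ms ν (fun ω' => R ω' ω)) := by
        rw [← sum_add_distrib, ← sum_add_distrib]
        exact sum_congr rfl fun ω _ => by ring
    _ = ∑ ω, ν ω * ms ν (fun ω' => T ω ω') + (∑ ω, ν ω * ms ν (fun ω' => R ω ω') +
        ∑ ω, ν ω * ms ν (fun ω' => R ω ω')) := by
        rw [sum_ms_swap ν R]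
    _ ≤ ∑ ω, ν ω * d + (∑ ω, ν ω * (6 * d) + ∑ ω, ν ω * (6 * d)) := by
        refine add_le_add (sum_le_sum fun ω _ => mul_le_mul_of_nonneg_left (hT ω) (hν.nonneg ω))
          (add_le_add (sum_le_sum fun ω _ => mul_le_mul_of_nonneg_left (hR ω) (hν.nonneg ω))
            (sum_le_sum fun ω _ => mul_le_mul_of_nonneg_left (hR ω) (hν.nonneg ω)))
    _ = 13 * d := by
        rw [← sum_mul, ← sum_mul, hν.sum]
        ring

end

open Vale.Agent.P065.H860 in
/-- **pairs in irrelevant nodes**, in the form of `H860/NGDef` -/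
theorem irr_pairs {L ζ : Type*} (hν : IsProb ν) (ln : Ω → L) {S Z : ℤ → L → ζ} (hS : Nst S)
    (hZ : Nst Z) (K K' : Finset ℤ) {d : ℝ} (hd : 0 ≤ d) :
    ∑ ω, ν ω * ms ν (fun ω' => ∃ k ∈ K, ∃ κ ∈ K', S k (ln ω') = S k (ln ω) ∧
      Z κ (ln ω') = Z κ (ln ω) ∧ S (k + 3) (ln ω') ≠ S (k + 3) (ln ω) ∧
      nm ν ln S Z k κ (ln ω) < d ^ 2) ≤ 13 * d :=
  irr_bound (S := fun k ω => S k (ln ω)) (C := fun k ω => Z k (ln ω)) hν
    (fun _ _ h _ _ e => hS h e) (fun _ _ h _ _ e => hZ h e) K K' hd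

open Vale.Agent.P065.H860 in
/-- all systems together -/
theorem irr_pairs_all {L ζ α : Type*} [Fintype α] (hν : IsProb ν) (ln : Ω → L)
    {S Z : α → ℤ → L → ζ} (hS : ∀ a, Nst (S a)) (hZ : ∀ a, Nst (Z a)) (K K' : Finset ℤ) {d : ℝ}
    (hd : 0 ≤ d) :
    ∑ ω, ν ω * ms ν (fun ω' => ∃ a, ∃ k ∈ K, ∃ κ ∈ K', S a k (ln ω') = S a k (ln ω) ∧
      Z a κ (ln ω') = Z a κ (ln ω) ∧ S a (k + 3) (ln ω') ≠ S a (k + 3) (ln ω) ∧
      nm ν ln (S a) (Z a) k κ (ln ω) < d ^ 2) ≤ 13 * Fintype.card α * d := by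
  classical
  have h1 : ∀ ω, ms ν (fun ω' => ∃ a, ∃ k ∈ K, ∃ κ ∈ K', S a k (ln ω') = S a k (ln ω) ∧
      Z a κ (ln ω') = Z a κ (ln ω) ∧ S a (k + 3) (ln ω') ≠ S a (k + 3) (ln ω) ∧
      nm ν ln (S a) (Z a) k κ (ln ω) < d ^ 2) ≤
      ∑ a, ms ν (fun ω' => ∃ k ∈ K, ∃ κ ∈ K', S a k (ln ω') = S a k (ln ω) ∧
      Z a κ (ln ω') = Z a κ (ln ω) ∧ S a (k + 3) (ln ω') ≠ S a (k + 3) (ln ω) ∧
      nm ν ln (S a) (Z a) k κ (ln ω) < d ^ 2) := by
    intro ω
    have : ∀ (s : Finset α) (Q : α → Ω → Prop),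
        ms ν (fun ω' => ∃ a ∈ s, Q a ω') ≤ ∑ a ∈ s, ms ν (Q a) := by
      intro s Q
      induction s using Finset.induction_on with
      | empty =>
        rw [sum_empty]
        by_contra hc
        obtain ⟨ω, -, k, hk, -⟩ := ms_pos_iff (not_le.1 hc)
        exact notMem_empty _ hk
      | insert a s ha ih =>
        rw [sum_insert ha]
        have h1 : ms ν (fun ω => ∃ k ∈ insert a s, Q k ω) ≤
            ms ν (fun ω => Q a ω ∨ ∃ k ∈ s, Q k ω) := by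
          refine ms_mono hν ?_
          rintro ω - ⟨k, hk, h2⟩
          rcases mem_insert.1 hk with rfl | hk
          · exact Or.inl h2
          · exact Or.inr ⟨k, hk, h2⟩
        have h2 := ms_or_le hν (Q a) (fun ω => ∃ k ∈ s, Q k ω)
        linarith
    refine le_trans (ms_mono hν ?_) (this univ _)
    rintro ω' - ⟨a, h⟩
    exact ⟨a, mem_univ _, h⟩
  calc _ ≤ ∑ ω, ν ω * ∑ a, ms ν (fun ω' => ∃ k ∈ K, ∃ κ ∈ K', S a k (ln ω') = S a k (ln ω) ∧
        Z a κ (ln ω') = Z a κ (ln ω) ∧ S a (k + 3) (ln ω') ≠ S a (k + 3) (ln ω) ∧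
        nm ν ln (S a) (Z a) k κ (ln ω) < d ^ 2) :=
        sum_le_sum fun ω _ => mul_le_mul_of_nonneg_left (h1 ω) (hν.nonneg ω)
    _ = ∑ a, ∑ ω, ν ω * ms ν (fun ω' => ∃ k ∈ K, ∃ κ ∈ K', S a k (ln ω') = S a k (ln ω) ∧
        Z a κ (ln ω') = Z a κ (ln ω) ∧ S a (k + 3) (ln ω') ≠ S a (k + 3) (ln ω) ∧
        nm ν ln (S a) (Z a) k κ (ln ω) < d ^ 2) := by
        rw [sum_comm]
        exact sum_congr rfl fun ω _ => mul_sum _ _ _
    _ ≤ ∑ _a : α, 13 * d := sum_le_sum fun a _ => irr_pairs hν ln (hS a) (hZ a) K K' hd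
    _ = 13 * Fintype.card α * d := by
        rw [sum_const, card_univ, nsmul_eq_mul]
        ring

end Vale.Agent.P065.H344
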