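import Vale.Agent.P065.H344.ThinSys

/-!
# P065, assembly, case (II): the short part of `thin` under the law `Q` (helper344)

The laws `q` and `Q` have the same law of the fine box, so all shares in the boxes agree.
-/

set_option autoImplicit false

open Finset Real

noncomputable section

namespace Vale.Agent.P065.H344

open Vale.Agent.P065.UB Vale.Agent.P065.Ent Vale.Agent.P065.H268 Vale.Agent.P065.H353
  Vale.Agent.P065.H154

section same

variable {Ω : Type*} [Fintype Ω] {F : Fr Ω} {ln : Ω → Pt} {p : Prm} {Lab : Type*} {lam : Ω → Lab}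
  {q Q : p.Col × Ω → ℝ}

lemma PE_same {A : p.Col × Ω → Prop} (h : ∀ x, Pr q (rb F ln p lam) x = Pr Q (rb F ln p lam) x)
    (hA : ∀ a a', rb F ln p lam a = rb F ln p lam a' → A a → A a') : PE q A = PE Q A :=
  Pr_same h (fun a a' e => propext ⟨hA a a' e, hA a' a e.symm⟩) _

omit [Fintype Ω] in
lemma rb_x {a a' : p.Col × Ω} (h : rb F ln p lam a = rb F ln p lam a') :
    F.P.x a.2 = F.P.x a'.2 := by
  have e := rb_V (F := F) (ln := ln) (p := p) (lam := lam) a a' h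
  simp only [Prod.mk.injEq] at e
  exact F.xW _ _ e.1

lemma hm_same (h : ∀ x, Pr q (rb F ln p lam) x = Pr Q (rb F ln p lam) x) (u : ℝ) (s₀ γ t : ℕ)
    (b : ℤ) (a : p.Col × Ω) : hm (Pf F p u s₀) q (Rt F ln p u γ) t b a =
      hm (Pf F p u s₀) Q (Rt F ln p u γ) t b a := by
  unfold hm
  refine PE_same h fun c c' e => ?_
  have e1 : Rt F ln p u γ t c = Rt F ln p u γ t c' := rb_Rt u γ t c c' e
  have e2 : (Pf F p u s₀).D (t + 1) c = (Pf F p u s₀).D (t + 1) c' := F.D_of_x (rb_x e)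
  rw [e1, e2]
  exact id

lemma Hh_same (h : ∀ x, Pr q (rb F ln p lam) x = Pr Q (rb F ln p lam) x) (u : ℝ) (s₀ γ t : ℕ)
    (a : p.Col × Ω) : Hh (Pf F p u s₀) q (Rt F ln p u γ) t a ↔
      Hh (Pf F p u s₀) Q (Rt F ln p u γ) t a := by
  unfold Hh
  rw [hm_same h u s₀ γ t 1 a, hm_same h u s₀ γ t 0 a]

lemma Hh_rb (u : ℝ) (s₀ γ t : ℕ) {c c' : p.Col × Ω} (e : rb F ln p lam c = rb F ln p lam c') :
    Hh (Pf F p u s₀) Q (Rt F ln p u γ) t c → Hh (Pf F p u s₀) Q (Rt F ln p u γ) t c' := by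
  have hRD : ∀ t, Det (Rt F ln p u γ t) ((Pf F p u s₀).D t) := fun t => Rt_D u γ t
  have e1 : Rt F ln p u γ t c = Rt F ln p u γ t c' := rb_Rt u γ t c c' e
  have e2 : (Pf F p u s₀).D (t + 1) c = (Pf F p u s₀).D (t + 1) c' := F.D_of_x (rb_x e)
  intro h1
  rw [Hh_iff hRD (rfl : Rt F ln p u γ t c = _)] at h1
  rw [Hh_iff hRD e1.symm, ← e2]
  exact h1

omit [Fintype Ω] in
lemma late_rb (PB t : ℕ) {c c' : p.Col × Ω} (e : rb F ln p lam c = rb F ln p lam c') :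
    late F p PB t c ↔ late F p PB t c' := by
  unfold late
  rw [F.T'x _ _ (rb_x e)]

lemma Bg_same (h : ∀ x, Pr q (rb F ln p lam) x = Pr Q (rb F ln p lam) x) (u : ℝ)
    (s₀ γ PB t : ℕ) (a : p.Col × Ω) :
    Bg q (Rt F ln p u γ t) (Hh (Pf F p u s₀) q (Rt F ln p u γ) t) (late F p PB t) a ↔
      Bg Q (Rt F ln p u γ t) (Hh (Pf F p u s₀) Q (Rt F ln p u γ) t) (late F p PB t) a := by
  unfold Bg
  have h1 : Pr q (Rt F ln p u γ t) (Rt F ln p u γ t a) =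
      Pr Q (Rt F ln p u γ t) (Rt F ln p u γ t a) := Pr_same h (rb_Rt u γ t) _
  have h2 : PE q (fun a' => Rt F ln p u γ t a' = Rt F ln p u γ t a ∧
      Hh (Pf F p u s₀) q (Rt F ln p u γ) t a' ∧ late F p PB t a') =
      PE Q (fun a' => Rt F ln p u γ t a' = Rt F ln p u γ t a ∧
      Hh (Pf F p u s₀) Q (Rt F ln p u γ) t a' ∧ late F p PB t a') := by
    rw [PE_congr (μ := q) fun a' => and_congr_right fun _ => and_congr_left fun _ =>
      Hh_same h u s₀ γ t a']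
    refine PE_same h fun c c' e => ?_
    rintro ⟨h3, h4, h5⟩
    exact ⟨(rb_Rt u γ t c c' e).symm.trans h3, Hh_rb u s₀ γ t e h4, (late_rb PB t e).1 h5⟩
  rw [h1, h2]

lemma sl_same (h : ∀ x, Pr q (rb F ln p lam) x = Pr Q (rb F ln p lam) x) (u : ℝ)
    (s₀ γ PB t : ℕ) (a : p.Col × Ω) :
    sl q (Rt F ln p u γ t) (Hh (Pf F p u s₀) q (Rt F ln p u γ) t) (late F p PB t) a =
      sl Q (Rt F ln p u γ t) (Hh (Pf F p u s₀) Q (Rt F ln p u γ) t) (late F p PB t) a := by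
  unfold sl
  have h1 : Pr q (Rt F ln p u γ t) (Rt F ln p u γ t a) =
      Pr Q (Rt F ln p u γ t) (Rt F ln p u γ t a) := Pr_same h (rb_Rt u γ t) _
  have h2 : PE q (fun a' => Rt F ln p u γ t a' = Rt F ln p u γ t a ∧
      ¬ Hh (Pf F p u s₀) q (Rt F ln p u γ) t a' ∧ ¬ late F p PB t a') =
      PE Q (fun a' => Rt F ln p u γ t a' = Rt F ln p u γ t a ∧
      ¬ Hh (Pf F p u s₀) Q (Rt F ln p u γ) t a' ∧ ¬ late F p PB t a') := by
    rw [PE_congr (μ := q) fun a' => and_congr_right fun _ => and_congr_left fun _ =>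
      not_congr (Hh_same h u s₀ γ t a')]
    refine PE_same h fun c c' e => ?_
    rintro ⟨h3, h4, h5⟩
    exact ⟨(rb_Rt u γ t c c' e).symm.trans h3, fun h6 => h4 (Hh_rb u s₀ γ t e.symm h6),
      fun h6 => h5 ((late_rb PB t e).2 h6)⟩
  rw [h1, h2]

/-- in the boxes of `short` the alive light share is less than `ps` -/
theorem sl_lt_late (hQ : IsProb Q) {u : ℝ} (s₀ : ℕ) {γ PB t : ℕ} {ps : ℝ} (hps : ps ≤ 1 / 4)
    {a : p.Col × Ω} (ha : 0 < Q a) (hth : ¬ H819.Th F ln p u γ PB Q ps t a)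
    (hBg : ¬ Bg Q (Rt F ln p u γ t) (Hh (Pf F p u s₀) Q (Rt F ln p u γ) t) (late F p PB t) a) :
    sl Q (Rt F ln p u γ t) (Hh (Pf F p u s₀) Q (Rt F ln p u γ) t) (late F p PB t) a < ps := by
  have hRD : ∀ t, Det (Rt F ln p u γ t) ((Pf F p u s₀).D t) := fun t => Rt_D u γ t
  refine sl_lt (P := Pf F p u s₀) hQ hRD hps (late F p PB) ha (fun hb => hth ?_) hBg
  intro b
  refine (hb (if b then 1 else 0) (by cases b <;> simp)).trans (le_of_eq (PE_congr fun a' => ?_))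
  refine and_congr_right fun h => ?_
  have hD : F.D u t a'.2 = F.D u t a.2 := Rt_D u γ t a' a h
  show F.D u (t + 1) a'.2 = 2 * F.D u t a.2 + (if b then 1 else 0) ∧ ¬ F.T' a'.2 < t + PB ↔
    F.D u (t + 1) a'.2 = 2 * F.D u t a'.2 + (if b then 1 else 0) ∧ t + PB ≤ F.T' a'.2
  rw [hD, not_lt]

/-- in the boxes of `short` the alive heavy share is more than one quarter -/
theorem heavy_alive (hQ : IsProb Q) {u : ℝ} (s₀ : ℕ) {γ PB t : ℕ} {a : p.Col × Ω}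
    (hBg : ¬ Bg Q (Rt F ln p u γ t) (Hh (Pf F p u s₀) Q (Rt F ln p u γ) t) (late F p PB t) a) :
    Pr Q (Rt F ln p u γ t) (Rt F ln p u γ t a) <
      4 * PE Q (fun a' => Rt F ln p u γ t a' = Rt F ln p u γ t a ∧
        Hh (Pf F p u s₀) Q (Rt F ln p u γ) t a' ∧ ¬ late F p PB t a') := by
  classical
  have hRD : ∀ t, Det (Rt F ln p u γ t) ((Pf F p u s₀).D t) := fun t => Rt_D u γ t
  have h1 := Hh_half (P := Pf F p u s₀) (q := Q) hRD t a
  have h2 : 4 * PE Q (fun a' => Rt F ln p u γ t a' = Rt F ln p u γ t a ∧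
      Hh (Pf F p u s₀) Q (Rt F ln p u γ) t a' ∧ late F p PB t a') <
      Pr Q (Rt F ln p u γ t) (Rt F ln p u γ t a) := not_le.1 hBg
  have h3 : PE Q (fun a' => Rt F ln p u γ t a' = Rt F ln p u γ t a ∧
      Hh (Pf F p u s₀) Q (Rt F ln p u γ) t a') ≤
      PE Q (fun a' => Rt F ln p u γ t a' = Rt F ln p u γ t a ∧
        Hh (Pf F p u s₀) Q (Rt F ln p u γ) t a' ∧ late F p PB t a') +
      PE Q (fun a' => Rt F ln p u γ t a' = Rt F ln p u γ t a ∧
        Hh (Pf F p u s₀) Q (Rt F ln p u γ) t a' ∧ ¬ late F p PB t a') := by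
    rw [PE_def, PE_def, PE_def, ← sum_add_distrib]
    refine sum_le_sum fun a' _ => ?_
    have h0 := hQ.nonneg a'
    by_cases a1 : Rt F ln p u γ t a' = Rt F ln p u γ t a ∧
        Hh (Pf F p u s₀) Q (Rt F ln p u γ) t a'
    · by_cases a2 : late F p PB t a'
      · rw [if_pos a1, if_pos ⟨a1.1, a1.2, a2⟩, if_neg fun h => h.2.2 a2, add_zero]
      · rw [if_pos a1, if_neg fun h => a2 h.2.2, if_pos ⟨a1.1, a1.2, a2⟩, zero_add]
    · rw [if_neg a1]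
      split_ifs <;> linarith
  linarith

end same

end Vale.Agent.P065.H344

namespace Vale.Agent.P065.H806.Sys

open Vale.Agent.P065.UB Vale.Agent.P065.Ent Vale.Agent.P065.H268 Vale.Agent.P065.H154
  Vale.Agent.P065.H700 Vale.Agent.P065.H344

variable {B₀ K₁ PP Γ s₀ Λ kN : ℕ} {c₂ ρ ε₂ e : ℝ} {n g : ℕ}
  (S : Sys B₀ K₁ PP Γ s₀ Λ kN c₂ ρ ε₂ e n g)

open Classical in
/-- **the short part under the law `Q`** -/
theorem short_eq (u : ℝ) (γ' PB : ℕ) (ps : ℝ) : S.short u γ' PB ps =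
    ∑ t ∈ range (S.F.P.T + s₀), ∑ a, (if ¬ H819.Th S.F S.ln S.p u γ' PB S.Q ps t a ∧
      ¬ Bg S.Q (Rt S.F S.ln S.p u γ' t) (Hh (S.Pf u) S.Q (Rt S.F S.ln S.p u γ') t)
        (late S.F S.p PB t) a then
      S.Q a * negMulLog (sl S.Q (Rt S.F S.ln S.p u γ' t)
        (Hh (S.Pf u) S.Q (Rt S.F S.ln S.p u γ') t) (late S.F S.p PB t) a) else 0) := by
  unfold short
  refine sum_congr rfl fun t _ => ?_
  have h := S.same
  have e1 : ∀ a, (if ¬ S.th u γ' PB ps t a ∧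
      ¬ Bg S.q (Rt S.F S.ln S.p u γ' t) (Hh (S.Pf u) S.q (Rt S.F S.ln S.p u γ') t)
        (late S.F S.p PB t) a then
      S.q a * negMulLog (sl S.q (Rt S.F S.ln S.p u γ' t)
        (Hh (S.Pf u) S.q (Rt S.F S.ln S.p u γ') t) (late S.F S.p PB t) a) else 0) =
      S.q a * (if ¬ H819.Th S.F S.ln S.p u γ' PB S.Q ps t a ∧
      ¬ Bg S.Q (Rt S.F S.ln S.p u γ' t) (Hh (S.Pf u) S.Q (Rt S.F S.ln S.p u γ') t)
        (late S.F S.p PB t) a then
      negMulLog (sl S.Q (Rt S.F S.ln S.p u γ' t)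
        (Hh (S.Pf u) S.Q (Rt S.F S.ln S.p u γ') t) (late S.F S.p PB t) a) else 0) := by
    intro a
    rw [mul_ite, mul_zero, sl_same h u s₀ γ' PB t a]
    have e2 : (¬ S.th u γ' PB ps t a ∧
      ¬ Bg S.q (Rt S.F S.ln S.p u γ' t) (Hh (S.Pf u) S.q (Rt S.F S.ln S.p u γ') t)
        (late S.F S.p PB t) a) ↔ (¬ H819.Th S.F S.ln S.p u γ' PB S.Q ps t a ∧
      ¬ Bg S.Q (Rt S.F S.ln S.p u γ' t) (Hh (S.Pf u) S.Q (Rt S.F S.ln S.p u γ') t)
        (late S.F S.p PB t) a) :=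
      and_congr (not_congr (H819.Th_same h t a)) (not_congr (Bg_same h u s₀ γ' PB t a))
    simp only [e2]
  have e3 : ∀ a, (if ¬ H819.Th S.F S.ln S.p u γ' PB S.Q ps t a ∧
      ¬ Bg S.Q (Rt S.F S.ln S.p u γ' t) (Hh (S.Pf u) S.Q (Rt S.F S.ln S.p u γ') t)
        (late S.F S.p PB t) a then
      S.Q a * negMulLog (sl S.Q (Rt S.F S.ln S.p u γ' t)
        (Hh (S.Pf u) S.Q (Rt S.F S.ln S.p u γ') t) (late S.F S.p PB t) a) else 0) =
      S.Q a * (if ¬ H819.Th S.F S.ln S.p u γ' PB S.Q ps t a ∧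
      ¬ Bg S.Q (Rt S.F S.ln S.p u γ' t) (Hh (S.Pf u) S.Q (Rt S.F S.ln S.p u γ') t)
        (late S.F S.p PB t) a then
      negMulLog (sl S.Q (Rt S.F S.ln S.p u γ' t)
        (Hh (S.Pf u) S.Q (Rt S.F S.ln S.p u γ') t) (late S.F S.p PB t) a) else 0) := by
    intro a
    rw [mul_ite, mul_zero]
  rw [sum_congr rfl fun a _ => e1 a, sum_congr rfl fun a _ => e3 a]
  refine H353.sum_same h fun a a' e => ?_
  have hR : Rt S.F S.ln S.p u γ' t a = Rt S.F S.ln S.p u γ' t a' := rb_Rt u γ' t a a' e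
  have f1 : H819.Th S.F S.ln S.p u γ' PB S.Q ps t a ↔ H819.Th S.F S.ln S.p u γ' PB S.Q ps t a' :=
    ⟨H819.Th_congr t a a' hR, H819.Th_congr t a' a hR.symm⟩
  have f2 : Bg S.Q (Rt S.F S.ln S.p u γ' t) (Hh (S.Pf u) S.Q (Rt S.F S.ln S.p u γ') t)
      (late S.F S.p PB t) a ↔ Bg S.Q (Rt S.F S.ln S.p u γ' t)
        (Hh (S.Pf u) S.Q (Rt S.F S.ln S.p u γ') t) (late S.F S.p PB t) a' := by
    unfold Bg
    rw [hR]
  have f3 := sl_congr (μ := S.Q) (X := Rt S.F S.ln S.p u γ' t)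
    (Hh (S.Pf u) S.Q (Rt S.F S.ln S.p u γ') t) (late S.F S.p PB t) hR
  simp only [f1, f2, f3]

end Vale.Agent.P065.H806.Sys
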