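import Vale.Agent.P065.H344.NGQ
import Vale.Agent.P065.H154.FrameBook

/-!
# P065: the `thin` input with long flags, on the frame (helper344)

`Hh` is the heavy half of the box (ties to the left), `lgF PB t` the flags which are late at level
`t` (`T' < t + PB`) and not isolated (`t < T'`).
-/

set_option autoImplicit false

open Finset Real

noncomputable section

namespace Vale.Agent.P065.H344

open Vale.Agent.P065.UB Vale.Agent.P065.Ent Vale.Agent.P065.H268 Vale.Agent.P065.H353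
  Vale.Agent.P065.H154

section half

variable {Ω : Type*} [Fintype Ω] {β : Type*} (P : Pcs Ω) (q : Ω → ℝ) (R : ℕ → Ω → β)

omit [Fintype Ω] in
lemma D_two (t : ℕ) (ω : Ω) :
    P.D (t + 1) ω = 2 * P.D t ω ∨ P.D (t + 1) ω = 2 * P.D t ω + 1 := by
  have := P.D_succ t ω
  omega

/-- the mass of the half `b` of the box -/
def hm (t : ℕ) (b : ℤ) (ω : Ω) : ℝ :=
  PE q (fun ω' => R t ω' = R t ω ∧ P.D (t + 1) ω' = 2 * P.D t ω + b)

open Classical in
/-- the own half is the heavy half of the box -/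
def Hh (t : ℕ) (ω : Ω) : Prop :=
  if hm P q R t 1 ω ≤ hm P q R t 0 ω then P.D (t + 1) ω = 2 * P.D t ω
  else P.D (t + 1) ω = 2 * P.D t ω + 1

variable {P q R}

lemma hm_congr (hRD : ∀ t, Det (R t) (P.D t)) {t : ℕ} (b : ℤ) {ω ω' : Ω} (h : R t ω = R t ω') :
    hm P q R t b ω = hm P q R t b ω' := by
  unfold hm
  rw [h, hRD t ω ω' h]

/-- the side of the heavy half -/
lemma Hh_iff (hRD : ∀ t, Det (R t) (P.D t)) {t : ℕ} {ω ω' : Ω} (h : R t ω' = R t ω) :
    Hh P q R t ω' ↔ P.D (t + 1) ω' = 2 * P.D t ω +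
      (if hm P q R t 1 ω ≤ hm P q R t 0 ω then 0 else 1) := by
  unfold Hh
  rw [hm_congr hRD 1 h, hm_congr hRD 0 h, hRD t ω' ω h]
  split_ifs
  · rw [add_zero]
  · rfl

lemma not_Hh_iff (hRD : ∀ t, Det (R t) (P.D t)) {t : ℕ} {ω ω' : Ω} (h : R t ω' = R t ω) :
    ¬ Hh P q R t ω' ↔ P.D (t + 1) ω' = 2 * P.D t ω +
      (if hm P q R t 1 ω ≤ hm P q R t 0 ω then 1 else 0) := by
  rw [Hh_iff hRD h]
  have h1 := D_two P t ω'
  rw [hRD t ω' ω h] at h1
  split_ifs <;> omega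

/-- the half determines the next cell -/
lemma Hh_two (hRD : ∀ t, Det (R t) (P.D t)) (t : ℕ) (ω ω' : Ω) (h : R t ω = R t ω')
    (h2 : Hh P q R t ω ↔ Hh P q R t ω') : P.D (t + 1) ω = P.D (t + 1) ω' := by
  by_cases hω : Hh P q R t ω
  · have h3 := (Hh_iff hRD (rfl : R t ω = R t ω)).1 hω
    have h4 := (Hh_iff hRD h.symm).1 (h2.1 hω)
    rw [h3, h4]
  · have h3 := (not_Hh_iff hRD (rfl : R t ω = R t ω)).1 hω
    have h4 := (not_Hh_iff hRD h.symm).1 fun h' => hω (h2.2 h')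
    rw [h3, h4]

lemma Pr_eq_hm (hRD : ∀ t, Det (R t) (P.D t)) (t : ℕ) (ω : Ω) :
    Pr q (R t) (R t ω) = hm P q R t 0 ω + hm P q R t 1 ω := by
  classical
  unfold hm
  rw [PE_eq, PE_eq, ← sum_add_distrib]
  unfold Pr
  refine sum_congr rfl fun ω' _ => ?_
  by_cases h : R t ω' = R t ω
  · have h1 := D_two P t ω'
    rw [hRD t ω' ω h] at h1
    rw [if_pos h]
    rcases h1 with h1 | h1
    · rw [if_pos ⟨h, by rw [h1, add_zero]⟩, if_neg fun h2 => by omega, add_zero]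
    · rw [if_neg fun h2 => by omega, if_pos ⟨h, h1⟩, zero_add]
  · rw [if_neg h, if_neg fun h2 => h h2.1, if_neg fun h2 => h h2.1, add_zero]

/-- the heavy half has at least one half of the mass -/
lemma Hh_half (hRD : ∀ t, Det (R t) (P.D t)) (t : ℕ) (ω : Ω) :
    Pr q (R t) (R t ω) ≤ 2 * PE q (fun ω' => R t ω' = R t ω ∧ Hh P q R t ω') := by
  have e : PE q (fun ω' => R t ω' = R t ω ∧ Hh P q R t ω') =
      hm P q R t (if hm P q R t 1 ω ≤ hm P q R t 0 ω then 0 else 1) ω := by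
    unfold hm
    refine PE_congr fun ω' => and_congr_right fun h => ?_
    exact Hh_iff hRD h
  rw [e, Pr_eq_hm hRD t ω]
  split_ifs with h
  · linarith
  · linarith [not_le.1 h]

/-- both halves have mass at least `ps` of the box, on the flags `al` -/
def Both (P : Pcs Ω) (q : Ω → ℝ) (R : ℕ → Ω → β) (al : ℕ → Ω → Prop) (ps : ℝ) (t : ℕ)
    (ω : Ω) : Prop :=
  ∀ b : ℤ, b = 0 ∨ b = 1 → ps * Pr q (R t) (R t ω) ≤
    PE q (fun ω' => R t ω' = R t ω ∧ P.D (t + 1) ω' = 2 * P.D t ω + b ∧ al t ω')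

/-- in a box which is not thick and whose heavy half is not long to one quarter, the short light
flags are few -/
theorem sl_lt (hq : IsProb q) (hRD : ∀ t, Det (R t) (P.D t)) {ps : ℝ} (hps : ps ≤ 1 / 4)
    (lg : ℕ → Ω → Prop) {t : ℕ} {ω : Ω} (h0 : 0 < q ω)
    (hth : ¬ Both P q R (fun t ω => ¬ lg t ω) ps t ω) (hBg : ¬ Bg q (R t) (Hh P q R t) (lg t) ω) :
    sl q (R t) (Hh P q R t) (lg t) ω < ps := by
  have hp : 0 < Pr q (R t) (R t ω) := Pr_pos hq (R t) h0
  unfold sl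
  rw [div_lt_iff₀ hp]
  by_contra hcon
  push Not at hcon
  refine hth ?_
  -- the heavy half
  have h1 := Hh_half (P := P) (q := q) hRD t ω
  have h2 : 4 * PE q (fun ω' => R t ω' = R t ω ∧ Hh P q R t ω' ∧ lg t ω') <
      Pr q (R t) (R t ω) := not_le.1 hBg
  have h3 : PE q (fun ω' => R t ω' = R t ω ∧ Hh P q R t ω') =
      PE q (fun ω' => R t ω' = R t ω ∧ Hh P q R t ω' ∧ lg t ω') +
      PE q (fun ω' => R t ω' = R t ω ∧ Hh P q R t ω' ∧ ¬ lg t ω') := by
    classical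
    rw [PE_def, PE_def, PE_def, ← sum_add_distrib]
    refine sum_congr rfl fun ω' _ => ?_
    by_cases a1 : R t ω' = R t ω ∧ Hh P q R t ω'
    · by_cases a2 : lg t ω'
      · rw [if_pos a1, if_pos ⟨a1.1, a1.2, a2⟩, if_neg fun h => h.2.2 a2, add_zero]
      · rw [if_pos a1, if_neg fun h => a2 h.2.2, if_pos ⟨a1.1, a1.2, a2⟩, zero_add]
    · rw [if_neg a1, if_neg fun h => a1 ⟨h.1, h.2.1⟩, if_neg fun h => a1 ⟨h.1, h.2.1⟩, add_zero]
  have h4 : ps * Pr q (R t) (R t ω) ≤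
      PE q (fun ω' => R t ω' = R t ω ∧ Hh P q R t ω' ∧ ¬ lg t ω') := by
    have : ps * Pr q (R t) (R t ω) ≤ 1 / 4 * Pr q (R t) (R t ω) :=
      mul_le_mul_of_nonneg_right hps hp.le
    linarith
  -- the two halves
  have e1 : PE q (fun ω' => R t ω' = R t ω ∧ Hh P q R t ω' ∧ ¬ lg t ω') =
      PE q (fun ω' => R t ω' = R t ω ∧ P.D (t + 1) ω' = 2 * P.D t ω +
        (if hm P q R t 1 ω ≤ hm P q R t 0 ω then 0 else 1) ∧ ¬ lg t ω') :=
    PE_congr fun ω' => and_congr_right fun h => and_congr_left fun _ => Hh_iff hRD h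
  have e2 : PE q (fun ω' => R t ω' = R t ω ∧ ¬ Hh P q R t ω' ∧ ¬ lg t ω') =
      PE q (fun ω' => R t ω' = R t ω ∧ P.D (t + 1) ω' = 2 * P.D t ω +
        (if hm P q R t 1 ω ≤ hm P q R t 0 ω then 1 else 0) ∧ ¬ lg t ω') :=
    PE_congr fun ω' => and_congr_right fun h => and_congr_left fun _ => not_Hh_iff hRD h
  rw [e1] at h4
  rw [e2] at hcon
  intro b hb
  by_cases h5 : hm P q R t 1 ω ≤ hm P q R t 0 ω
  · rw [if_pos h5] at h4 hcon
    rcases hb with rfl | rfl
    · exact h4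
    · exact hcon
  · rw [if_neg h5] at h4 hcon
    rcases hb with rfl | rfl
    · exact hcon
    · exact h4

end half

section frame

variable {Ω : Type*} {F : Fr Ω} {ln : Ω → Pt} {p : Prm}

/-- late and not isolated -/
def lgF (F : Fr Ω) (p : Prm) (PB t : ℕ) (a : p.Col × Ω) : Prop :=
  F.T' a.2 < t + PB ∧ t < F.T' a.2

open Classical in
lemma card_lgF (PB T : ℕ) (a : p.Col × Ω) : #{t ∈ range T | lgF F p PB t a} ≤ PB := by
  have h : (range T).filter (fun t => lgF F p PB t a) ⊆ Ico (F.T' a.2 - PB) (F.T' a.2) := by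
    intro t ht
    obtain ⟨-, h1, h2⟩ := mem_filter.1 ht
    rw [mem_Ico]
    omega
  refine (card_le_card h).trans ?_
  rw [Nat.card_Ico]
  omega

variable [Fintype Ω]

lemma card_image_le_image {α β γ : Type*} [DecidableEq β] [DecidableEq γ] (S : Finset α)
    (f : α → β) (g : α → γ) (h : ∀ a ∈ S, ∀ a' ∈ S, g a = g a' → f a = f a') :
    #(S.image f) ≤ #(S.image g) := by
  rcases S.eq_empty_or_nonempty with rfl | ⟨a₀, _⟩
  · simp
  have hne : Nonempty α := ⟨a₀⟩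
  have h1 : ∀ y ∈ S.image f, ∃ a ∈ S, f a = y := fun y hy => mem_image.1 hy
  choose! r hr1 hr2 using h1
  refine card_le_card_of_injOn (fun y => g (r y)) (fun y hy => ?_) ?_
  · exact mem_image_of_mem g (hr1 y hy)
  · intro y hy y' hy' h2
    have h3 := h _ (hr1 y hy) _ (hr1 y' hy') h2
    rw [hr2 y hy, hr2 y' hy'] at h3
    exact h3

/-- given the column and the line there are at most as many boxes as bottom pieces -/
lemma card_Rt (u : ℝ) (γ T : ℕ) (a : p.Col × Ω) :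
    ∃ s : Finset (p.Col × ℤ × ℤ × ℤ), #s ≤ #(univ.image (F.P.W F.n)) ∧
      ∀ a' : p.Col × Ω, (a'.1, ln a'.2) = (a.1, ln a.2) → Rt F ln p u γ T a' ∈ s := by
  classical
  refine ⟨(univ.filter fun ω => ln ω = ln a.2).image (fun ω => Rt F ln p u γ T (a.1, ω)), ?_, ?_⟩
  · refine (card_image_le_image _ _ (F.P.W F.n) ?_).trans
      (card_le_card (image_subset_image (filter_subset _ _)))
    intro ω hω ω' hω' h
    have hx := F.xW ω ω' h
    have hl : ln ω = ln ω' := by rw [(mem_filter.1 hω).2, (mem_filter.1 hω').2]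
    unfold Rt Nf
    simp only
    rw [hl, F.D_of_x hx, F.T'x ω ω' hx, hx]
  · rintro ⟨c, ω⟩ h
    obtain ⟨h1, h2⟩ := Prod.mk.inj h
    simp only at h1 h2
    rw [mem_image]
    exact ⟨ω, mem_filter.2 ⟨mem_univ _, h2⟩, by rw [h1]⟩

lemma card_D (u : ℝ) (T : ℕ) : #(univ.image (F.D u T)) ≤ #(univ.image (F.P.W F.n)) := by
  classical
  exact card_image_le_image _ _ (F.P.W F.n) fun ω _ ω' _ h => F.D_of_x (F.xW ω ω' h)

variable [Nonempty Ω] {ν : Ω → ℝ} {q : p.Col × Ω → ℝ}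

omit [Nonempty Ω] in
open Classical in
/-- **the long flags**: transfer of NG to a law `q` of bounded density, on the frame -/
theorem ngqF (u : ℝ) (s₀ γ PB : ℕ) (hν : IsProb ν) (hq : IsProb q) {d : ℝ} (hd0 : 0 < d)
    (hd : ∀ v, Pr q Prod.snd v ≤ d * ν v) {κ ε δ d₀ : ℝ} (hκ0 : 0 < κ) (hκ1 : κ ≤ 1)
    (hε0 : 0 < ε) (hε1 : ε ≤ 1 / 2)
    (hNG : PE q (fun a => ∃ t < F.P.T + s₀, Pr ν (fun v => (F.D u (t + 1) v, ln v))
      (F.D u (t + 1) a.2, ln a.2) ≤
        κ * Pr ν (fun v => (F.D u t v, ln v)) (F.D u t a.2, ln a.2)) ≤ d₀)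
    (hδ : 0 < δ) (hδ1 : δ ≤ 1)
    (hE : d₀ + 2 * ε * (log (#(univ.image (F.P.W F.n))) + log d) ≤ δ) :
    ∑ a, q a * ∑ t ∈ range (F.P.T + s₀) with lgF F p PB t a,
      -log (kt (Pf F p u s₀) q (fun a => (a.1, ln a.2)) (Rt F ln p u γ) t a) ≤
      PB * (log (1 / κ) + log (1 / ε)) +
        δ * (log (#(univ.image (F.P.W F.n))) + log (1 / δ) + 1) := by
  have hne : Nonempty (p.Col × Ω) := by
    by_contra hcon
    rw [not_nonempty_iff] at hcon
    have h := hq.sum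
    rw [univ_eq_empty, sum_empty] at h
    norm_num at h
  obtain ⟨a₀⟩ := hne
  have hK : 0 < #(univ.image (F.P.W F.n)) :=
    card_pos.2 ⟨_, mem_image_of_mem _ (mem_univ a₀.2)⟩
  exact ngq_nu (F.Q u s₀) hν ln hq (Y := fun a : p.Col × Ω => (a.1, ln a.2))
    (pr := (Prod.snd : p.Col × Ω → Ω)) (det_snd _ _) (Rt_det u γ)
    (fun t => Rt_D u γ t) (F.P.T + s₀) hd0 hd hK (card_D u _) (lgF F p PB)
    (fun a _ => by exact_mod_cast card_lgF PB _ a) hκ0 hκ1 hε0 hε1 hNG hK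
    (fun a => by
      obtain ⟨s, hs, hs'⟩ := card_Rt (F := F) (ln := ln) u γ (F.P.T + s₀) a
      exact ⟨s, hs, fun a' _ h => hs' a' h⟩) hδ hδ1 hE

/-! ### one and two centres in a box -/

/-- late flags -/
def late (F : Fr Ω) (p : Prm) (PB t : ℕ) (a : p.Col × Ω) : Prop := F.T' a.2 < t + PB

omit [Fintype Ω] [Nonempty Ω] in
lemma lgF_iff {u : ℝ} {γ PB t : ℕ} {a₀ a₁ a a' : p.Col × Ω}
    (h₀ : Rt F ln p u γ t a₀ = Rt F ln p u γ t a) (h₁ : Rt F ln p u γ t a₁ = Rt F ln p u γ t a)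
    (hne : F.P.x a₀.2 ≠ F.P.x a₁.2) (h : Rt F ln p u γ t a' = Rt F ln p u γ t a) :
    lgF F p PB t a' ↔ late F p PB t a' := by
  have hD : ∀ {b : p.Col × Ω}, Rt F ln p u γ t b = Rt F ln p u γ t a → F.D u t b.2 = F.D u t a.2 :=
    fun {b} hb => Rt_D u γ t b a hb
  have h3 : t < F.T' a'.2 := by
    by_cases h4 : F.P.x a'.2 = F.P.x a₀.2
    · exact F.lt_of_ne ((hD h).trans (hD h₁).symm) (fun h5 => hne (h4.symm.trans h5))
    · exact F.lt_of_ne ((hD h).trans (hD h₀).symm) h4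
  unfold lgF late
  exact and_iff_left h3

omit [Nonempty Ω] in
/-- either the box has two centres, or the light half is empty -/
lemma two_or (hq : IsProb q) (u : ℝ) (s₀ γ t : ℕ) {a : p.Col × Ω} (ha : 0 < q a) :
    (∃ a₀ a₁ : p.Col × Ω, Rt F ln p u γ t a₀ = Rt F ln p u γ t a ∧
      Rt F ln p u γ t a₁ = Rt F ln p u γ t a ∧ F.P.x a₀.2 ≠ F.P.x a₁.2) ∨
    (∀ a', Rt F ln p u γ t a' = Rt F ln p u γ t a →
      Hh (Pf F p u s₀) q (Rt F ln p u γ) t a') := by
  by_cases h : ∃ a₀ : p.Col × Ω, Rt F ln p u γ t a₀ = Rt F ln p u γ t a ∧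
      F.P.x a₀.2 ≠ F.P.x a.2
  · obtain ⟨a₀, h1, h2⟩ := h
    exact Or.inl ⟨a₀, a, h1, rfl, h2⟩
  · right
    push Not at h
    intro a' ha'
    have hx := h a' ha'
    have hRD : ∀ t, Det (Rt F ln p u γ t) ((Pf F p u s₀).D t) := fun t => Rt_D u γ t
    rw [Hh_iff hRD ha']
    have e1 : (Pf F p u s₀).D (t + 1) a' = (Pf F p u s₀).D (t + 1) a := F.D_of_x hx
    rw [e1]
    -- all flags of the box are in the half of `a`
    have key : ∀ b : ℤ, (Pf F p u s₀).D (t + 1) a ≠ 2 * (Pf F p u s₀).D t a + b →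
        hm (Pf F p u s₀) q (Rt F ln p u γ) t b a = 0 := by
      intro b hb
      unfold hm
      classical
      rw [PE_def]
      refine sum_eq_zero fun a'' _ => if_neg ?_
      rintro ⟨h3, h4⟩
      have h5 : (Pf F p u s₀).D (t + 1) a'' = (Pf F p u s₀).D (t + 1) a := F.D_of_x (h a'' h3)
      exact hb (h5.symm.trans h4)
    have hsum := Pr_eq_hm (P := Pf F p u s₀) (q := q) hRD t a
    have hpos : 0 < Pr q (Rt F ln p u γ t) (Rt F ln p u γ t a) := Pr_pos hq _ ha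
    rcases D_two (Pf F p u s₀) t a with h6 | h6
    · have h7 := key 1 (by omega)
      rw [h7, add_zero] at hsum
      have h8 : hm (Pf F p u s₀) q (Rt F ln p u γ) t 1 a ≤
          hm (Pf F p u s₀) q (Rt F ln p u γ) t 0 a := by
        rw [h7, ← hsum]
        exact hpos.le
      rw [if_pos h8, h6, add_zero]
    · have h7 := key 0 (by omega)
      rw [h7, zero_add] at hsum
      have h8 : ¬ hm (Pf F p u s₀) q (Rt F ln p u γ) t 1 a ≤
          hm (Pf F p u s₀) q (Rt F ln p u γ) t 0 a := by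
        rw [h7, ← hsum]
        exact not_le.2 hpos
      rw [if_neg h8, h6]

omit [Nonempty Ω] in
/-- the share of the short light flags, with `late` instead of `lgF` -/
lemma sl_late (hq : IsProb q) (u : ℝ) (s₀ γ PB t : ℕ) {a : p.Col × Ω} (ha : 0 < q a) :
    sl q (Rt F ln p u γ t) (Hh (Pf F p u s₀) q (Rt F ln p u γ) t) (lgF F p PB t) a =
      sl q (Rt F ln p u γ t) (Hh (Pf F p u s₀) q (Rt F ln p u γ) t) (late F p PB t) a := by
  unfold sl
  congr 1
  rcases two_or (F := F) (ln := ln) hq u s₀ γ t ha with ⟨a₀, a₁, h0, h1, hne⟩ | h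
  · exact PE_congr fun a' => and_congr_right fun h' => and_congr_right fun _ =>
      not_congr (lgF_iff h0 h1 hne h')
  · exact PE_congr fun a' => and_congr_right fun h' =>
      iff_of_false (fun h2 => h2.1 (h a' h')) (fun h2 => h2.1 (h a' h'))

omit [Nonempty Ω] in
/-- thick boxes, with `late` instead of `lgF` -/
lemma both_late (hq : IsProb q) (u : ℝ) (s₀ γ PB t : ℕ) {ps : ℝ} (hps : 0 < ps) {a : p.Col × Ω}
    (ha : 0 < q a)
    (h : Both (Pf F p u s₀) q (Rt F ln p u γ) (fun t a => ¬ lgF F p PB t a) ps t a) :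
    Both (Pf F p u s₀) q (Rt F ln p u γ) (fun t a => t + PB ≤ F.T' a.2) ps t a := by
  have hpos : 0 < ps * Pr q (Rt F ln p u γ t) (Rt F ln p u γ t a) :=
    mul_pos hps (Pr_pos hq _ ha)
  -- flags in both halves
  have key : ∀ b : ℤ, b = 0 ∨ b = 1 → ∃ a', Rt F ln p u γ t a' = Rt F ln p u γ t a ∧
      (Pf F p u s₀).D (t + 1) a' = 2 * (Pf F p u s₀).D t a + b := by
    intro b hb
    by_contra hcon
    push Not at hcon
    have h1 := hpos.trans_le (h b hb)
    classical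
    rw [PE_def, sum_eq_zero fun a' _ => if_neg fun h2 => hcon a' h2.1 h2.2.1] at h1
    exact lt_irrefl 0 h1
  obtain ⟨a₀, h0, h0'⟩ := key 0 (Or.inl rfl)
  obtain ⟨a₁, h1, h1'⟩ := key 1 (Or.inr rfl)
  have hne : F.P.x a₀.2 ≠ F.P.x a₁.2 := by
    intro h2
    have h3 : (Pf F p u s₀).D (t + 1) a₀ = (Pf F p u s₀).D (t + 1) a₁ := F.D_of_x h2
    rw [h0', h1'] at h3
    omega
  intro b hb
  refine (h b hb).trans (PE_mono hq fun a' h2 => ⟨h2.1, h2.2.1, ?_⟩)
  have h3 : ¬ lgF F p PB t a' := h2.2.2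
  rw [lgF_iff h0 h1 hne h2.1] at h3
  exact not_lt.1 h3

omit [Nonempty Ω] in
open Classical in
/-- **the `thin` input on the frame**, kernel of the line -/
theorem thinF (u : ℝ) (s₀ γ PB : ℕ) (hν : IsProb ν) (hq : IsProb q) {d : ℝ} (hd0 : 0 < d)
    (hd : ∀ v, Pr q Prod.snd v ≤ d * ν v) {κ ε δ d₀ : ℝ} (hκ0 : 0 < κ) (hκ1 : κ ≤ 1)
    (hε0 : 0 < ε) (hε1 : ε ≤ 1 / 2)
    (hNG : PE q (fun a => ∃ t < F.P.T + s₀, Pr ν (fun v => (F.D u (t + 1) v, ln v))
      (F.D u (t + 1) a.2, ln a.2) ≤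
        κ * Pr ν (fun v => (F.D u t v, ln v)) (F.D u t a.2, ln a.2)) ≤ d₀)
    (hδ : 0 < δ) (hδ1 : δ ≤ 1)
    (hE : d₀ + 2 * ε * (log (#(univ.image (F.P.W F.n))) + log d) ≤ δ)
    -- thick boxes
    {ps : ℝ} (hps0 : 0 < ps) (hps : ps ≤ 1 / 4) (th : ℕ → p.Col × Ω → Prop)
    (hth : ∀ t a a', Rt F ln p u γ t a = Rt F ln p u γ t a' → th t a → th t a')
    (hTh : ∀ t a, 0 < q a →
      Both (Pf F p u s₀) q (Rt F ln p u γ) (fun t a => t + PB ≤ F.T' a.2) ps t a → th t a) :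
    ∑ a, q a * ∑ t ∈ range (F.P.T + s₀) with ¬ th t a,
      -log (kt (Pf F p u s₀) q (fun a => (a.1, ln a.2)) (Rt F ln p u γ) t a) ≤
      2 * ∑ t ∈ range (F.P.T + s₀), ∑ a, (if ¬ th t a ∧
        ¬ Bg q (Rt F ln p u γ t) (Hh (Pf F p u s₀) q (Rt F ln p u γ) t) (late F p PB t) a then
        q a * negMulLog (sl q (Rt F ln p u γ t) (Hh (Pf F p u s₀) q (Rt F ln p u γ) t)
          (late F p PB t) a) else 0) +
      (PB * (log (1 / κ) + log (1 / ε)) +
        δ * (log (#(univ.image (F.P.W F.n))) + log (1 / δ) + 1)) +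
      (4 * log 2 + 1) * PB := by
  have hRD : ∀ t, Det (Rt F ln p u γ t) ((Pf F p u s₀).D t) := fun t => Rt_D u γ t
  have hexp : (1 / 4 : ℝ) ≤ exp (-1) := by
    have h1 := Real.exp_one_lt_d9
    rw [exp_neg, one_div]
    exact inv_anti₀ (exp_pos 1) (by linarith)
  have hsm : ∀ t < F.P.T + s₀, ∀ a, 0 < q a → ¬ th t a →
      ¬ Bg q (Rt F ln p u γ t) (Hh (Pf F p u s₀) q (Rt F ln p u γ) t) (lgF F p PB t) a →
      sl q (Rt F ln p u γ t) (Hh (Pf F p u s₀) q (Rt F ln p u γ) t) (lgF F p PB t) a ≤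
        exp (-1) := by
    intro t _ a ha h1 h2
    have h3 := sl_lt (P := Pf F p u s₀) hq hRD hps (lgF F p PB) ha
      (fun h4 => h1 (hTh t a ha (both_late hq u s₀ γ PB t hps0 ha h4))) h2
    linarith
  refine (thin_line' (Y := fun a : p.Col × Ω => (a.1, ln a.2)) (Pf F p u s₀) hq (F.P.T + s₀)
    (Hh (Pf F p u s₀) q (Rt F ln p u γ)) (lgF F p PB) th (Hh_two hRD) hth hsm).trans ?_
  refine add_le_add (add_le_add ?_ ?_) ?_
  · refine mul_le_mul_of_nonneg_left ?_ (by norm_num)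
    refine sum_le_sum fun t _ => sum_le_sum fun a _ => ?_
    rcases (hq.nonneg a).eq_or_lt with h0 | h0
    · rw [← h0]
      simp
    have e := sl_late (F := F) (ln := ln) hq u s₀ γ PB t h0
    have hnn : 0 ≤ q a * negMulLog (sl q (Rt F ln p u γ t)
        (Hh (Pf F p u s₀) q (Rt F ln p u γ) t) (late F p PB t) a) := by
      refine mul_nonneg h0.le (negMulLog_nonneg (sl_nonneg hq _ _ _) ?_)
      unfold sl
      exact div_le_one_of_le₀ ((PE_mono hq fun _ h => h.1).trans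
        (le_of_eq (by
          rw [PE_eq]
          unfold Pr
          exact sum_congr rfl fun a' _ => by split_ifs <;> rfl))) (Pr_nonneg hq _ _)
    rw [e]
    by_cases h1 : ¬ th t a ∧
        ¬ Bg q (Rt F ln p u γ t) (Hh (Pf F p u s₀) q (Rt F ln p u γ) t) (lgF F p PB t) a
    · rw [if_pos h1]
      by_cases h2 : Bg q (Rt F ln p u γ t) (Hh (Pf F p u s₀) q (Rt F ln p u γ) t)
          (late F p PB t) a
      · -- one centre: the light half is empty
        rw [if_neg fun h3 => h3.2 h2]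
        rcases two_or (F := F) (ln := ln) hq u s₀ γ t h0 with ⟨a₀, a₁, h3, h4, hne⟩ | h
        · exfalso
          apply h1.2
          unfold Bg at h2 ⊢
          refine h2.trans (le_of_eq ?_)
          congr 1
          exact PE_congr fun a' => and_congr_right fun h' => and_congr_right fun _ =>
            (lgF_iff h3 h4 hne h').symm
        · have h5 : sl q (Rt F ln p u γ t) (Hh (Pf F p u s₀) q (Rt F ln p u γ) t)
              (late F p PB t) a = 0 := by
            unfold sl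
            have h6 : PE q (fun a' => Rt F ln p u γ t a' = Rt F ln p u γ t a ∧
                ¬ Hh (Pf F p u s₀) q (Rt F ln p u γ) t a' ∧ ¬ late F p PB t a') = 0 := by
              rw [PE_def]
              exact sum_eq_zero fun a' _ => if_neg fun h7 => h7.2.1 (h a' h7.1)
            rw [h6, zero_div]
          rw [h5, negMulLog_zero, mul_zero]
      · rw [if_pos ⟨h1.1, h2⟩]
    · rw [if_neg h1]
      split_ifs
      · exact hnn
      · exact le_rfl
  · refine le_trans (sum_le_sum fun a _ => ?_) (ngqF (F := F) (ln := ln) u s₀ γ PB hν hq hd0 hd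
      hκ0 hκ1 hε0 hε1 hNG hδ hδ1 hE)
    rcases (hq.nonneg a).eq_or_lt with h0 | h0
    · rw [← h0, zero_mul, zero_mul]
    refine mul_le_mul_of_nonneg_left ?_ h0.le
    refine sum_le_sum_of_subset_of_nonneg ?_ fun t _ _ => ?_
    · intro t ht
      obtain ⟨h1, h2, h3⟩ := mem_filter.1 ht
      exact mem_filter.2 ⟨h1, h3⟩
    · have h1 := log_nonpos (kt_pos (P := Pf F p u s₀) (Y := fun a : p.Col × Ω => (a.1, ln a.2))
        (R := Rt F ln p u γ) hq t h0).le (kt_le_one _ hq t a)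
      linarith
  · refine mul_le_mul_of_nonneg_left ?_ ?_
    · refine (sum_le_sum fun a _ => mul_le_mul_of_nonneg_left
        (show (#{t ∈ range (F.P.T + s₀) | lgF F p PB t a} : ℝ) ≤ PB by
          exact_mod_cast card_lgF PB _ a) (hq.nonneg a)).trans ?_
      rw [← sum_mul, hq.sum, one_mul]
    · have := log_pos (show (1 : ℝ) < 2 by norm_num)
      linarith

end frame

end Vale.Agent.P065.H344
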