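import Vale.Agent.P065.H353.Mixed
import Vale.Agent.P065.H587.Fill

/-!
# P065: the `thin` input of the bookkeeping theorem, with long flags (helper344)

`X` is the box, `Z` the next dyadic cell (two values in every box), `Y` the line, `kk` the kernel
of the line. `hv` = the own side is the heavy side of the box, `lg` = long flag (any predicate).
By concavity the surprise of the kernel of the line is at most the surprise of the short light part
of the box, plus the long light flags, plus a constant times the probability of `lg`.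
-/

set_option autoImplicit false

open Finset Real

noncomputable section

namespace Vale.Agent.P065.H344

open Vale.Agent.P065.Ent Vale.Agent.P065.H268 Vale.Agent.P065.H353

section one

variable {Ω : Type*} [Fintype Ω] {α ζ η : Type*} {μ : Ω → ℝ} {X : Ω → α} {Z : Ω → ζ} {Y : Ω → η}

variable (μ X Z Y) in
/-- the kernel of the line: the probability of the next cell `Z`, given the box `X`, the line `Y` -/
def kk (ω : Ω) : ℝ :=
  Pr μ (fun ω => ((Z ω, X ω), Y ω)) ((Z ω, X ω), Y ω) / Pr μ (fun ω => (X ω, Y ω)) (X ω, Y ω)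

lemma kk_pos (hμ : IsProb μ) {ω : Ω} (h : 0 < μ ω) : 0 < kk μ X Z Y ω :=
  div_pos (Pr_pos hμ _ h) (Pr_pos hμ _ h)

lemma kk_le_one (hμ : IsProb μ) (ω : Ω) : kk μ X Z Y ω ≤ 1 :=
  div_le_one_of_le₀ (Pr_mono hμ (((det_fst _ _).trans (det_snd _ _)).pair (det_snd _ _)) ω)
    (Pr_nonneg hμ _ _)

/-- the inverse kernel, summed over one side of every box -/
lemma inv_le (hμ : IsProb μ) (A : Ω → Prop) [DecidablePred A]
    (hA : ∀ ω ω', A ω → A ω' → X ω = X ω' → Z ω = Z ω') (g : Ω → ℝ) (hg0 : ∀ ω, 0 ≤ g ω)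
    (hg : ∀ ω ω', X ω = X ω' → g ω = g ω') :
    ∑ ω, (if A ω then μ ω * (g ω / kk μ X Z Y ω) else 0) ≤ ∑ ω, μ ω * g ω := by
  classical
  set V : Ω → (ζ × α) × η := fun ω => ((Z ω, X ω), Y ω) with hV
  set W : Ω → α × η := fun ω => (X ω, Y ω) with hW
  have h1 : ∀ ω, (if A ω then μ ω * (g ω / kk μ X Z Y ω) else 0) =
      ∑ ω', if A ω ∧ W ω' = W ω then μ ω' * (g ω' * (μ ω / Pr μ V (V ω))) else 0 := by
    intro ω
    by_cases h : A ω
    · rw [if_pos h]
      have e1 : μ ω * (g ω / kk μ X Z Y ω) = Pr μ W (W ω) * (g ω * (μ ω / Pr μ V (V ω))) := by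
        show μ ω * (g ω / (Pr μ V (V ω) / Pr μ W (W ω))) = _
        rw [div_div_eq_mul_div]
        ring
      rw [e1]
      unfold Pr
      rw [sum_mul]
      refine sum_congr rfl fun ω' _ => ?_
      by_cases h2 : W ω' = W ω
      · rw [if_pos h2, if_pos ⟨h, h2⟩, hg ω' ω (Prod.mk.inj h2).1]
      · rw [if_neg h2, if_neg fun h' => h2 h'.2, zero_mul]
    · rw [if_neg h]
      exact (sum_eq_zero fun ω' _ => if_neg fun h' => h h'.1).symm
  rw [sum_congr rfl fun ω _ => h1 ω, sum_comm]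
  refine sum_le_sum fun ω' _ => ?_
  have hm := mul_nonneg (hμ.nonneg ω') (hg0 ω')
  by_cases hex : ∃ ω₁, A ω₁ ∧ W ω' = W ω₁
  · obtain ⟨ω₁, hA1, hW1⟩ := hex
    have h2 : ∑ ω, (if A ω ∧ W ω' = W ω then μ ω' * (g ω' * (μ ω / Pr μ V (V ω))) else 0) ≤
        ∑ ω, μ ω' * g ω' * ((if V ω = V ω₁ then μ ω else 0) / Pr μ V (V ω₁)) := by
      refine sum_le_sum fun ω _ => ?_
      by_cases h : A ω ∧ W ω' = W ω
      · have hXY := Prod.mk.inj (h.2.symm.trans hW1)
        have hVe : V ω = V ω₁ := by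
          have hZ := hA ω ω₁ h.1 hA1 hXY.1
          show ((Z ω, X ω), Y ω) = ((Z ω₁, X ω₁), Y ω₁)
          rw [hZ, hXY.1, hXY.2]
        rw [if_pos h, if_pos hVe, hVe]
        exact le_of_eq (by ring)
      · rw [if_neg h]
        refine mul_nonneg hm (div_nonneg ?_ (Pr_nonneg hμ _ _))
        split_ifs
        · exact hμ.nonneg ω
        · exact le_rfl
    refine h2.trans ?_
    rw [← mul_sum, ← sum_div]
    refine mul_le_of_le_one_right hm ?_
    have h3 : (∑ ω, if V ω = V ω₁ then μ ω else 0) = Pr μ V (V ω₁) := by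
      unfold Pr
      refine sum_congr rfl fun ω _ => ?_
      by_cases h : V ω = V ω₁
      · rw [if_pos h, if_pos h]
      · rw [if_neg h, if_neg h]
    rw [h3]
    exact div_self_le_one (Pr μ V (V ω₁))
  · push Not at hex
    rw [sum_eq_zero fun ω _ => if_neg fun h' => hex ω h'.1 h'.2]
    exact hm

/-- grouping: the share of `A` in the box -/
lemma sum_share (hμ : IsProb μ) (A : Ω → Prop) [DecidablePred A] (g : Ω → ℝ)
    (hg : ∀ ω ω', X ω = X ω' → g ω = g ω') :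
    ∑ ω, (if A ω then μ ω * g ω else 0) =
      ∑ ω, μ ω * (PE μ (fun ω' => X ω' = X ω ∧ A ω') / Pr μ X (X ω) * g ω) := by
  classical
  have h1 : ∀ ω, μ ω * (PE μ (fun ω' => X ω' = X ω ∧ A ω') / Pr μ X (X ω) * g ω) =
      ∑ ω', if A ω' ∧ X ω' = X ω then μ ω' * (g ω' * (μ ω / Pr μ X (X ω'))) else 0 := by
    intro ω
    have e1 : μ ω * (PE μ (fun ω' => X ω' = X ω ∧ A ω') / Pr μ X (X ω) * g ω) =
        ∑ ω', (if X ω' = X ω ∧ A ω' then μ ω' else 0) * (g ω * (μ ω / Pr μ X (X ω))) := by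
      rw [PE_eq, ← sum_mul]; ring
    rw [e1]
    refine sum_congr rfl fun ω' _ => ?_
    by_cases h : X ω' = X ω ∧ A ω'
    · rw [if_pos h, if_pos h.symm, h.1, hg ω' ω h.1]
    · rw [if_neg h, if_neg fun h' => h h'.symm, zero_mul]
  rw [sum_congr rfl fun ω _ => h1 ω, sum_comm]
  refine sum_congr rfl fun ω' _ => ?_
  by_cases hA : A ω'
  · rw [if_pos hA]
    have h2 : ∀ ω, (if A ω' ∧ X ω' = X ω then μ ω' * (g ω' * (μ ω / Pr μ X (X ω'))) else 0) =
        μ ω' * g ω' * ((if X ω = X ω' then μ ω else 0) / Pr μ X (X ω')) := by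
      intro ω
      by_cases h : X ω = X ω'
      · rw [if_pos ⟨hA, h.symm⟩, if_pos h]; ring
      · rw [if_neg fun h' => h h'.2.symm, if_neg h]; ring
    rw [sum_congr rfl fun ω _ => h2 ω, ← mul_sum, ← sum_div]
    rcases (hμ.nonneg ω').eq_or_lt with h0 | h0
    · rw [← h0]; ring
    · have h3 : (∑ ω, if X ω = X ω' then μ ω else 0) = Pr μ X (X ω') := rfl
      rw [h3, div_self (Pr_pos hμ X h0).ne', mul_one]
  · rw [if_neg hA]
    exact (sum_eq_zero fun ω _ => if_neg fun h' => hA h'.1).symm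

/-- the share of the short light flags of the box -/
def sl (μ : Ω → ℝ) (X : Ω → α) (hv lg : Ω → Prop) (ω : Ω) : ℝ :=
  PE μ (fun ω' => X ω' = X ω ∧ ¬ hv ω' ∧ ¬ lg ω') / Pr μ X (X ω)

lemma sl_nonneg (hμ : IsProb μ) (hv lg : Ω → Prop) (ω : Ω) : 0 ≤ sl μ X hv lg ω :=
  div_nonneg (PE_nonneg hμ _) (Pr_nonneg hμ _ _)

lemma sl_congr (hv lg : Ω → Prop) {ω ω' : Ω} (h : X ω = X ω') :
    sl μ X hv lg ω = sl μ X hv lg ω' := by
  unfold sl
  rw [h]

lemma le_PE (hμ : IsProb μ) {A : Ω → Prop} {ω : Ω} (hA : A ω) : μ ω ≤ PE μ A := by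
  have h := le_Pr hμ A ω
  rwa [eq_true hA] at h

lemma sl_pos (hμ : IsProb μ) {hv lg : Ω → Prop} {ω : Ω} (h0 : 0 < μ ω) (h1 : ¬ hv ω)
    (h2 : ¬ lg ω) : 0 < sl μ X hv lg ω :=
  div_pos (h0.trans_le (le_PE (A := fun ω' => X ω' = X ω ∧ ¬ hv ω' ∧ ¬ lg ω') hμ ⟨rfl, h1, h2⟩))
    (Pr_pos hμ X h0)

/-- boxes whose heavy side is long to at least one quarter -/
def Bg (μ : Ω → ℝ) (X : Ω → α) (hv lg : Ω → Prop) (ω : Ω) : Prop :=
  Pr μ X (X ω) ≤ 4 * PE μ (fun ω' => X ω' = X ω ∧ hv ω' ∧ lg ω')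

open Classical in
lemma Bg_le (hμ : IsProb μ) (hv lg : Ω → Prop) :
    PE μ (Bg μ X hv lg) ≤ 4 * PE μ (fun ω => hv ω ∧ lg ω) := by
  have h1 := sum_share (X := X) hμ (fun ω => hv ω ∧ lg ω) (fun _ => 1) (fun _ _ _ => rfl)
  simp only [mul_one] at h1
  rw [PE_eq μ (fun ω => hv ω ∧ lg ω), h1, PE_def, mul_sum]
  refine sum_le_sum fun ω _ => ?_
  rcases (hμ.nonneg ω).eq_or_lt with h0 | h0
  · rw [← h0]
    simp
  have h2 : 0 ≤ PE μ (fun ω' => X ω' = X ω ∧ hv ω' ∧ lg ω') / Pr μ X (X ω) :=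
    div_nonneg (PE_nonneg hμ _) (Pr_nonneg hμ _ _)
  split_ifs with h
  · have h3 := Pr_pos hμ X h0
    have h4 : 1 ≤ 4 * (PE μ (fun ω' => X ω' = X ω ∧ hv ω' ∧ lg ω') / Pr μ X (X ω)) := by
      rw [← mul_div_assoc, le_div_iff₀ h3, one_mul]
      exact h
    nlinarith
  · have := mul_nonneg h0.le h2
    linarith

lemma neg_log_le {k v : ℝ} (hk : 0 < k) (hv : 0 < v) : -log k ≤ -log v + v / k - 1 := by
  have h := log_le_sub_one_of_pos (div_pos hv hk)
  rw [log_div hv.ne' hk.ne'] at h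
  linarith

open Classical in
/-- **one level**: the surprise of the kernel of the line -/
theorem thin_one (hμ : IsProb μ) (hv lg th : Ω → Prop)
    (h2 : ∀ ω ω', X ω = X ω' → (hv ω ↔ hv ω') → Z ω = Z ω')
    (hth : ∀ ω ω', X ω = X ω' → th ω → th ω') :
    ∑ ω, (if ¬ th ω then μ ω * -log (kk μ X Z Y ω) else 0) ≤
      ∑ ω, (if ¬ th ω ∧ ¬ Bg μ X hv lg ω then
        μ ω * (negMulLog (sl μ X hv lg ω) + sl μ X hv lg ω) else 0) +
      ∑ ω, (if ¬ hv ω ∧ lg ω then μ ω * -log (kk μ X Z Y ω) else 0) +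
      (4 * log 2 + 1) * PE μ lg := by
  have hlog2 : 0 < log 2 := log_pos (by norm_num)
  set k : Ω → ℝ := kk μ X Z Y with hk
  set s : Ω → ℝ := sl μ X hv lg with hs
  have hthc : ∀ ω ω', X ω = X ω' → (th ω ↔ th ω') := fun ω ω' h =>
    ⟨hth ω ω' h, hth ω' ω h.symm⟩
  have hBgc : ∀ ω ω', X ω = X ω' → (Bg μ X hv lg ω ↔ Bg μ X hv lg ω') := fun ω ω' h => by
    unfold Bg
    rw [h]
  set iB : Ω → ℝ := fun ω => if ¬ th ω ∧ Bg μ X hv lg ω then 1 else 0 with hiB
  set iN : Ω → ℝ := fun ω => if ¬ th ω ∧ ¬ Bg μ X hv lg ω then 1 else 0 with hiN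
  have hiB0 : ∀ ω, 0 ≤ iB ω := fun ω => by
    show 0 ≤ if ¬ th ω ∧ Bg μ X hv lg ω then (1 : ℝ) else 0
    split_ifs <;> norm_num
  have hiN0 : ∀ ω, 0 ≤ iN ω := fun ω => by
    show 0 ≤ if ¬ th ω ∧ ¬ Bg μ X hv lg ω then (1 : ℝ) else 0
    split_ifs <;> norm_num
  have hiBc : ∀ ω ω', X ω = X ω' → iB ω = iB ω' := fun ω ω' h => by
    show (if ¬ th ω ∧ Bg μ X hv lg ω then (1 : ℝ) else 0) =
      if ¬ th ω' ∧ Bg μ X hv lg ω' then 1 else 0
    simp only [hthc ω ω' h, hBgc ω ω' h]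
  have hiNc : ∀ ω ω', X ω = X ω' → iN ω = iN ω' := fun ω ω' h => by
    show (if ¬ th ω ∧ ¬ Bg μ X hv lg ω then (1 : ℝ) else 0) =
      if ¬ th ω' ∧ ¬ Bg μ X hv lg ω' then 1 else 0
    simp only [hthc ω ω' h, hBgc ω ω' h]
  have hs0 : ∀ ω, 0 ≤ s ω := sl_nonneg hμ hv lg
  have hsc : ∀ ω ω', X ω = X ω' → s ω = s ω' := fun ω ω' h => sl_congr hv lg h
  have hA1 : ∀ ω ω', hv ω → hv ω' → X ω = X ω' → Z ω = Z ω' := fun ω ω' a b h =>
    h2 ω ω' h (iff_of_true a b)
  have hA2 : ∀ ω ω', ¬ hv ω → ¬ hv ω' → X ω = X ω' → Z ω = Z ω' := fun ω ω' a b h =>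
    h2 ω ω' h (iff_of_false a b)
  -- pointwise
  have hpt : ∀ ω, (if ¬ th ω then μ ω * -log (k ω) else 0) ≤
      μ ω * iB ω * (log 2 - 1) + (if hv ω then μ ω * (iB ω / 2 / k ω) else 0) +
      (if ¬ hv ω then μ ω * (iB ω / 2 / k ω) else 0) +
      (if hv ω then μ ω * (iN ω / k ω) else 0) - (if hv ω then μ ω * iN ω else 0) +
      (if ¬ hv ω then μ ω * (iN ω * s ω / k ω) else 0) +
      (if ¬ hv ω ∧ ¬ lg ω then μ ω * (iN ω * -log (s ω)) else 0) -
      (if ¬ hv ω ∧ ¬ lg ω then μ ω * iN ω else 0) +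
      (if ¬ hv ω ∧ lg ω then μ ω * -log (k ω) else 0) := by
    intro ω
    rcases (hμ.nonneg ω).eq_or_lt with h0 | h0
    · rw [← h0]
      simp
    have hk0 : 0 < k ω := kk_pos hμ h0
    have hk1 : k ω ≤ 1 := kk_le_one hμ ω
    have hl : 0 ≤ -log (k ω) := by
      have := log_nonpos hk0.le hk1
      linarith
    have eB : iB ω = if ¬ th ω ∧ Bg μ X hv lg ω then 1 else 0 := rfl
    have eN : iN ω = if ¬ th ω ∧ ¬ Bg μ X hv lg ω then 1 else 0 := rfl
    by_cases ht : th ω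
    · have e1 : iB ω = 0 := by rw [eB, if_neg fun h => h.1 ht]
      have e2 : iN ω = 0 := by rw [eN, if_neg fun h => h.1 ht]
      rw [if_neg (not_not.2 ht), e1, e2]
      have e3 := mul_nonneg h0.le hl
      simp only [zero_div, mul_zero, zero_mul, ite_self, add_zero, sub_zero, zero_add]
      split_ifs
      · exact e3
      · exact le_rfl
    by_cases hb : Bg μ X hv lg ω
    · have e1 : iB ω = 1 := by rw [eB, if_pos ⟨ht, hb⟩]
      have e2 : iN ω = 0 := by rw [eN, if_neg fun h => h.2 hb]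
      rw [if_pos ht, e1, e2]
      have h3 := neg_log_le hk0 (v := 1 / 2) (by norm_num)
      have h4 : -log (1 / 2 : ℝ) = log 2 := by rw [one_div, log_inv, neg_neg]
      rw [h4] at h3
      have h5 := mul_le_mul_of_nonneg_left h3 h0.le
      have e3 := mul_nonneg h0.le hl
      simp only [zero_div, mul_zero, zero_mul, ite_self, add_zero, sub_zero, mul_one]
      by_cases h6 : hv ω
      · rw [if_pos h6, if_neg (not_not.2 h6), if_neg fun h => h.1 h6]
        nlinarith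
      · rw [if_neg h6, if_pos h6]
        split_ifs <;> nlinarith
    · have e1 : iB ω = 0 := by rw [eB, if_neg fun h => hb h.2]
      have e2 : iN ω = 1 := by rw [eN, if_pos ⟨ht, hb⟩]
      rw [if_pos ht, e1, e2]
      by_cases h6 : hv ω
      · have h3 := neg_log_le hk0 (v := 1) one_pos
        rw [log_one] at h3
        have h5 := mul_le_mul_of_nonneg_left h3 h0.le
        rw [if_pos h6, if_neg (not_not.2 h6), if_pos h6, if_pos h6, if_neg (not_not.2 h6),
          if_neg fun h => h.1 h6, if_neg fun h => h.1 h6, if_neg fun h => h.1 h6]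
        simp only [zero_div, mul_zero, zero_mul, add_zero, sub_zero, zero_add, mul_one]
        nlinarith
      · by_cases h7 : lg ω
        · have e3 : 0 ≤ μ ω * (s ω / k ω) := mul_nonneg h0.le (div_nonneg (hs0 ω) hk0.le)
          rw [if_neg h6, if_pos h6, if_neg h6, if_neg h6, if_pos h6,
            if_neg fun h => h.2 h7, if_neg fun h => h.2 h7, if_pos ⟨h6, h7⟩]
          simp only [zero_div, mul_zero, zero_mul, add_zero, sub_zero, zero_add, one_mul]
          linarith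
        · have hsp : 0 < s ω := sl_pos hμ h0 h6 h7
          have h3 := neg_log_le hk0 hsp
          have h5 := mul_le_mul_of_nonneg_left h3 h0.le
          rw [if_neg h6, if_pos h6, if_neg h6, if_neg h6, if_pos h6,
            if_pos ⟨h6, h7⟩, if_pos ⟨h6, h7⟩, if_neg fun h => h7 h.2]
          simp only [zero_div, mul_zero, zero_mul, add_zero, sub_zero, zero_add, one_mul, mul_one]
          nlinarith
  have hsum := sum_le_sum (s := univ) fun ω _ => hpt ω
  simp only [sum_add_distrib, sum_sub_distrib] at hsum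
  -- the inverse kernels
  have i1 := inv_le (X := X) (Z := Z) (Y := Y) hμ hv hA1 (fun ω => iB ω / 2)
    (fun ω => by have := hiB0 ω; positivity) (fun ω ω' h => by rw [hiBc ω ω' h])
  have i2 := inv_le (X := X) (Z := Z) (Y := Y) hμ (fun ω => ¬ hv ω) hA2 (fun ω => iB ω / 2)
    (fun ω => by have := hiB0 ω; positivity) (fun ω ω' h => by rw [hiBc ω ω' h])
  have i3 := inv_le (X := X) (Z := Z) (Y := Y) hμ hv hA1 iN hiN0 hiNc
  have i4 := inv_le (X := X) (Z := Z) (Y := Y) hμ (fun ω => ¬ hv ω) hA2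
    (fun ω => iN ω * s ω) (fun ω => mul_nonneg (hiN0 ω) (hs0 ω))
    (fun ω ω' h => by rw [hiNc ω ω' h, hsc ω ω' h])
  -- the shares
  have s1 := sum_share (X := X) hμ (fun ω => ¬ hv ω ∧ ¬ lg ω) (fun ω => iN ω * -log (s ω))
    (fun ω ω' h => by rw [hiNc ω ω' h, hsc ω ω' h])
  have s2 := sum_share (X := X) hμ (fun ω => ¬ hv ω ∧ ¬ lg ω) iN hiNc
  have s1' : ∑ ω, (if ¬ hv ω ∧ ¬ lg ω then μ ω * (iN ω * -log (s ω)) else 0) =
      ∑ ω, μ ω * (s ω * (iN ω * -log (s ω))) := s1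
  have s2' : ∑ ω, (if ¬ hv ω ∧ ¬ lg ω then μ ω * iN ω else 0) =
      ∑ ω, μ ω * (s ω * iN ω) := s2
  -- the main term
  have g1 : ∑ ω, (if ¬ th ω ∧ ¬ Bg μ X hv lg ω then μ ω * (negMulLog (s ω) + s ω) else 0) =
      ∑ ω, μ ω * (s ω * (iN ω * -log (s ω))) + ∑ ω, μ ω * (s ω * iN ω) := by
    rw [← sum_add_distrib]
    refine sum_congr rfl fun ω _ => ?_
    have eN : iN ω = if ¬ th ω ∧ ¬ Bg μ X hv lg ω then 1 else 0 := rfl
    rw [eN]
    unfold negMulLog
    split_ifs <;> ring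
  -- the boxes with long heavy side
  have g2 : ∑ ω, μ ω * iB ω ≤ 4 * PE μ lg := by
    have e1 : ∑ ω, μ ω * iB ω ≤ PE μ (Bg μ X hv lg) := by
      rw [PE_def]
      refine sum_le_sum fun ω _ => ?_
      have eB : iB ω = if ¬ th ω ∧ Bg μ X hv lg ω then 1 else 0 := rfl
      rw [eB]
      by_cases h : Bg μ X hv lg ω
      · rw [if_pos h]
        split_ifs
        · linarith
        · have := hμ.nonneg ω
          linarith
      · rw [if_neg h, if_neg fun h' => h h'.2, mul_zero]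
    have e2 := Bg_le (X := X) hμ hv lg
    have e3 : PE μ (fun ω => hv ω ∧ lg ω) ≤ PE μ lg := PE_mono hμ fun ω h => h.2
    linarith
  have g3 : ∑ ω, μ ω * iN ω - ∑ ω, (if hv ω then μ ω * iN ω else 0) ≤
      ∑ ω, (if ¬ hv ω ∧ ¬ lg ω then μ ω * iN ω else 0) + PE μ lg := by
    rw [PE_def, ← sum_sub_distrib, ← sum_add_distrib]
    refine sum_le_sum fun ω _ => ?_
    have e0 := hμ.nonneg ω
    have e1 := mul_nonneg e0 (hiN0 ω)
    have e2 : μ ω * iN ω ≤ μ ω := by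
      refine mul_le_of_le_one_right e0 ?_
      show (if ¬ th ω ∧ ¬ Bg μ X hv lg ω then (1 : ℝ) else 0) ≤ 1
      split_ifs <;> norm_num
    by_cases h6 : hv ω
    · rw [if_pos h6, if_neg fun h => h.1 h6]
      split_ifs <;> linarith
    · by_cases h7 : lg ω
      · rw [if_neg h6, if_neg fun h => h.2 h7, if_pos h7]
        linarith
      · rw [if_neg h6, if_pos ⟨h6, h7⟩, if_neg h7]
        linarith
  have g4 : ∑ ω, μ ω * (iB ω / 2) = (∑ ω, μ ω * iB ω) / 2 := by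
    rw [sum_div]
    exact sum_congr rfl fun ω _ => by ring
  have g5 : ∑ ω, μ ω * iB ω * (log 2 - 1) = (∑ ω, μ ω * iB ω) * (log 2 - 1) := by
    rw [sum_mul]
  have g6 : ∑ ω, μ ω * (iN ω * s ω) = ∑ ω, μ ω * (s ω * iN ω) :=
    sum_congr rfl fun ω _ => by ring
  have g7 : (∑ ω, μ ω * iB ω) * log 2 ≤ 4 * PE μ lg * log 2 :=
    mul_le_mul_of_nonneg_right g2 hlog2.le
  rw [g4] at i1 i2
  rw [g6] at i4
  rw [g5, s1', s2'] at hsum
  rw [s2'] at g3
  rw [g1]
  have e : (∑ ω, μ ω * iB ω) * (log 2 - 1) = (∑ ω, μ ω * iB ω) * log 2 - ∑ ω, μ ω * iB ω := by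
    ring
  rw [e] at hsum
  have e' : (4 * log 2 + 1) * PE μ lg = 4 * PE μ lg * log 2 + PE μ lg := by ring
  rw [e']
  linarith

end one

section sum

variable {Ω : Type*} [Fintype Ω] {β η : Type*} {q : Ω → ℝ} {R : ℕ → Ω → β} {Y : Ω → η}

open Classical in
/-- **the `thin` input of the bookkeeping theorem**, kernel of the line, with long flags -/
theorem thin_line (P : Pcs Ω) (hq : IsProb q) (T : ℕ) (hv lg th : ℕ → Ω → Prop)
    (h2 : ∀ t ω ω', R t ω = R t ω' → (hv t ω ↔ hv t ω') → P.D (t + 1) ω = P.D (t + 1) ω')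
    (hth : ∀ t ω ω', R t ω = R t ω' → th t ω → th t ω') :
    ∑ ω, q ω * ∑ t ∈ range T with ¬ th t ω, -log (kt P q Y R t ω) ≤
      ∑ t ∈ range T, ∑ ω, (if ¬ th t ω ∧ ¬ Bg q (R t) (hv t) (lg t) ω then
        q ω * (negMulLog (sl q (R t) (hv t) (lg t) ω) + sl q (R t) (hv t) (lg t) ω) else 0) +
      ∑ ω, q ω * ∑ t ∈ range T with ¬ hv t ω ∧ lg t ω, -log (kt P q Y R t ω) +
      (4 * log 2 + 1) * ∑ ω, q ω * #{t ∈ range T | lg t ω} := by
  have e1 : ∑ ω, q ω * ∑ t ∈ range T with ¬ th t ω, -log (kt P q Y R t ω) =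
      ∑ t ∈ range T, ∑ ω, (if ¬ th t ω then q ω * -log (kk q (R t) (P.D (t + 1)) Y ω) else 0) := by
    rw [sum_comm]
    refine sum_congr rfl fun ω _ => ?_
    rw [sum_filter, mul_sum]
    refine sum_congr rfl fun t _ => ?_
    rw [mul_ite, mul_zero]
    rfl
  have e2 : ∑ ω, q ω * ∑ t ∈ range T with ¬ hv t ω ∧ lg t ω, -log (kt P q Y R t ω) =
      ∑ t ∈ range T, ∑ ω, (if ¬ hv t ω ∧ lg t ω then
        q ω * -log (kk q (R t) (P.D (t + 1)) Y ω) else 0) := by
    rw [sum_comm]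
    refine sum_congr rfl fun ω _ => ?_
    rw [sum_filter, mul_sum]
    refine sum_congr rfl fun t _ => ?_
    rw [mul_ite, mul_zero]
    rfl
  have e3 : ∑ ω, q ω * (#{t ∈ range T | lg t ω} : ℝ) = ∑ t ∈ range T, PE q (lg t) := by
    have f1 : ∀ t ∈ range T, PE q (lg t) = ∑ ω, if lg t ω then q ω else 0 := fun t _ => PE_def _ _
    rw [sum_congr rfl f1, sum_comm]
    refine sum_congr rfl fun ω _ => ?_
    rw [← sum_filter, sum_const, nsmul_eq_mul, mul_comm]
  rw [e1, e2, e3, mul_sum, ← sum_add_distrib, ← sum_add_distrib]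
  exact sum_le_sum fun t _ => thin_one hq (hv t) (lg t) (th t) (h2 t) (hth t)

lemma le_negMulLog {x : ℝ} (h0 : 0 ≤ x) (h1 : x ≤ exp (-1)) : x ≤ negMulLog x := by
  rcases h0.eq_or_lt with h | h
  · rw [← h]
    simp
  · unfold negMulLog
    have h2 : log x ≤ -1 := by
      rw [log_le_iff_le_exp h]
      exact h1
    nlinarith

open Classical in
/-- the same, when the short light share of the boxes considered is small -/
theorem thin_line' (P : Pcs Ω) (hq : IsProb q) (T : ℕ) (hv lg th : ℕ → Ω → Prop)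
    (h2 : ∀ t ω ω', R t ω = R t ω' → (hv t ω ↔ hv t ω') → P.D (t + 1) ω = P.D (t + 1) ω')
    (hth : ∀ t ω ω', R t ω = R t ω' → th t ω → th t ω')
    (hsm : ∀ t < T, ∀ ω, 0 < q ω → ¬ th t ω → ¬ Bg q (R t) (hv t) (lg t) ω →
      sl q (R t) (hv t) (lg t) ω ≤ exp (-1)) :
    ∑ ω, q ω * ∑ t ∈ range T with ¬ th t ω, -log (kt P q Y R t ω) ≤
      2 * ∑ t ∈ range T, ∑ ω, (if ¬ th t ω ∧ ¬ Bg q (R t) (hv t) (lg t) ω then
        q ω * negMulLog (sl q (R t) (hv t) (lg t) ω) else 0) +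
      ∑ ω, q ω * ∑ t ∈ range T with ¬ hv t ω ∧ lg t ω, -log (kt P q Y R t ω) +
      (4 * log 2 + 1) * ∑ ω, q ω * #{t ∈ range T | lg t ω} := by
  refine (thin_line P hq T hv lg th h2 hth).trans ?_
  refine add_le_add (add_le_add ?_ le_rfl) le_rfl
  rw [mul_sum]
  refine sum_le_sum fun t ht => ?_
  rw [mul_sum]
  refine sum_le_sum fun ω _ => ?_
  split_ifs with h
  · rcases (hq.nonneg ω).eq_or_lt with h0 | h0
    · rw [← h0]
      simp
    · have h3 := le_negMulLog (sl_nonneg (X := R t) hq (hv t) (lg t) ω)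
        (hsm t (mem_range.1 ht) ω h0 h.1 h.2)
      nlinarith
  · simp

end sum

end Vale.Agent.P065.H344
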