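import Vale.Agent.P065.H344.ThinFr
import Vale.Agent.P065.H806.SysFacts
import Vale.Agent.P065.H649.CoarseFr2

/-!
# P065, assembly, case (II): the long part of `HThin` (helper344)

For the final system `S : Sys ..` the input `thin` is at most twice its short part plus `δ g`.
-/

set_option autoImplicit false

open Finset Real

noncomputable section

namespace Vale.Agent.P065.H806

open Vale.Agent.P065.UB Vale.Agent.P065.Ent Vale.Agent.P065.H268 Vale.Agent.P065.H154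
  Vale.Agent.P065.H700 Vale.Agent.P065.H344

namespace Sys

variable {B₀ K₁ PP Γ s₀ Λ kN : ℕ} {c₂ ρ ε₂ e : ℝ} {n g : ℕ}
  (S : Sys B₀ K₁ PP Γ s₀ Λ kN c₂ ρ ε₂ e n g)

open Classical in
/-- the short part of `thin`: light alive flags of the boxes which are not thick and whose heavy
half is not late to one quarter -/
def short (u : ℝ) (γ' PB : ℕ) (ps : ℝ) : ℝ :=
  ∑ t ∈ range (S.F.P.T + s₀), ∑ a, (if ¬ S.th u γ' PB ps t a ∧
    ¬ Bg S.q (Rt S.F S.ln S.p u γ' t) (Hh (S.Pf u) S.q (Rt S.F S.ln S.p u γ') t)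
      (late S.F S.p PB t) a then
    S.q a * negMulLog (sl S.q (Rt S.F S.ln S.p u γ' t)
      (Hh (S.Pf u) S.q (Rt S.F S.ln S.p u γ') t) (late S.F S.p PB t) a) else 0)

theorem q_le_mu (hg : 1 ≤ g) (a : S.p.Col × S.Ω) : S.q a ≤ S.μ a.2 / (S.p.nT * S.J1) := by
  have h1 : S.q a ≤ S.μ a.2 / S.C.J S.μ := Cols.Qs_le S.hμ _ a
  have h2 := S.J1_pos hg
  have h3 : (0 : ℝ) < S.p.nT := by exact_mod_cast S.p.nT_pos
  have h4 : S.p.nT * S.J1 ≤ S.C.J S.μ := S.J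
  exact h1.trans (div_le_div_of_nonneg_left (S.hμ.nonneg _) (by positivity) h4)

/-- the flag marginal of `q` has polynomial density with respect to `μ` -/
theorem dens_mu (hg : 1 ≤ g) (ω : S.Ω) : ∑ c, S.q (c, ω) ≤ Λ * (g : ℝ) ^ Λ * S.μ ω := by
  classical
  have hg1 : (1 : ℝ) ≤ g := by exact_mod_cast hg
  have hg0 : (0 : ℝ) < g := by linarith
  have hΛ : (0 : ℝ) < Λ := by exact_mod_cast S.Λ_pos
  have hJ := S.J1_pos hg
  have hnT : (0 : ℝ) < S.p.nT := by exact_mod_cast S.p.nT_pos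
  have hq := S.probq hg
  have hμ0 := S.hμ.nonneg ω
  have h1 : ∑ c, S.q (c, ω) = ∑ c ∈ univ.filter (fun c => 0 < S.q (c, ω)), S.q (c, ω) := by
    rw [sum_filter]
    refine sum_congr rfl fun c _ => ?_
    split_ifs with h
    · rfl
    · exact le_antisymm (not_lt.1 h) (hq.nonneg _)
  have h2 : (univ.filter (fun c => 0 < S.q (c, ω))).card ≤ S.p.nT * g ^ Λ := by
    refine le_trans (card_le_card ?_) (S.act_q ω)
    intro c hc
    rw [mem_filter] at hc ⊢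
    exact ⟨hc.1, ω, rfl, hc.2⟩
  have h3 : ((univ.filter (fun c => 0 < S.q (c, ω))).card : ℝ) ≤ S.p.nT * (g : ℝ) ^ Λ := by
    exact_mod_cast h2
  have h4 : (1 + log (g : ℝ)) / g ≤ 1 := by
    rw [div_le_one hg0]
    have := log_le_sub_one_of_pos hg0
    linarith
  have h5 : (g : ℝ) ^ Λ / S.J1 ≤ Λ * (g : ℝ) ^ Λ := by
    have e : (g : ℝ) ^ Λ / S.J1 = Λ * (g : ℝ) ^ Λ * ((1 + log (g : ℝ)) / g) := by
      unfold J1
      have h6 : 0 ≤ log (g : ℝ) := log_nonneg hg1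
      have h7 : (1 + log (g : ℝ)) ≠ 0 := by positivity
      field_simp
    rw [e]
    exact mul_le_of_le_one_right (by positivity) h4
  rw [h1]
  calc ∑ c ∈ univ.filter (fun c => 0 < S.q (c, ω)), S.q (c, ω)
      ≤ ∑ _c ∈ univ.filter (fun c => 0 < S.q (c, ω)), S.μ ω / (S.p.nT * S.J1) :=
        sum_le_sum fun c _ => S.q_le_mu hg (c, ω)
    _ = (univ.filter (fun c => 0 < S.q (c, ω))).card * (S.μ ω / (S.p.nT * S.J1)) := by
        rw [sum_const, nsmul_eq_mul]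
    _ ≤ (S.p.nT * (g : ℝ) ^ Λ) * (S.μ ω / (S.p.nT * S.J1)) :=
        mul_le_mul_of_nonneg_right h3 (div_nonneg hμ0 (by positivity))
    _ = (g : ℝ) ^ Λ / S.J1 * S.μ ω := by
        field_simp
    _ ≤ Λ * (g : ℝ) ^ Λ * S.μ ω := mul_le_mul_of_nonneg_right h5 hμ0

/-- the flag marginal of `q` has polynomial density with respect to `ν` -/
theorem dens_nu (hg : 1 ≤ g) (ω : S.Ω) :
    Pr S.q Prod.snd ω ≤ (Λ : ℝ) ^ 2 * (g : ℝ) ^ Λ * S.ν ω := by
  rw [H649.Pr_snd]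
  refine (S.dens_mu hg ω).trans ?_
  have h1 := S.μ_le ω
  have h2 : (0 : ℝ) ≤ Λ * (g : ℝ) ^ Λ := by positivity
  calc Λ * (g : ℝ) ^ Λ * S.μ ω ≤ Λ * (g : ℝ) ^ Λ * (Λ * S.ν ω) :=
        mul_le_mul_of_nonneg_left h1 h2
    _ = (Λ : ℝ) ^ 2 * (g : ℝ) ^ Λ * S.ν ω := by ring

/-- giant exits of time are rare under `q` -/
theorem ng_q (hg : 1 ≤ g) (u : ℝ) (T : ℕ) : PE S.q (fun a => ∃ t < T,
    Pr S.ν (fun ω => (S.F.D u (t + 1) ω, S.ln ω)) (S.F.D u (t + 1) a.2, S.ln a.2) ≤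
      (1 / (g : ℝ)) ^ (3 * kN + 9) *
        Pr S.ν (fun ω => (S.F.D u t ω, S.ln ω)) (S.F.D u t a.2, S.ln a.2)) ≤
    Λ * (g : ℝ) ^ Λ * (1 / (g : ℝ)) ^ kN := by
  have h1 := Pr_comp_le (q := S.q) (pr := (Prod.snd : S.p.Col × S.Ω → S.Ω)) (ν := S.μ)
    (d := Λ * (g : ℝ) ^ Λ) (fun ω => by rw [H649.Pr_snd]; exact S.dens_mu hg ω)
    (fun ω => ∃ t < T,
      Pr S.ν (fun ω => (S.F.D u (t + 1) ω, S.ln ω)) (S.F.D u (t + 1) ω, S.ln ω) ≤
      (1 / (g : ℝ)) ^ (3 * kN + 9) *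
        Pr S.ν (fun ω => (S.F.D u t ω, S.ln ω)) (S.F.D u t ω, S.ln ω)) True
  refine h1.trans ?_
  exact mul_le_mul_of_nonneg_left (S.ng u T) (by positivity)

theorem log_leaves (hB : 1 ≤ B₀) : log (#(univ.image (S.F.P.W S.F.n)) : ℝ) ≤ 2 * g * B₀ := by
  classical
  have h0 : 0 < #(univ.image (S.F.P.W S.F.n)) :=
    card_pos.2 ⟨_, mem_image_of_mem _ (mem_univ (Classical.arbitrary S.Ω))⟩
  have h1 : (#(univ.image (S.F.P.W S.F.n)) : ℝ) ≤ (B₀ : ℝ) ^ (2 * g) := by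
    exact_mod_cast S.leaves
  have h2 := log_le_log (by exact_mod_cast h0) h1
  rw [log_pow] at h2
  have h3 : (0 : ℝ) < B₀ := by exact_mod_cast hB
  have h4 := log_le_sub_one_of_pos h3
  have h5 : (0 : ℝ) ≤ ((2 * g : ℕ) : ℝ) := Nat.cast_nonneg _
  have h6 : ((2 * g : ℕ) : ℝ) * log (B₀ : ℝ) ≤ ((2 * g : ℕ) : ℝ) * B₀ :=
    mul_le_mul_of_nonneg_left (by linarith) h5
  refine (h2.trans h6).trans (le_of_eq ?_)
  push_cast
  ring

end Sys

open Sys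

/-- numbers: `a log g + b ≤ δ g` for large `g` -/
lemma exists_log_le (a b : ℝ) {δ : ℝ} (hδ : 0 < δ) : ∃ g₁ : ℕ, ∀ g : ℕ, g₁ ≤ g →
    a * log (g : ℝ) + b ≤ δ * g := by
  have h1 : ∀ᶠ x : ℝ in Filter.atTop, a * log x + b ≤ δ * x := by
    have h2 := (isLittleO_log_id_atTop.const_mul_left a).def (show (0 : ℝ) < δ / 2 by positivity)
    filter_upwards [h2, Filter.eventually_ge_atTop (max 0 (2 * b / δ))] with x h3 h4
    have h5 : 0 ≤ x := (le_max_left _ _).trans h4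
    have h6 : 2 * b / δ ≤ x := (le_max_right _ _).trans h4
    rw [norm_eq_abs, id, norm_eq_abs, abs_of_nonneg h5] at h3
    have h7 := (le_abs_self _).trans h3
    rw [div_le_iff₀ hδ] at h6
    linarith
  have h2 := tendsto_natCast_atTop_atTop.eventually h1
  exact Filter.eventually_atTop.1 h2

/-- **the long part of `HThin`** -/
theorem thin_short (B₀ γ' PB Λ : ℕ) (hB : 1 ≤ B₀) {δ : ℝ} (hδ : 0 < δ) {kN : ℕ}
    (hkN : Λ + 2 ≤ kN) : ∃ g₁ : ℕ, ∀ (K₁ PP Γ s₀ : ℕ) (c₂ ρ ε₂ e : ℝ) (n g : ℕ), g₁ ≤ g →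
    ∀ S : Sys B₀ K₁ PP Γ s₀ Λ kN c₂ ρ ε₂ e n g, ∀ (u ps : ℝ), 0 < ps → ps ≤ 1 / 4 →
      S.thin u γ' PB ps ≤ 2 * S.short u γ' PB ps + δ * g := by
  classical
  obtain ⟨g₁, hg₁⟩ := exists_log_le (PB * (3 * kN + 13)) (2 * B₀ + 1 + 4 * PB) hδ
  refine ⟨max g₁ (8 * B₀ + 12 * Λ + 2), ?_⟩
  intro K₁ PP Γ s₀ c₂ ρ ε₂ e n g hg S u ps hps0 hps
  have hgg := hg₁ g ((le_max_left _ _).trans hg)
  have hg2 : 8 * B₀ + 12 * Λ + 2 ≤ g := (le_max_right _ _).trans hg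
  have hg1 : 1 ≤ g := by omega
  have hgr2 : (8 : ℝ) * B₀ + 12 * Λ + 2 ≤ g := by exact_mod_cast hg2
  have hΛ : (1 : ℝ) ≤ Λ := by exact_mod_cast S.Λ_pos
  have hB1 : (1 : ℝ) ≤ B₀ := by exact_mod_cast hB
  have hgr : (2 : ℝ) ≤ g := by linarith
  have hg0 : (0 : ℝ) < g := by linarith
  have hlg := log_le_sub_one_of_pos hg0
  have hlg0 : 0 ≤ log (g : ℝ) := log_nonneg (by linarith)
  have hi0 : (0 : ℝ) < 1 / g := by positivity
  have hi1 : (1 : ℝ) / g ≤ 1 := by rw [div_le_one hg0]; linarith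
  have hi2 : (1 : ℝ) / g ≤ 1 / 2 := by
    exact one_div_le_one_div_of_le (by norm_num) hgr
  have hlv := S.log_leaves hB
  set d : ℝ := (Λ : ℝ) ^ 2 * (g : ℝ) ^ Λ with hd
  have hd0 : 0 < d := by positivity
  have hlogd : log d ≤ 3 * Λ * g := by
    rw [hd, log_mul (by positivity) (by positivity), log_pow, log_pow]
    have h1 := log_le_sub_one_of_pos (show (0 : ℝ) < Λ by linarith)
    push_cast
    nlinarith
  -- the error
  have hE : Λ * (g : ℝ) ^ Λ * (1 / (g : ℝ)) ^ kN + 2 * (1 / (g : ℝ)) ^ 4 *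
      (log (#(univ.image (S.F.P.W S.F.n)) : ℝ) + log d) ≤ 1 / g := by
    have h1 : (g : ℝ) ^ Λ * (1 / (g : ℝ)) ^ kN ≤ (1 / (g : ℝ)) ^ 2 := by
      obtain ⟨j, rfl⟩ : ∃ j, kN = Λ + (2 + j) := ⟨kN - Λ - 2, by omega⟩
      have e1 : (g : ℝ) ^ Λ * (1 / (g : ℝ)) ^ (Λ + (2 + j)) = (1 / (g : ℝ)) ^ (2 + j) := by
        rw [pow_add (1 / (g : ℝ)) Λ, ← mul_assoc, ← mul_pow, mul_one_div_cancel hg0.ne', one_pow,
          one_mul]
      rw [e1, pow_add]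
      exact mul_le_of_le_one_right (by positivity) (pow_le_one₀ hi0.le hi1)
    have h2 : Λ * (g : ℝ) ^ Λ * (1 / (g : ℝ)) ^ kN ≤ Λ * (1 / (g : ℝ)) ^ 2 := by
      rw [mul_assoc]
      exact mul_le_mul_of_nonneg_left h1 (by linarith)
    have h3 : Λ * (1 / (g : ℝ)) ^ 2 ≤ 1 / 2 * (1 / g) := by
      have e1 : Λ * (1 / (g : ℝ)) ^ 2 = Λ * (1 / (g : ℝ)) * (1 / g) := by ring
      rw [e1]
      refine mul_le_mul_of_nonneg_right ?_ hi0.le
      rw [mul_one_div, div_le_iff₀ hg0]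
      linarith
    have h4 : 2 * (1 / (g : ℝ)) ^ 4 * (log (#(univ.image (S.F.P.W S.F.n)) : ℝ) + log d) ≤
        1 / 2 * (1 / g) := by
      have h5 : log (#(univ.image (S.F.P.W S.F.n)) : ℝ) + log d ≤ (2 * B₀ + 3 * Λ) * g := by
        linarith
      have h6 : 2 * (1 / (g : ℝ)) ^ 4 * (log (#(univ.image (S.F.P.W S.F.n)) : ℝ) + log d) ≤
          2 * (1 / (g : ℝ)) ^ 4 * ((2 * B₀ + 3 * Λ) * g) :=
        mul_le_mul_of_nonneg_left h5 (by positivity)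
      have e1 : 2 * (1 / (g : ℝ)) ^ 4 * ((2 * B₀ + 3 * Λ) * g) =
          (4 * B₀ + 6 * Λ) * (1 / g) * (1 / g) * (1 / g) := by
        field_simp
        ring
      have h7 : (4 * (B₀ : ℝ) + 6 * Λ) * (1 / g) ≤ 1 / 2 := by
        rw [mul_one_div, div_le_iff₀ hg0]
        linarith
      have h8 : (4 * (B₀ : ℝ) + 6 * Λ) * (1 / g) * (1 / g) ≤ 1 / 2 * 1 :=
        mul_le_mul h7 hi1 hi0.le (by norm_num)
      have h9 := mul_le_mul_of_nonneg_right h8 hi0.le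
      rw [e1] at h6
      linarith
    linarith
  have key := thinF (F := S.F) (ln := S.ln) (p := S.p) (ν := S.ν) (q := S.q) u s₀ γ' PB S.hν
    (S.probq hg1) hd0 (S.dens_nu hg1) (κ := (1 / (g : ℝ)) ^ (3 * kN + 9))
    (ε := (1 / (g : ℝ)) ^ 4) (δ := 1 / g) (d₀ := Λ * (g : ℝ) ^ Λ * (1 / (g : ℝ)) ^ kN)
    (by positivity) (pow_le_one₀ hi0.le hi1) (by positivity)
    ((pow_le_of_le_one hi0.le hi1 (by norm_num)).trans hi2) (S.ng_q hg1 u _) hi0 hi1 hE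
    hps0 hps (S.th u γ' PB ps) ?_ ?_
  · have e1 : S.thin u γ' PB ps = ∑ a, S.q a * ∑ t ∈ range (S.F.P.T + s₀) with
        ¬ S.th u γ' PB ps t a, -log (H353.kt (H154.Pf S.F S.p u s₀) S.q
          (fun a => (a.1, S.ln a.2)) (Rt S.F S.ln S.p u γ') t a) := rfl
    have e2 : S.short u γ' PB ps = ∑ t ∈ range (S.F.P.T + s₀), ∑ a,
        (if ¬ S.th u γ' PB ps t a ∧ ¬ Bg S.q (Rt S.F S.ln S.p u γ' t)
          (Hh (H154.Pf S.F S.p u s₀) S.q (Rt S.F S.ln S.p u γ') t) (late S.F S.p PB t) a then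
        S.q a * negMulLog (sl S.q (Rt S.F S.ln S.p u γ' t)
          (Hh (H154.Pf S.F S.p u s₀) S.q (Rt S.F S.ln S.p u γ') t) (late S.F S.p PB t) a)
            else 0) := rfl
    rw [← e1, ← e2] at key
    refine key.trans ?_
    have h1 : log (1 / (1 / (g : ℝ)) ^ (3 * kN + 9)) = (3 * kN + 9) * log g := by
      rw [one_div, ← inv_pow, one_div, inv_inv, log_pow]
      push_cast
      ring
    have h2 : log (1 / (1 / (g : ℝ)) ^ 4) = 4 * log g := by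
      rw [one_div, ← inv_pow, one_div, inv_inv, log_pow]
      push_cast
      ring
    have h3 : log (1 / (1 / (g : ℝ))) = log g := by rw [one_div, one_div, inv_inv]
    rw [h1, h2, h3]
    have h4 : 1 / (g : ℝ) * (log (#(univ.image (S.F.P.W S.F.n)) : ℝ) + log g + 1) ≤
        2 * B₀ + 1 := by
      have h5 : log (#(univ.image (S.F.P.W S.F.n)) : ℝ) + log g + 1 ≤ (2 * B₀ + 1) * g := by
        linarith
      have h6 := mul_le_mul_of_nonneg_left h5 hi0.le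
      have e3 : 1 / (g : ℝ) * ((2 * B₀ + 1) * g) = 2 * B₀ + 1 := by field_simp
      linarith
    have h5 : (4 * log 2 + 1) * PB ≤ 4 * PB := by
      refine mul_le_mul_of_nonneg_right ?_ (Nat.cast_nonneg _)
      have := Real.log_two_lt_d9
      linarith
    have e4 : (PB : ℝ) * ((3 * kN + 9) * log g + 4 * log g) = PB * (3 * kN + 13) * log g := by
      ring
    rw [e4]
    linarith
  · exact fun t a a' h hth => H819.Th_congr t a a' h hth
  · intro t a _ hb b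
    have h1 := hb (if b then 1 else 0) (by cases b <;> simp)
    refine h1.trans (le_of_eq (PE_congr fun a' => ?_))
    refine and_congr_right fun h => and_congr_left fun _ => ?_
    have hD : S.F.D u t a'.2 = S.F.D u t a.2 := Rt_D u γ' t a' a h
    show S.F.D u (t + 1) a'.2 = 2 * S.F.D u t a.2 + (if b then 1 else 0) ↔
      S.F.D u (t + 1) a'.2 = 2 * S.F.D u t a'.2 + (if b then 1 else 0)
    rw [hD]

end Vale.Agent.P065.H806
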